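import Crest.Agent.Lib.OTS.Defs

/-!
# Basic facts on the tilted measure (task T4a)
-/

open MeasureTheory Set
open scoped ENNReal RealInnerProductSpace

namespace Crest.Agent.OTS

variable {d : ℕ} {K : Set (EE d)}

lemma Admissible.density_pos {ε : ℝ} {g : EE d → ℝ} (h : Admissible K ε g) {x : EE d} (hx : x ∈ K) :
    1 / 2 ≤ 1 + ε * g x ∧ 1 + ε * g x ≤ 3 / 2 := by
  have := abs_le.1 (h.small x hx)
  constructor <;> linarith [this.1, this.2]

theorem tilt_absCont (ε : ℝ) (g : EE d → ℝ) : tilt K ε g ≪ volume :=
  (withDensity_absolutelyContinuous _ _).trans rho_absCont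

theorem tilt_absCont_rho (ε : ℝ) (g : EE d → ℝ) : tilt K ε g ≪ rho K :=
  withDensity_absolutelyContinuous _ _

lemma Admissible.integrable {ε : ℝ} {g : EE d → ℝ} (hK : Body K) (h : Admissible K ε g) :
    Integrable g (rho K) := by
  have := hK.isProb
  obtain ⟨B, hB⟩ := h.bdd
  refine Integrable.of_bound h.meas.aestronglyMeasurable B ?_
  filter_upwards [hK.ae_mem] with x hx
  simpa using hB x hx

/-- Integrals against the tilted measure. -/
lemma integral_tilt {ε : ℝ} {g : EE d → ℝ} (hK : Body K) (h : Admissible K ε g) {F : Type*}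
    [NormedAddCommGroup F] [NormedSpace ℝ F] (φ : EE d → F) :
    ∫ x, φ x ∂(tilt K ε g) = ∫ x, (1 + ε * g x) • φ x ∂(rho K) := by
  unfold tilt
  have hm : Measurable fun x => ENNReal.ofReal (1 + ε * g x) :=
    ((measurable_const.add (measurable_const.mul h.meas))).ennreal_ofReal
  rw [integral_withDensity_eq_integral_toReal_smul hm
    (Filter.Eventually.of_forall fun _ => ENNReal.ofReal_lt_top)]
  refine integral_congr_ae ?_
  filter_upwards [hK.ae_mem] with x hx
  rw [ENNReal.toReal_ofReal (by linarith [(h.density_pos hx).1])]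

theorem tilt_isProb {ε : ℝ} {g : EE d → ℝ} (hK : Body K) (h : Admissible K ε g) :
    IsProbabilityMeasure (tilt K ε g) := by
  have := hK.isProb
  constructor
  have hm : Measurable fun x => ENNReal.ofReal (1 + ε * g x) :=
    ((measurable_const.add (measurable_const.mul h.meas))).ennreal_ofReal
  unfold tilt
  rw [withDensity_apply _ MeasurableSet.univ, Measure.restrict_univ,
    ← ofReal_integral_eq_lintegral_ofReal]
  · rw [integral_add (integrable_const _) ((h.integrable hK).const_mul _), integral_const,
      integral_const_mul, h.mean]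
    simp
  · exact (integrable_const _).add ((h.integrable hK).const_mul _)
  · filter_upwards [hK.ae_mem] with x hx
    simpa using (by linarith [(h.density_pos hx).1] : (0:ℝ) ≤ 1 + ε * g x)

theorem tilt_compl (hK : Body K) (ε : ℝ) (g : EE d → ℝ) : tilt K ε g Kᶜ = 0 :=
  (withDensity_absolutelyContinuous _ _) hK.rho_compl

end Crest.Agent.OTS
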