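import Crest.Agent.Lib.OTS.VarDual
import Crest.Agent.Lib.OTS.Tilt

/-!
# Legendre transform relative to the body, the excess of an optimal map (part of task T8)
-/

open MeasureTheory Set
open scoped ENNReal NNReal RealInnerProductSpace

namespace Crest.Agent.OTS

open Crest.AnalysisR.OT

variable {d : ℕ} {K : Set (EE d)}

section leg

variable {ψ : EE d → ℝ}

lemma legK_bddAbove (hK : Body K) (hψ : Continuous ψ) (z : EE d) :
    BddAbove (range fun x : K => ⟪(x : EE d), z⟫ - ψ x) := by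
  have hc : ContinuousOn (fun x : EE d => ⟪x, z⟫ - ψ x) K := by
    apply Continuous.continuousOn; fun_prop
  obtain ⟨B, hB⟩ := (hK.compact.image_of_continuousOn hc).bddAbove
  refine ⟨B, ?_⟩
  rintro _ ⟨x, rfl⟩
  exact hB ⟨x, x.2, rfl⟩

lemma le_legK' (hK : Body K) (hψ : Continuous ψ) {x : EE d} (hx : x ∈ K) (z : EE d) :
    ⟪x, z⟫ - ψ x ≤ legK K ψ z :=
  le_ciSup (f := fun x : K => ⟪(x : EE d), z⟫ - ψ x) (legK_bddAbove hK hψ z) ⟨x, hx⟩

lemma Body.nonempty (hK : Body K) : K.Nonempty := by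
  obtain ⟨x, hx⟩ := hK.interior_nonempty
  exact ⟨x, interior_subset hx⟩

lemma legK_eq_of_subgrad (hK : Body K) (hψ : Continuous ψ) {x : EE d} (hx : x ∈ K) {z : EE d}
    (h : ∀ x' ∈ K, ψ x + ⟪z, x' - x⟫ ≤ ψ x') : legK K ψ z = ⟪x, z⟫ - ψ x := by
  apply le_antisymm
  · have hne : Nonempty K := hK.nonempty.to_subtype
    refine ciSup_le fun x' => ?_
    have := h x' x'.2
    rw [inner_sub_right, real_inner_comm (x' : EE d) z, real_inner_comm x z] at this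
    linarith
  · exact le_legK' hK hψ hx z

lemma legK_le_add (hK : Body K) (hψ : Continuous ψ) {D : ℝ} (hD : ∀ x ∈ K, ‖x‖ ≤ D) (z z' : EE d) :
    legK K ψ z ≤ legK K ψ z' + D * ‖z - z'‖ := by
  have hne : Nonempty K := hK.nonempty.to_subtype
  refine ciSup_le fun x => ?_
  have h1 := le_legK' hK hψ x.2 z'
  have h2 : ⟪(x : EE d), z - z'⟫ ≤ D * ‖z - z'‖ :=
    (real_inner_le_norm _ _).trans (mul_le_mul_of_nonneg_right (hD x x.2) (norm_nonneg _))
  rw [inner_sub_right] at h2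
  linarith

lemma continuous_legK (hK : Body K) (hψ : Continuous ψ) : Continuous (legK K ψ) := by
  obtain ⟨D, hD⟩ : ∃ D, ∀ x ∈ K, ‖x‖ ≤ D := hK.compact.exists_bound_of_continuousOn
    continuous_id.continuousOn
  have hD0 : 0 ≤ D := by
    obtain ⟨x, hx⟩ := hK.nonempty
    exact (norm_nonneg _).trans (hD x hx)
  have : LipschitzWith (Real.toNNReal D) (legK K ψ) := by
    refine LipschitzWith.of_dist_le_mul fun z z' => ?_
    rw [Real.dist_eq, dist_eq_norm, Real.coe_toNNReal _ hD0, abs_le]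
    have h1 := legK_le_add hK hψ hD z z'
    have h2 := legK_le_add hK hψ hD z' z
    rw [norm_sub_rev] at h2
    constructor <;> linarith
  exact this.continuous

end leg

/-- A measurable map with image measure carried by `Y` takes values in `Y` a.e. -/
lemma ae_mem_of_map {ρ μ : Measure (EE d)} {Y : Set (EE d)} (hYm : MeasurableSet Y)
    {T : EE d → EE d} (hT : Measurable T) (hmap : ρ.map T = μ) (hμ : μ Yᶜ = 0) :
    ∀ᵐ x ∂ρ, T x ∈ Y := by
  rw [ae_iff]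
  have : ρ (T ⁻¹' Yᶜ) = 0 := by
    rw [← Measure.map_apply hT hYm.compl, hmap, hμ]
  exact this

/-- Bounded measurable functions are integrable. -/
lemma integrable_of_ae_bdd {ρ : Measure (EE d)} [IsFiniteMeasure ρ] {f : EE d → ℝ}
    (hf : Measurable f) {B : ℝ} (hB : ∀ᵐ x ∂ρ, |f x| ≤ B) : Integrable f ρ :=
  Integrable.of_bound hf.aestronglyMeasurable B (by simpa using hB)

/-- Conversion of the quadratic lintegral. -/
lemma lintegral_enorm_sq {ρ : Measure (EE d)} [IsFiniteMeasure ρ] {f : EE d → EE d}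
    (hf : Measurable f) {B : ℝ} (hB : ∀ᵐ x ∂ρ, ‖f x‖ ≤ B) :
    ∫⁻ x, ‖f x‖ₑ ^ 2 ∂ρ = ENNReal.ofReal (∫ x, ‖f x‖ ^ 2 ∂ρ) := by
  have hm : Measurable fun x => ‖f x‖ ^ 2 := (hf.norm).pow_const 2
  have hint : Integrable (fun x => ‖f x‖ ^ 2) ρ := by
    refine integrable_of_ae_bdd hm (B := B ^ 2) ?_
    filter_upwards [hB] with x hx
    rw [abs_of_nonneg (sq_nonneg _)]
    exact pow_le_pow_left₀ (norm_nonneg _) hx 2
  rw [ofReal_integral_eq_lintegral_ofReal hint (Filter.Eventually.of_forall fun x => sq_nonneg _)]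
  refine lintegral_congr fun x => ?_
  rw [ENNReal.ofReal_pow (norm_nonneg _), ofReal_norm]

/-- The excess of an optimal map with respect to a convex potential `ψ` with subgradient `Tδ`, if
some competitor `S₁` is uniformly close to `Tδ`. -/
theorem excess_bound (hK : Body K) {μ : Measure (EE d)} {Y : Set (EE d)} (hYm : MeasurableSet Y)
    {R : ℝ} (hYR : ∀ y ∈ Y, ‖y‖ ≤ R) (hμY : μ Yᶜ = 0) {T S₁ Tδ : EE d → EE d}
    (hopt : IsOptimalMap (uniformProbOn K) μ T) (hS₁ : Measurable S₁) (hS₁map : (rho K).map S₁ = μ)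
    {ψ : EE d → ℝ} (hψ : Continuous ψ) {D δ : ℝ} (hD : ∀ x ∈ K, ‖x‖ ≤ D)
    (hclose : ∀ᵐ x ∂(rho K), ‖S₁ x - Tδ x‖ ≤ δ)
    (hsub : ∀ᵐ x ∂(rho K), ∀ x' ∈ K, ψ x + ⟪Tδ x, x' - x⟫ ≤ ψ x') :
    ∫ x, (legK K ψ (T x) + ψ x - ⟪x, T x⟫) ∂(rho K) ≤ 2 * D * δ := by
  have hρ := hK.isProb
  have hD0 : 0 ≤ D := by
    obtain ⟨x, hx⟩ := hK.nonempty
    exact (norm_nonneg _).trans (hD x hx)
  obtain ⟨hTm, hTmap, hTopt⟩ := hopt
  have hTY : ∀ᵐ x ∂(rho K), T x ∈ Y := ae_mem_of_map hYm hTm hTmap hμY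
  have hSY : ∀ᵐ x ∂(rho K), S₁ x ∈ Y := ae_mem_of_map hYm hS₁ hS₁map hμY
  have hKae := hK.ae_mem
  have hL := continuous_legK hK hψ
  -- boundedness of `legK` on the ball of radius `R`
  obtain ⟨LB, hLB⟩ := (isCompact_closedBall (0 : EE d) R).exists_bound_of_continuousOn hL.continuousOn
  obtain ⟨PB, hPB⟩ := hK.compact.exists_bound_of_continuousOn hψ.continuousOn
  have hip : ∀ {U : EE d → EE d}, Measurable U → (∀ᵐ x ∂(rho K), U x ∈ Y) →
      Integrable (fun x => ⟪x, U x⟫) (rho K) := by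
    intro U hU hUY
    refine integrable_of_ae_bdd (measurable_id.inner hU) (B := D * R) ?_
    filter_upwards [hKae, hUY] with x hx hx2
    exact (abs_real_inner_le_norm _ _).trans
      (mul_le_mul (hD x hx) (hYR _ hx2) (norm_nonneg _) hD0)
  have hLint : ∀ {U : EE d → EE d}, Measurable U → (∀ᵐ x ∂(rho K), U x ∈ Y) →
      Integrable (fun x => legK K ψ (U x)) (rho K) := by
    intro U hU hUY
    refine integrable_of_ae_bdd (hL.measurable.comp hU) (B := LB) ?_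
    filter_upwards [hUY] with x hx2
    have := hLB (U x) (mem_closedBall_zero_iff.2 (hYR _ hx2))
    simpa using this
  have hψint : Integrable ψ (rho K) := integrable_of_continuous hK.compact hK.rho_compl hψ
  have hsq : ∀ {U : EE d → EE d}, Measurable U → (∀ᵐ x ∂(rho K), U x ∈ Y) →
      Integrable (fun x => ‖U x‖ ^ 2) (rho K) := by
    intro U hU hUY
    refine integrable_of_ae_bdd ((hU.norm).pow_const 2) (B := R ^ 2) ?_
    filter_upwards [hUY] with x hx2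
    rw [abs_of_nonneg (sq_nonneg _)]
    exact pow_le_pow_left₀ (norm_nonneg _) (hYR _ hx2) 2
  have hxsq : Integrable (fun x : EE d => ‖x‖ ^ 2) (rho K) :=
    integrable_of_continuous hK.compact hK.rho_compl (by fun_prop)
  -- the expansion of the cost
  have hexp : ∀ {U : EE d → EE d}, Measurable U → (∀ᵐ x ∂(rho K), U x ∈ Y) →
      ∫ x, ‖x - U x‖ ^ 2 ∂(rho K) = ∫ x, ‖x‖ ^ 2 ∂(rho K) - 2 * ∫ x, ⟪x, U x⟫ ∂(rho K) +
        ∫ x, ‖U x‖ ^ 2 ∂(rho K) := by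
    intro U hU hUY
    have : ∀ x, ‖x - U x‖ ^ 2 = ‖x‖ ^ 2 - 2 * ⟪x, U x⟫ + ‖U x‖ ^ 2 := fun x =>
      norm_sub_sq_real _ _
    simp only [this]
    have h1 : Integrable (fun x => ‖x‖ ^ 2 - 2 * ⟪x, U x⟫) (rho K) :=
      hxsq.sub ((hip hU hUY).const_mul 2)
    rw [integral_add h1 (hsq hU hUY),
      integral_sub hxsq ((hip hU hUY).const_mul 2), integral_const_mul]
  -- equality of the image integrals
  have hsqeq : ∫ x, ‖T x‖ ^ 2 ∂(rho K) = ∫ x, ‖S₁ x‖ ^ 2 ∂(rho K) := by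
    have h1 : ∫ y, ‖y‖ ^ 2 ∂((rho K).map T) = ∫ x, ‖T x‖ ^ 2 ∂(rho K) :=
      integral_map hTm.aemeasurable (by fun_prop)
    have h2 : ∫ y, ‖y‖ ^ 2 ∂((rho K).map S₁) = ∫ x, ‖S₁ x‖ ^ 2 ∂(rho K) :=
      integral_map hS₁.aemeasurable (by fun_prop)
    rw [← h1, ← h2, hTmap, hS₁map]
  have hLeq : ∫ x, legK K ψ (T x) ∂(rho K) = ∫ x, legK K ψ (S₁ x) ∂(rho K) := by
    have h1 : ∫ y, legK K ψ y ∂((rho K).map T) = ∫ x, legK K ψ (T x) ∂(rho K) :=
      integral_map hTm.aemeasurable hL.aestronglyMeasurable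
    have h2 : ∫ y, legK K ψ y ∂((rho K).map S₁) = ∫ x, legK K ψ (S₁ x) ∂(rho K) :=
      integral_map hS₁.aemeasurable hL.aestronglyMeasurable
    rw [← h1, ← h2, hTmap, hS₁map]
  -- optimality
  have hbd : ∀ {U : EE d → EE d}, (∀ᵐ x ∂(rho K), U x ∈ Y) → ∀ᵐ x ∂(rho K), ‖x - U x‖ ≤ D + R := by
    intro U hUY
    filter_upwards [hKae, hUY] with x hx hx2
    exact (norm_sub_le _ _).trans (add_le_add (hD x hx) (hYR _ hx2))
  have hoptR : ∫ x, ‖x - T x‖ ^ 2 ∂(rho K) ≤ ∫ x, ‖x - S₁ x‖ ^ 2 ∂(rho K) := by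
    have h := hTopt S₁ hS₁ hS₁map
    have e1 := lintegral_enorm_sq (ρ := rho K) (f := fun x => x - T x) (measurable_id.sub hTm)
      (hbd hTY)
    have e2 := lintegral_enorm_sq (ρ := rho K) (f := fun x => x - S₁ x) (measurable_id.sub hS₁)
      (hbd hSY)
    have h' : ∫⁻ x, ‖x - T x‖ₑ ^ 2 ∂(rho K) ≤ ∫⁻ x, ‖x - S₁ x‖ₑ ^ 2 ∂(rho K) := h
    rw [e1, e2] at h'
    exact (ENNReal.ofReal_le_ofReal_iff (integral_nonneg fun _ => sq_nonneg _)).1 h'
  rw [hexp hTm hTY, hexp hS₁ hSY, hsqeq] at hoptR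
  have hcross : ∫ x, ⟪x, S₁ x⟫ ∂(rho K) ≤ ∫ x, ⟪x, T x⟫ ∂(rho K) := by linarith
  -- the integral of the excess
  have hT1 : ∫ x, (legK K ψ (T x) + ψ x - ⟪x, T x⟫) ∂(rho K) =
      ∫ x, legK K ψ (T x) ∂(rho K) + ∫ x, ψ x ∂(rho K) - ∫ x, ⟪x, T x⟫ ∂(rho K) := by
    have h1 : Integrable (fun x => legK K ψ (T x) + ψ x) (rho K) := (hLint hTm hTY).add hψint
    rw [integral_sub h1 (hip hTm hTY), integral_add (hLint hTm hTY) hψint]
  have hS1 : ∫ x, (legK K ψ (S₁ x) + ψ x - ⟪x, S₁ x⟫) ∂(rho K) =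
      ∫ x, legK K ψ (S₁ x) ∂(rho K) + ∫ x, ψ x ∂(rho K) - ∫ x, ⟪x, S₁ x⟫ ∂(rho K) := by
    have h1 : Integrable (fun x => legK K ψ (S₁ x) + ψ x) (rho K) := (hLint hS₁ hSY).add hψint
    rw [integral_sub h1 (hip hS₁ hSY), integral_add (hLint hS₁ hSY) hψint]
  have hle : ∫ x, (legK K ψ (T x) + ψ x - ⟪x, T x⟫) ∂(rho K) ≤
      ∫ x, (legK K ψ (S₁ x) + ψ x - ⟪x, S₁ x⟫) ∂(rho K) := by
    rw [hT1, hS1, hLeq]; linarith
  refine hle.trans ?_
  -- pointwise bound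
  have hpt : ∀ᵐ x ∂(rho K), legK K ψ (S₁ x) + ψ x - ⟪x, S₁ x⟫ ≤ 2 * D * δ := by
    filter_upwards [hKae, hclose, hsub] with x hx hx1 hx2
    have e := legK_eq_of_subgrad hK hψ hx hx2
    have h1 := legK_le_add hK hψ hD (S₁ x) (Tδ x)
    have h2 : ⟪x, Tδ x - S₁ x⟫ ≤ D * δ := by
      refine (real_inner_le_norm _ _).trans (mul_le_mul (hD x hx) ?_ (norm_nonneg _) hD0)
      rwa [norm_sub_rev]
    have h3 : D * ‖S₁ x - Tδ x‖ ≤ D * δ := mul_le_mul_of_nonneg_left hx1 hD0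
    rw [inner_sub_right] at h2
    linarith
  have hint : Integrable (fun x => legK K ψ (S₁ x) + ψ x - ⟪x, S₁ x⟫) (rho K) :=
    ((hLint hS₁ hSY).add hψint).sub (hip hS₁ hSY)
  calc ∫ x, (legK K ψ (S₁ x) + ψ x - ⟪x, S₁ x⟫) ∂(rho K) ≤ ∫ _x, 2 * D * δ ∂(rho K) :=
        integral_mono_ae hint (integrable_const _) hpt
    _ = 2 * D * δ := by simp

end Crest.Agent.OTS
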