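import Crest.Agent.Lib.OTS.Defs

/-!
# Any finite measure is the image of a restricted absolutely continuous measure (task T7)

`A` measurable, `ρ ≪ volume` finite, `λ` finite with `λ univ = ρ A`.  Then some measurable `S` has
`(ρ.restrict A).map S = λ`.  Proof: after normalisation the law of a linear coordinate `p` under
`ρ.restrict A` has no atoms, so its cumulative distribution function `F` pushes it to the uniform
measure on the unit interval, and the unit interval maps onto every probability measure on a standard
Borel space (`MeasureTheory.Measure.exists_measurable_map_eq`).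
-/

open MeasureTheory Set Filter ProbabilityTheory
open scoped ENNReal Topology RealInnerProductSpace unitInterval

namespace Crest.Agent.OTS

variable {d : ℕ}

private lemma continuous_cdf (ν : Measure ℝ) [IsProbabilityMeasure ν] [NullSingletonClass ν] :
    Continuous (cdf ν) := by
  rw [continuous_iff_continuousAt]
  intro a
  have hleft : Function.leftLim (cdf ν) a = cdf ν a := by
    have h1 : (cdf ν).measure {a} = 0 := by
      rw [measure_cdf]; exact measure_singleton a
    rw [StieltjesFunction.measure_singleton, ENNReal.ofReal_eq_zero] at h1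
    exact le_antisymm ((monotone_cdf ν).leftLim_le le_rfl) (by linarith)
  have h2 : ContinuousWithinAt (cdf ν) (Iio a) a :=
    ((monotone_cdf ν).continuousWithinAt_Iio_iff_leftLim_eq).2 hleft
  have h3 : ContinuousWithinAt (cdf ν) (Ioi a) a :=
    ((cdf ν).right_continuous a).mono Ioi_subset_Ici_self
  exact continuousAt_iff_continuous_left'_right'.2 ⟨h2, h3⟩

/-- The `cdf` as a map to the unit interval. -/
private noncomputable def cdfI (ν : Measure ℝ) (s : ℝ) : I :=
  ⟨cdf ν s, cdf_nonneg ν s, cdf_le_one ν s⟩

private lemma measurable_cdfI (ν : Measure ℝ) : Measurable (cdfI ν) :=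
  (monotone_cdf ν).measurable.subtype_mk

/-- Probability integral transform. -/
private lemma map_cdfI (ν : Measure ℝ) [IsProbabilityMeasure ν] [NullSingletonClass ν] :
    ν.map (cdfI ν) = volume := by
  have : IsProbabilityMeasure (ν.map (cdfI ν)) :=
    Measure.isProbabilityMeasure_map (measurable_cdfI ν).aemeasurable
  refine Measure.ext_of_Iic _ _ fun t => ?_
  rw [Measure.map_apply (measurable_cdfI ν) measurableSet_Iic, unitInterval.volume_Iic]
  have hcont := continuous_cdf ν
  set D : Set ℝ := {s | cdf ν s ≤ (t : ℝ)} with hD
  have hpre : cdfI ν ⁻¹' Iic t = D := by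
    ext s
    simp only [mem_preimage, mem_Iic, cdfI, hD, mem_ofPred_eq]
    exact Iff.rfl
  rw [hpre]
  have hclosed : IsClosed D := isClosed_le hcont continuous_const
  by_cases hne : D.Nonempty
  · by_cases hbdd : BddAbove D
    · -- `D = Iic (sSup D)`
      set s₀ := sSup D with hs₀
      have hs₀mem : s₀ ∈ D := hclosed.csSup_mem hne hbdd
      have hDeq : D = Iic s₀ := by
        ext s
        constructor
        · intro hs; exact le_csSup hbdd hs
        · intro hs
          exact le_trans (monotone_cdf ν hs) hs₀mem
      have hval : cdf ν s₀ = t := by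
        apply le_antisymm hs₀mem
        by_contra hlt
        push Not at hlt
        have hev : ∀ᶠ s in 𝓝 s₀, cdf ν s < t := hcont.continuousAt.eventually_lt continuousAt_const hlt
        obtain ⟨s, hs, hst⟩ := hev.exists_gt
        have : s ∈ D := hst.le
        exact absurd (le_csSup hbdd this) (not_le.2 hs)
      rw [hDeq, ← ofReal_cdf ν s₀, hval]
    · -- `D = univ`
      have hDu : D = univ := by
        ext s
        simp only [mem_univ, iff_true]
        rw [not_bddAbove_iff] at hbdd
        obtain ⟨s', hs', hss'⟩ := hbdd s
        exact le_trans (monotone_cdf ν hss'.le) hs'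
      have h1 : (1:ℝ) ≤ t := by
        refine le_of_tendsto' (tendsto_cdf_atTop ν) fun s => ?_
        have : s ∈ D := by rw [hDu]; trivial
        exact this
      have ht1 : (t:ℝ) = 1 := le_antisymm t.2.2 h1
      rw [hDu, ht1]
      simp
  · -- `D = ∅`
    have hDe : D = ∅ := not_nonempty_iff_eq_empty.1 hne
    have ht0 : (t:ℝ) = 0 := by
      by_contra h0
      have hpos : (0:ℝ) < t := lt_of_le_of_ne t.2.1 (Ne.symm h0)
      have hev := (tendsto_cdf_atBot ν).eventually (gt_mem_nhds hpos)
      obtain ⟨s, hs⟩ := hev.exists
      exact hne ⟨s, hs.le⟩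
    rw [hDe, ht0]
    simp

theorem exists_map_restrict_eq (hd : 0 < d) {ρ : Measure (EE d)} [IsFiniteMeasure ρ]
    (hρ : ρ ≪ volume) {A : Set (EE d)} (hA : MeasurableSet A) (lam : Measure (EE d))
    [IsFiniteMeasure lam] (hlam : lam univ = ρ A) :
    ∃ S : EE d → EE d, Measurable S ∧ (ρ.restrict A).map S = lam := by
  classical
  set T : ℝ≥0∞ := ρ A with hT
  have hTtop : T ≠ ⊤ := measure_ne_top _ _
  by_cases hT0 : T = 0
  · refine ⟨id, measurable_id, ?_⟩
    have h1 : lam = 0 := by
      rw [← Measure.measure_univ_eq_zero, hlam]; exact hT0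
    have h2 : ρ.restrict A = 0 := by
      rw [Measure.restrict_eq_zero]; exact hT0
    rw [h1, h2]; simp
  -- Normalised measures
  set μ' : Measure (EE d) := T⁻¹ • ρ.restrict A with hμ'
  set lam' : Measure (EE d) := T⁻¹ • lam with hlam'
  have hμ'prob : IsProbabilityMeasure μ' := by
    constructor
    simp only [hμ', Measure.smul_apply, smul_eq_mul, Measure.restrict_apply_univ]
    exact ENNReal.inv_mul_cancel hT0 hTtop
  have hlam'prob : IsProbabilityMeasure lam' := by
    constructor
    simp only [hlam', Measure.smul_apply, smul_eq_mul, hlam]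
    exact ENNReal.inv_mul_cancel hT0 hTtop
  -- the linear coordinate
  let n : EE d := EuclideanSpace.single ⟨0, hd⟩ 1
  have hn : n ≠ 0 := by
    intro h
    have := congrArg (fun v : EE d => v ⟨0, hd⟩) h
    simp [n] at this
  let p : EE d → ℝ := fun x => ⟪x, n⟫
  have hp : Measurable p := by
    have : Continuous p := by fun_prop
    exact this.measurable
  set ν : Measure ℝ := μ'.map p with hν
  have hνprob : IsProbabilityMeasure ν := Measure.isProbabilityMeasure_map hp.aemeasurable
  have hνatom : NullSingletonClass ν := by
    constructor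
    intro s
    rw [hν, Measure.map_apply hp (measurableSet_singleton s)]
    have hzero : volume (p ⁻¹' {s}) = 0 := volume_hyperplane hn s
    have hac : μ' ≪ volume := by
      have h1 : ρ.restrict A ≪ volume := Measure.restrict_le_self.absolutelyContinuous.trans hρ
      exact (Measure.AbsolutelyContinuous.smul_left (Measure.AbsolutelyContinuous.refl _) _).trans h1
    exact hac hzero
  obtain ⟨f, hf, hflam⟩ := Measure.exists_measurable_map_eq lam'
  refine ⟨f ∘ cdfI ν ∘ p, hf.comp ((measurable_cdfI ν).comp hp), ?_⟩
  have hmain : μ'.map (f ∘ cdfI ν ∘ p) = lam' := by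
    rw [← Measure.map_map hf ((measurable_cdfI ν).comp hp),
      ← Measure.map_map (measurable_cdfI ν) hp, ← hν, map_cdfI, hflam]
  have hμ : ρ.restrict A = T • μ' := by
    rw [hμ', smul_smul, ENNReal.mul_inv_cancel hT0 hTtop, one_smul]
  have hlameq : lam = T • lam' := by
    rw [hlam', smul_smul, ENNReal.mul_inv_cancel hT0 hTtop, one_smul]
  rw [hμ, Measure.map_smul, hmain, ← hlameq]

end Crest.Agent.OTS
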