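import Crest.Agent.Lib.OTS.VarChain
import Crest.Agent.Lib.OTS.MapLemma
import Crest.Agent.Lib.OTS.Excess

/-!
# Discretisation of a coupling and competitors for optimal maps (part of task T8)
-/

open MeasureTheory Set
open scoped ENNReal NNReal RealInnerProductSpace

namespace Crest.Agent.OTS

open Crest.AnalysisR.OT

variable {d : ℕ} {K : Set (EE d)}

/-- A finite measurable partition into small pieces (positive mass only). -/
lemma exists_cells {π : Measure (EE d × EE d)} [IsProbabilityMeasure π] {Z : Set (EE d × EE d)}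
    (hZ : IsCompact Z) (hπZ : π Zᶜ = 0) {δ : ℝ} (hδ : 0 < δ) :
    ∃ (I : Type) (_ : Fintype I) (_ : Nonempty I) (Q : I → Set (EE d × EE d))
      (p : I → EE d × EE d),
      (∀ a, MeasurableSet (Q a)) ∧ Pairwise (Function.onFun Disjoint Q) ∧ (∀ a, 0 < π (Q a)) ∧
      π (⋃ a, Q a)ᶜ = 0 ∧ (∀ a, ∀ q ∈ Q a, dist q (p a) < δ) ∧ (∀ a, ∃ q ∈ Q a, q ∈ Z) := by
  classical
  obtain ⟨s, -, hsf, hcov⟩ := hZ.finite_cover_balls hδ
  have hsF : Finite s := hsf
  obtain ⟨n, ⟨e⟩⟩ := Finite.exists_equiv_fin s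
  let B : ℕ → Set (EE d × EE d) := fun k =>
    if h : k < n then Metric.ball ((e.symm ⟨k, h⟩ : s) : EE d × EE d) δ else ∅
  have hBm : ∀ k, MeasurableSet (B k) := fun k => by
    by_cases h : k < n
    · simp only [B, h, dif_pos]; exact Metric.isOpen_ball.measurableSet
    · simp only [B, h, dif_neg, not_false_eq_true]; exact MeasurableSet.empty
  let Q' : ℕ → Set (EE d × EE d) := disjointed B
  have hQ'm : ∀ k, MeasurableSet (Q' k) := MeasurableSet.disjointed hBm
  have hQ'd : Pairwise (Function.onFun Disjoint Q') := disjoint_disjointed B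
  have hQ'sub : ∀ k, Q' k ⊆ B k := disjointed_subset B
  have hZU : Z ⊆ ⋃ k, Q' k := by
    rw [iUnion_disjointed]
    intro z hz
    obtain ⟨x, hx, hzx⟩ := mem_iUnion₂.1 (hcov hz)
    let i := e ⟨x, hx⟩
    refine mem_iUnion.2 ⟨i.1, ?_⟩
    simp only [B, i.2, dif_pos]
    have : e.symm ⟨(i : ℕ), i.2⟩ = ⟨x, hx⟩ := by simp [i]
    rw [this]
    exact hzx
  -- the indices of positive mass
  let I : Type := {k : Fin n // 0 < π (Q' k)}
  have hIf : Finite I := inferInstance
  have hIF : Fintype I := Fintype.ofFinite I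
  have hzero : ∀ k : ℕ, (∀ h : k < n, ¬ 0 < π (Q' k)) → π (Q' k) = 0 := by
    intro k hk
    by_cases h : k < n
    · simpa using hk h
    · have : Q' k ⊆ ∅ := by
        refine (hQ'sub k).trans ?_
        simp [B, h]
      exact measure_mono_null this (measure_empty)
  have hcover : π (⋃ a : I, Q' a.1)ᶜ = 0 := by
    have hsub : (⋃ a : I, Q' a.1)ᶜ ⊆ Zᶜ ∪ ⋃ k : {k : ℕ // π (Q' k) = 0}, Q' k.1 := by
      intro x hx
      by_cases hxZ : x ∈ Z
      · obtain ⟨k, hk⟩ := mem_iUnion.1 (hZU hxZ)
        right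
        refine mem_iUnion.2 ⟨⟨k, hzero k ?_⟩, hk⟩
        intro h hpos
        exact hx (mem_iUnion.2 ⟨⟨⟨k, h⟩, hpos⟩, hk⟩)
      · exact Or.inl hxZ
    refine measure_mono_null hsub (measure_union_null hπZ ?_)
    rw [measure_iUnion_null_iff]
    exact fun k => k.2
  have hINE : Nonempty I := by
    by_contra hne
    rw [not_nonempty_iff] at hne
    have : (⋃ a : I, Q' a.1)ᶜ = univ := by
      simp
    rw [this, measure_univ] at hcover
    exact one_ne_zero hcover
  refine ⟨I, hIF, hINE, fun a => Q' a.1, fun a => ((e.symm a.1 : s) : EE d × EE d),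
    fun a => hQ'm _, ?_, fun a => a.2, hcover, ?_, ?_⟩
  · intro a b hab
    refine hQ'd ?_
    intro h
    exact hab (Subtype.ext (Fin.ext h))
  · intro a q hq
    have := hQ'sub _ hq
    simp only [B, a.1.2, dif_pos] at this
    exact this
  · intro a
    by_contra hne
    push Not at hne
    have hsub : Q' a.1 ⊆ Zᶜ := fun q hq hqZ => hne q hq hqZ
    exact (a.2).ne' (measure_mono_null hsub hπZ)

/-- Perturbing to injective atoms. -/
lemma exists_atoms (hd : 0 < d) {I : Type} [Fintype I] (p : I → EE d) {δ : ℝ} (hδ : 0 < δ) :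
    ∃ y : I → EE d, Function.Injective y ∧ ∀ a, ‖y a - p a‖ < δ := by
  classical
  let e₀ : EE d := EuclideanSpace.single ⟨0, hd⟩ 1
  have he₀ : e₀ ≠ 0 := by
    intro h
    have := congrArg norm h
    simp [e₀] at this
  let idx : I ≃ Fin (Fintype.card I) := Fintype.equivFin I
  let w : I → EE d := fun a => (((idx a : ℕ) : ℝ)) • e₀
  have hw : Function.Injective w := by
    intro a b hab
    have h1 : (((idx a : ℕ) : ℝ)) = ((idx b : ℕ) : ℝ) := smul_left_injective ℝ he₀ hab
    have h2 : (idx a : ℕ) = idx b := by exact_mod_cast h1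
    exact idx.injective (Fin.ext h2)
  set Bw : ℝ := ∑ a, ‖w a‖ + 1 with hBw
  have hBw0 : 0 < Bw := by
    have : 0 ≤ ∑ a, ‖w a‖ := Finset.sum_nonneg fun _ _ => norm_nonneg _
    linarith
  obtain ⟨τ, h1, h2, h3⟩ := exists_tau_injective p hw (div_pos hδ hBw0)
  refine ⟨_, h3, fun a => ?_⟩
  simp only [add_sub_cancel_left, norm_smul, Real.norm_eq_abs, abs_of_pos h1]
  have h4 : ‖w a‖ ≤ Bw := by
    have : ‖w a‖ ≤ ∑ a, ‖w a‖ := Finset.single_le_sum (f := fun a => ‖w a‖)
      (fun _ _ => norm_nonneg _) (Finset.mem_univ a)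
    linarith
  calc τ * ‖w a‖ ≤ τ * Bw := mul_le_mul_of_nonneg_left h4 h1.le
    _ < δ / Bw * Bw := mul_lt_mul_of_pos_right h2 hBw0
    _ = δ := div_mul_cancel₀ _ hBw0.ne'

/-- Splitting a measure along a finite a.e.-partition. -/
lemma measure_eq_sum_inter {α : Type*} [MeasurableSpace α] {lam : Measure α} {I : Type} [Fintype I]
    {P : I → Set α} (hPm : ∀ a, MeasurableSet (P a)) (hPd : Pairwise (Function.onFun Disjoint P))
    (hc : lam (⋃ a, P a)ᶜ = 0) {B : Set α} (hB : MeasurableSet B) :
    lam B = ∑ a, lam (B ∩ P a) := by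
  have h1 : lam (B ∩ ⋃ a, P a) = ∑ a, lam (B ∩ P a) := by
    rw [inter_iUnion, measure_iUnion _ (fun a => hB.inter (hPm a)), tsum_fintype]
    intro a b hab
    exact (hPd hab).mono inter_subset_right inter_subset_right
  rw [← h1]
  have h2 : lam B = lam (B ∩ ⋃ a, P a) + lam (B \ ⋃ a, P a) :=
    (measure_inter_add_diff B (MeasurableSet.iUnion hPm)).symm
  rw [h2]
  have h3 : lam (B \ ⋃ a, P a) = 0 := measure_mono_null (fun x hx => hx.2) hc
  rw [h3, add_zero]

/-- The competitor map: same image measure as the marginal, uniformly close to the Laguerre map. -/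
theorem exists_competitor (hd : 0 < d) (hK : Body K) {π : Measure (EE d × EE d)}
    [IsFiniteMeasure π] {I : Type} [Fintype I] [Nonempty I] {Q : I → Set (EE d × EE d)}
    (hQm : ∀ a, MeasurableSet (Q a)) (hQd : Pairwise (Function.onFun Disjoint Q))
    (hQc : π (⋃ a, Q a)ᶜ = 0) {m : I → ℝ} (hπm : ∀ a, π (Q a) = ENNReal.ofReal (m a))
    {y : I → EE d} (hy : Function.Injective y) {c : I → ℝ}
    (hρm : ∀ a, rho K (lagCell y c a) = ENNReal.ofReal (m a))
    {fs : EE d × EE d → EE d} (hfs : Measurable fs) {δ : ℝ}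
    (hfsδ : ∀ a, ∀ q ∈ Q a, ‖fs q - y a‖ ≤ δ)
    {Tδ : EE d → EE d} (hTm : Measurable Tδ) (hTs : ∀ x, ∃ a, Tδ x = y a ∧ x ∈ lagCell y c a) :
    ∃ S₁ : EE d → EE d, Measurable S₁ ∧ (rho K).map S₁ = π.map fs ∧
      ∀ᵐ x ∂(rho K), ‖S₁ x - Tδ x‖ ≤ δ := by
  classical
  have hρ := hK.isProb
  have hρac : rho K ≪ volume := rho_absCont
  -- the exact partition
  let P : I → Set (EE d) := fun a => Tδ ⁻¹' {y a}
  have hPm : ∀ a, MeasurableSet (P a) := fun a => hTm (measurableSet_singleton _)
  have hPd : Pairwise (Function.onFun Disjoint P) := by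
    intro a b hab
    refine Set.disjoint_left.2 fun x hxa hxb => hab (hy ?_)
    have h1 : Tδ x = y a := hxa
    have h2 : Tδ x = y b := hxb
    rw [← h1, h2]
  have hPu : (⋃ a, P a) = univ := by
    ext x
    obtain ⟨a, ha, -⟩ := hTs x
    simp only [mem_iUnion, mem_univ, iff_true]
    exact ⟨a, ha⟩
  have hPsub : ∀ a, P a ⊆ lagCell y c a := by
    intro a x hx
    obtain ⟨b, hb, hxb⟩ := hTs x
    have h1 : Tδ x = y a := hx
    have : a = b := hy (h1.symm.trans hb)
    rw [this]; exact hxb
  have hPae : ∀ a, (P a : Set (EE d)) =ᵐ[rho K] lagCell y c a := by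
    intro a
    refine (ae_eq_set).2 ⟨?_, ?_⟩
    · rw [diff_eq_empty.2 (hPsub a)]; simp
    · have hsub : lagCell y c a \ P a ⊆ ⋃ b : {b // b ≠ a}, lagCell y c a ∩ lagCell y c b.1 := by
        rintro x ⟨hx1, hx2⟩
        obtain ⟨b, hb, hxb⟩ := hTs x
        have hne : b ≠ a := by
          rintro rfl
          exact hx2 hb
        exact mem_iUnion.2 ⟨⟨b, hne⟩, hx1, hxb⟩
      refine measure_mono_null hsub ?_
      rw [measure_iUnion_null_iff]
      intro b
      exact hρac (volume_lagCell_inter y c (fun h => b.2 (hy h.symm)))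
  -- the maps on each cell
  have hmap : ∀ a, ∃ S : EE d → EE d, Measurable S ∧
      ((rho K).restrict (lagCell y c a)).map S = (π.restrict (Q a)).map fs := by
    intro a
    have hf : IsFiniteMeasure ((π.restrict (Q a)).map fs) := inferInstance
    refine exists_map_restrict_eq hd hρac (measurableSet_lagCell y c a) _ ?_
    rw [Measure.map_apply hfs MeasurableSet.univ, preimage_univ, Measure.restrict_apply_univ, hπm,
      hρm]
  choose S hSm hSmap using hmap
  let S₁ : EE d → EE d := fun x => ∑ a, (P a).indicator (S a) x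
  have hS₁m : Measurable S₁ :=
    Finset.measurable_fun_sum _ fun a _ => (hSm a).indicator (hPm a)
  have hS₁eq : ∀ a, ∀ x ∈ P a, S₁ x = S a x := by
    intro a x hx
    simp only [S₁]
    rw [Finset.sum_eq_single a]
    · exact indicator_of_mem hx _
    · intro b _ hb
      refine indicator_of_notMem ?_ _
      intro hxb
      exact Set.disjoint_left.1 (hPd hb) hxb hx
    · intro h; exact absurd (Finset.mem_univ a) h
  refine ⟨S₁, hS₁m, ?_, ?_⟩
  · -- the image measure
    refine Measure.ext fun A hA => ?_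
    rw [Measure.map_apply hS₁m hA, Measure.map_apply hfs hA]
    have hc0 : rho K (⋃ a, P a)ᶜ = 0 := by rw [hPu]; simp
    rw [measure_eq_sum_inter hPm hPd hc0 (hS₁m hA), measure_eq_sum_inter hQm hQd hQc (hfs hA)]
    refine Finset.sum_congr rfl fun a _ => ?_
    have e1 : S₁ ⁻¹' A ∩ P a = S a ⁻¹' A ∩ P a := by
      ext x
      constructor
      · rintro ⟨h1, h2⟩
        refine ⟨?_, h2⟩
        have : S₁ x ∈ A := h1
        rw [hS₁eq a x h2] at this
        exact this
      · rintro ⟨h1, h2⟩
        refine ⟨?_, h2⟩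
        have : S a x ∈ A := h1
        show S₁ x ∈ A
        rw [hS₁eq a x h2]
        exact this
    have e2 : rho K (S a ⁻¹' A ∩ P a) = rho K (S a ⁻¹' A ∩ lagCell y c a) :=
      measure_congr (Filter.EventuallyEq.inter (Filter.EventuallyEq.refl _ _) (hPae a))
    have e3 : ((rho K).restrict (lagCell y c a)).map (S a) A = (π.restrict (Q a)).map fs A := by
      rw [hSmap a]
    rw [Measure.map_apply (hSm a) hA, Measure.map_apply hfs hA,
      Measure.restrict_apply ((hSm a) hA), Measure.restrict_apply (hfs hA)] at e3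
    rw [e1, e2, e3]
  · -- closeness
    have hae : ∀ a, ∀ᵐ x ∂(rho K), x ∈ lagCell y c a → ‖S a x - y a‖ ≤ δ := by
      intro a
      rw [← ae_restrict_iff' (measurableSet_lagCell y c a)]
      let A : Set (EE d) := (Metric.closedBall (y a) δ)ᶜ
      have hA : MeasurableSet A := Metric.isClosed_closedBall.measurableSet.compl
      have h0 : (π.restrict (Q a)).map fs A = 0 := by
        rw [Measure.map_apply hfs hA, Measure.restrict_apply (hfs hA)]
        have : fs ⁻¹' A ∩ Q a = ∅ := by
          ext q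
          simp only [mem_inter_iff, mem_preimage, mem_empty_iff_false, iff_false, not_and, A,
            mem_compl_iff, Metric.mem_closedBall]
          intro h1 h2
          exact h1 (by rw [dist_eq_norm]; exact hfsδ a q h2)
        rw [this, measure_empty]
      rw [← hSmap a, Measure.map_apply (hSm a) hA] at h0
      rw [ae_iff]
      refine measure_mono_null ?_ h0
      intro x hx
      simp only [mem_preimage, A, mem_compl_iff, Metric.mem_closedBall, dist_eq_norm]
      exact hx
    filter_upwards [ae_all_iff.2 hae] with x hx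
    obtain ⟨a, ha, hxa⟩ := hTs x
    rw [hS₁eq a x ha, ha]
    exact hx a hxa

end Crest.Agent.OTS
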