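import Crest.Agent.Lib.OTS.GNAux

/-!
# Gagliardo–Nirenberg type bounds by difference quotients (task T6)

Let `e` be a coordinate vector, `r > 0`, `K_r = {x ∈ K | x + r e ∈ K, x - r e ∈ K}`; with
`B(x₀,τ) ⊆ K` the homothety `x₀ + (1 - r/τ)(K - x₀) ⊆ K_r` gives `|K \ K_r| ≤ (d r / τ) |K|`.
For a.e. `x ∈ K_r` (`x`, `x ± r e` good points, translations preserve null sets):
`r ⟪T x, e⟫ ≤ φ(x+re) - φ(x)`, `ψ(x) - ψ(x-re) ≤ r ⟪S x, e⟫`,
`ψ(x+re) - 2ψ(x) + ψ(x-re) ≤ r osc(x)`, `osc(x) := ⟪S(x+re) - S(x-re), e⟫ ≥ 0`, whence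
`|⟪T x - S x, e⟫| ≤ (|f(x+re)-f(x)| + |f(x-re)-f(x)|)/r + osc x`, `f = φ - ψ`.
`∫_{K_r} osc ≤ 2R |K \ K_r|` (integrate by translating; the two translated domains lie in `K`) and
`osc ≤ 2R`, so `∫_{K_r} osc² ≤ C r`.  Summing over coordinates and optimising in `r` gives `gn_bound`.
For `rough_bound`: `r ⟪T' x, e⟫ ≤ Dψ(x, T' x) + ψ(x + r e) - ψ(x) ≤ Dψ + r ⟪S (x + r e), e⟫`, where
`Dψ(x,z) = legK K ψ z + ψ x - ⟪x,z⟫ ≥ 0`, so `|⟪T' x - S x, e⟫| ≤ Dψ(x,T' x)/r + osc x`; `Dψ` bounded.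
-/

open MeasureTheory Set Metric
open scoped ENNReal RealInnerProductSpace NNReal

namespace Crest.Agent.OTS

variable {d : ℕ} {K : Set (EE d)}

namespace GNAux

lemma gn_pointwise {r φz φp φm ψz ψp ψm t sz sp sm c R : ℝ} (hr : 0 < r)
    (h1 : φz + r * t ≤ φp) (h2 : φz - r * t ≤ φm) (h3 : ψz + r * sz ≤ ψp) (h4 : ψz - r * sz ≤ ψm)
    (h5 : ψp - r * sp ≤ ψz) (h6 : ψm + r * sm ≤ ψz) (hsp : |sp| ≤ R) (hsm : |sm| ≤ R) :
    (t - sz) ^ 2 ≤ (4 * (φp - ψp - c) ^ 2 + 8 * (φz - ψz - c) ^ 2 + 4 * (φm - ψm - c) ^ 2) / r ^ 2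
      + 4 * R * (sp - sm) := by
  set fp := φp - ψp - c with hfp
  set fz := φz - ψz - c with hf0
  set fm := φm - ψm - c with hfm
  have hs1 : sz ≤ sp := by
    have : r * sz ≤ r * sp := by linarith
    exact le_of_mul_le_mul_left this hr
  have hs2 : sm ≤ sz := by
    have : r * sm ≤ r * sz := by linarith
    exact le_of_mul_le_mul_left this hr
  have hosc0 : 0 ≤ sp - sm := by linarith
  have hosc1 : sp - sm ≤ 2 * R := by
    have := abs_le.1 hsp
    have := abs_le.1 hsm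
    linarith [this.1, (abs_le.1 hsp).2]
  set osc := sp - sm with hosc
  set g := t - sz with hg
  set u := (fp - fz) / r with hu
  set v := (fz - fm) / r with hv
  have hup : g ≤ u + osc := by
    have : r * g ≤ (fp - fz) + r * osc := by
      simp only [hg, hfp, hf0, hosc]
      nlinarith
    have h7 : u * r = fp - fz := by rw [hu]; field_simp
    have h8 : r * g ≤ r * (u + osc) := by rw [mul_add, mul_comm r u, h7]; exact this
    exact le_of_mul_le_mul_left h8 hr
  have hlo : v - osc ≤ g := by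
    have : (fz - fm) - r * osc ≤ r * g := by
      simp only [hg, hfm, hf0, hosc]
      nlinarith
    have h7 : v * r = fz - fm := by rw [hv]; field_simp
    have h8 : r * (v - osc) ≤ r * g := by rw [mul_sub, mul_comm r v, h7]; exact this
    exact le_of_mul_le_mul_left h8 hr
  have hmain : g ^ 2 ≤ 2 * u ^ 2 + 2 * v ^ 2 + 2 * osc ^ 2 := by
    rcases le_total 0 g with hg0 | hg0
    · nlinarith [sq_nonneg (u - osc), sq_nonneg v, mul_self_le_mul_self hg0 hup]
    · have h9 : 0 ≤ -g := by linarith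
      have h10 : -g ≤ osc - v := by linarith
      nlinarith [sq_nonneg (osc + v), sq_nonneg u, mul_self_le_mul_self h9 h10]
  have huv : 2 * u ^ 2 + 2 * v ^ 2 ≤ (4 * fp ^ 2 + 8 * fz ^ 2 + 4 * fm ^ 2) / r ^ 2 := by
    rw [hu, hv, div_pow, div_pow, le_div_iff₀ (by positivity)]
    have : (2 * ((fp - fz) ^ 2 / r ^ 2) + 2 * ((fz - fm) ^ 2 / r ^ 2)) * r ^ 2
        = 2 * (fp - fz) ^ 2 + 2 * (fz - fm) ^ 2 := by
      field_simp
    rw [this]
    nlinarith [sq_nonneg (fp + fz), sq_nonneg (fz + fm)]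
  have hoo : 2 * osc ^ 2 ≤ 4 * R * osc := by nlinarith
  linarith

lemma rough_pointwise {r D t sz sp sm ψz ψp ψm R : ℝ} (hr : 0 < r)
    (hD1 : r * t - ψp + ψz ≤ D) (hD2 : -(r * t) - ψm + ψz ≤ D)
    (h3 : ψz + r * sz ≤ ψp) (h4 : ψz - r * sz ≤ ψm)
    (h5 : ψp - r * sp ≤ ψz) (h6 : ψm + r * sm ≤ ψz)
    (ht : |t| ≤ R) (hs0 : |sz| ≤ R) :
    (t - sz) ^ 2 ≤ 2 * R * (D / r + (sp - sm)) := by
  have hs1 : sz ≤ sp := by
    have : r * sz ≤ r * sp := by linarith
    exact le_of_mul_le_mul_left this hr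
  have hs2 : sm ≤ sz := by
    have : r * sm ≤ r * sz := by linarith
    exact le_of_mul_le_mul_left this hr
  have hDr : D / r * r = D := by field_simp
  have hup : t - sz ≤ D / r + (sp - sm) := by
    have : r * (t - sz) ≤ r * (D / r + (sp - sm)) := by
      rw [mul_add, mul_comm r (D / r), hDr]
      nlinarith
    have h7 := le_of_mul_le_mul_left this hr
    exact h7
  have hlo : -(t - sz) ≤ D / r + (sp - sm) := by
    have : r * (-(t - sz)) ≤ r * (D / r + (sp - sm)) := by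
      rw [mul_add, mul_comm r (D / r), hDr]
      nlinarith
    exact le_of_mul_le_mul_left this hr
  have hab : |t - sz| ≤ D / r + (sp - sm) := abs_le.2 ⟨by linarith, hup⟩
  have hab2 : |t - sz| ≤ 2 * R := by
    have h8 := abs_sub t sz
    linarith
  have hR : 0 ≤ R := (abs_nonneg t).trans ht
  calc (t - sz) ^ 2 = |t - sz| * |t - sz| := by rw [abs_mul_abs_self]; ring
    _ ≤ 2 * R * |t - sz| := mul_le_mul_of_nonneg_right hab2 (abs_nonneg _)
    _ ≤ 2 * R * (D / r + (sp - sm)) := mul_le_mul_of_nonneg_left hab (by positivity)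

/-- Bounded measurable functions are integrable on subsets of `K`. -/
lemma integrableOn_of_ae_bdd (hK : Body K) {A : Set (EE d)} (hA : A ⊆ K) (hAm : MeasurableSet A)
    {h : EE d → ℝ} (hm : Measurable h) {B : ℝ}
    (hB : ∀ᵐ x ∂(volume : Measure (EE d)), x ∈ A → |h x| ≤ B) : IntegrableOn h A volume := by
  have hfin : (volume : Measure (EE d)) A ≠ ⊤ :=
    ne_top_of_le_ne_top hK.volume_ne_top (measure_mono hA)
  refine Measure.integrableOn_of_bounded (M := B) hfin hm.aestronglyMeasurable ?_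
  rw [ae_restrict_iff' hAm]
  filter_upwards [hB] with x hx hxK
  simpa using hx hxK

lemma abs_inner_le {z e : EE d} {R : ℝ} (hz : ‖z‖ ≤ R) (he : ‖e‖ = 1) : |⟪z, e⟫| ≤ R := by
  have := abs_real_inner_le_norm z e
  rw [he, mul_one] at this
  exact this.trans hz

/-- The bound in direction `e` for `gn_bound`. -/
lemma gn_dir (hK : Body K) {R : ℝ} (hR : 0 ≤ R) (φ ψ : EE d → ℝ) (T S : EE d → EE d)
    (hφ : Continuous φ) (hψ : Continuous ψ) (hT : Measurable T) (hS : Measurable S)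
    (hTg : ∀ᵐ x ∂(volume : Measure (EE d)), x ∈ K →
      ‖T x‖ ≤ R ∧ ∀ x' ∈ K, φ x + ⟪T x, x' - x⟫ ≤ φ x')
    (hSg : ∀ᵐ x ∂(volume : Measure (EE d)), x ∈ K →
      ‖S x‖ ≤ R ∧ ∀ x' ∈ K, ψ x + ⟪S x, x' - x⟫ ≤ ψ x')
    (c : ℝ) (e : EE d) (he : ‖e‖ = 1) {r : ℝ} (hr : 0 < r) :
    ∫ x in K, ⟪T x - S x, e⟫ ^ 2 ≤ 16 / r ^ 2 * (∫ x in K, (φ x - ψ x - c) ^ 2)
      + 12 * R ^ 2 * (volume : Measure (EE d)).real (K \ KR K (r • e)) := by
  classical
  set a := r • e with ha
  have hKm := hK.measurableSet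
  have hKc := hK.compact
  have hKRm := measurableSet_KR hKc.isClosed a
  have hKRK : KR K a ⊆ K := KR_subset a
  have hKRc : IsCompact (KR K a) := hKc.of_isClosed_subset (isClosed_KR hKc.isClosed a) hKRK
  set f : EE d → ℝ := fun x => φ x - ψ x - c with hf
  have hfc : Continuous f := by simp only [hf]; fun_prop
  have hf2c : Continuous (fun x => f x ^ 2) := hfc.pow 2
  set s : EE d → ℝ := fun x => ⟪S x, e⟫ with hs
  have hsm : Measurable s := by
    simp only [hs]
    exact (hS.inner measurable_const)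
  set g : EE d → ℝ := fun x => ⟪T x - S x, e⟫ with hg
  have hgm : Measurable g := by
    simp only [hg]
    exact ((hT.sub hS).inner measurable_const)
  have hinner : ∀ z : EE d, ⟪z, r • e⟫ = r * ⟪z, e⟫ := fun z => by
    rw [real_inner_smul_right]
  -- bound for `g`
  have hg2K : ∀ᵐ x ∂(volume : Measure (EE d)), x ∈ K → |g x ^ 2| ≤ 4 * R ^ 2 := by
    filter_upwards [hTg, hSg] with x h1 h2 hxK
    have h3 : |g x| ≤ 2 * R := by
      simp only [hg]
      have := abs_inner_le (z := T x - S x) (R := 2 * R) (e := e) (by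
        have h4 := norm_sub_le (T x) (S x)
        linarith [(h1 hxK).1, (h2 hxK).1]) he
      exact this
    rw [abs_pow, sq_abs]
    have := abs_le.1 h3
    nlinarith
  have hsK : ∀ᵐ x ∂(volume : Measure (EE d)), x ∈ K → |s x| ≤ R := by
    filter_upwards [hSg] with x h2 hxK
    exact abs_inner_le (h2 hxK).1 he
  -- translated good points
  have hSp := ae_translate hSg a
  have hSm := ae_translate hSg (-a)
  -- pointwise inequality on `KR`
  have hpt : ∀ᵐ x ∂(volume : Measure (EE d)), x ∈ KR K a → g x ^ 2 ≤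
      (4 * f (x + a) ^ 2 + 8 * f x ^ 2 + 4 * f (x - a) ^ 2) / r ^ 2
        + 4 * R * (s (x + a) - s (x - a)) := by
    filter_upwards [hTg, hSg, hSp, hSm] with x h1 h2 h3 h4 hx
    obtain ⟨hxK, hxp, hxm⟩ := hx
    have hxm' : x + -a ∈ K := by simpa [sub_eq_add_neg] using hxm
    have hT1 := (h1 hxK).2 _ hxp
    have hT2 := (h1 hxK).2 _ hxm
    have hS1 := (h2 hxK).2 _ hxp
    have hS2 := (h2 hxK).2 _ hxm
    have hS3 := (h3 hxp).2 x hxK
    have hS4 := (h4 hxm').2 x hxK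
    have e1 : x + a - x = r • e := by simp [ha]
    have e2 : x - a - x = -(r • e) := by simp [ha]
    have e3 : x - (x + a) = -(r • e) := by simp [ha]
    have e4 : x - (x + -a) = r • e := by simp [ha]
    rw [e1, hinner] at hT1 hS1
    rw [e2, inner_neg_right, hinner] at hT2 hS2
    rw [e3, inner_neg_right, hinner] at hS3
    rw [e4, hinner] at hS4
    have hsp : |s (x + a)| ≤ R := abs_inner_le (h3 hxp).1 he
    have hsm' : |s (x - a)| ≤ R := by
      have : s (x - a) = s (x + -a) := by rw [sub_eq_add_neg]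
      rw [this]
      exact abs_inner_le (h4 hxm').1 he
    have hS4' : ψ (x - a) + r * s (x - a) ≤ ψ x := by
      have e5 : x - a = x + -a := sub_eq_add_neg _ _
      rw [e5]; exact hS4
    have hgx : g x = ⟪T x, e⟫ - s x := by
      simp only [hg, hs, inner_sub_left]
    rw [hgx]
    exact gn_pointwise (c := c) hr (by linarith) (by linarith) (by simpa [hs] using hS1)
      (by have : ψ x + -(r * s x) ≤ ψ (x - a) := hS2
          linarith)
      (by have : ψ (x + a) + -(r * s (x + a)) ≤ ψ x := hS3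
          linarith) hS4' hsp hsm'
  -- integrability
  have hgInt : IntegrableOn (fun x => g x ^ 2) K volume :=
    integrableOn_of_ae_bdd hK subset_rfl hKm (hgm.pow_const 2) hg2K
  have hf2Int : IntegrableOn (fun x => f x ^ 2) K volume := hf2c.continuousOn.integrableOn_compact hKc
  have hfpInt : IntegrableOn (fun x => f (x + a) ^ 2) (KR K a) volume :=
    (hf2c.comp (by fun_prop : Continuous fun x : EE d => x + a)).continuousOn.integrableOn_compact hKRc
  have hfmInt : IntegrableOn (fun x => f (x - a) ^ 2) (KR K a) volume :=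
    (hf2c.comp (by fun_prop : Continuous fun x : EE d => x - a)).continuousOn.integrableOn_compact hKRc
  have hspInt : IntegrableOn (fun x => s (x + a)) (KR K a) volume := by
    refine integrableOn_of_ae_bdd (B := R) hK hKRK hKRm (hsm.comp (measurable_id.add_const a)) ?_
    filter_upwards [hSp] with x h hx
    exact abs_inner_le (h hx.2.1).1 he
  have hsmInt : IntegrableOn (fun x => s (x - a)) (KR K a) volume := by
    refine integrableOn_of_ae_bdd (B := R) hK hKRK hKRm (hsm.comp (measurable_id.sub_const a)) ?_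
    filter_upwards [hSm] with x h hx
    have hxm' : x + -a ∈ K := by simpa [sub_eq_add_neg] using hx.2.2
    have : s (x - a) = s (x + -a) := by rw [sub_eq_add_neg]
    rw [this]
    exact abs_inner_le (h hxm').1 he
  -- integrate
  have hstep : ∫ x in KR K a, g x ^ 2 ≤ ∫ x in KR K a,
      ((4 * f (x + a) ^ 2 + 8 * f x ^ 2 + 4 * f (x - a) ^ 2) / r ^ 2
        + 4 * R * (s (x + a) - s (x - a))) := by
    refine integral_mono_ae (hgInt.mono_set hKRK) ?_ ?_
    · refine Integrable.add ?_ ((hspInt.sub hsmInt).const_mul _)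
      refine Integrable.div_const ?_ _
      exact ((hfpInt.const_mul 4).add ((hf2Int.mono_set hKRK).const_mul 8)).add (hfmInt.const_mul 4)
    · rw [Filter.EventuallyLE, ae_restrict_iff' hKRm]
      exact hpt
  have hexpand : ∫ x in KR K a,
      ((4 * f (x + a) ^ 2 + 8 * f x ^ 2 + 4 * f (x - a) ^ 2) / r ^ 2
        + 4 * R * (s (x + a) - s (x - a))) =
      (4 * (∫ x in KR K a, f (x + a) ^ 2) + 8 * (∫ x in KR K a, f x ^ 2)
        + 4 * (∫ x in KR K a, f (x - a) ^ 2)) / r ^ 2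
        + 4 * R * ((∫ x in KR K a, s (x + a)) - ∫ x in KR K a, s (x - a)) := by
    have i1 := hfpInt.const_mul 4
    have i2 := (hf2Int.mono_set hKRK).const_mul 8
    have i3 := hfmInt.const_mul 4
    have i12 : Integrable (fun x => 4 * f (x + a) ^ 2 + 8 * f x ^ 2) (volume.restrict (KR K a)) :=
      i1.add i2
    have i123 : Integrable (fun x => 4 * f (x + a) ^ 2 + 8 * f x ^ 2 + 4 * f (x - a) ^ 2)
        (volume.restrict (KR K a)) := i12.add i3
    have i4 : Integrable (fun x => 4 * R * (s (x + a) - s (x - a))) (volume.restrict (KR K a)) :=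
      (hspInt.sub hsmInt).const_mul _
    rw [integral_add (i123.div_const _) i4, integral_div, integral_add i12 i3, integral_add i1 i2,
      integral_const_mul, integral_const_mul, integral_const_mul, integral_const_mul,
      integral_sub hspInt hsmInt]
  have hf2nn : ∀ x ∈ K, 0 ≤ f x ^ 2 := fun x _ => sq_nonneg _
  have hI1 : ∫ x in KR K a, f (x + a) ^ 2 ≤ ∫ x in K, f x ^ 2 :=
    translate_integral_le hK a a (fun x => f x ^ 2) hf2Int hf2nn (fun x hx => hx.2.1)
  have hI2 : ∫ x in KR K a, f (x - a) ^ 2 ≤ ∫ x in K, f x ^ 2 := by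
    have := translate_integral_le hK a (-a) (fun x => f x ^ 2) hf2Int hf2nn (fun x hx => by
      have := hx.2.2
      simpa [sub_eq_add_neg] using this)
    simpa [sub_eq_add_neg] using this
  have hI3 : ∫ x in KR K a, f x ^ 2 ≤ ∫ x in K, f x ^ 2 := by
    refine setIntegral_mono_set hf2Int ?_ (HasSubset.Subset.eventuallyLE hKRK)
    exact Filter.Eventually.of_forall fun x => sq_nonneg _
  have hosc := osc_integral_le hK a s hsm hsK
  -- boundary layer
  have hbdry : ∫ x in K \ KR K a, g x ^ 2 ≤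
      4 * R ^ 2 * (volume : Measure (EE d)).real (K \ KR K a) := by
    have hQf : (volume : Measure (EE d)) (K \ KR K a) < ⊤ :=
      lt_of_le_of_lt (measure_mono sdiff_subset) hKc.measure_lt_top
    have := norm_setIntegral_le_of_norm_le_const_ae (μ := volume) (s := K \ KR K a)
      (C := 4 * R ^ 2) (f := fun x => g x ^ 2) hQf (by
        rw [ae_restrict_iff' (hKm.diff hKRm)]
        filter_upwards [hg2K] with x hx hxQ
        simpa using hx hxQ.1)
    exact (le_abs_self _).trans this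
  have hsplit : ∫ x in K, g x ^ 2 = (∫ x in KR K a, g x ^ 2) + ∫ x in K \ KR K a, g x ^ 2 := by
    rw [← setIntegral_union disjoint_sdiff_right (hKm.diff hKRm) (hgInt.mono_set hKRK)
      (hgInt.mono_set sdiff_subset), union_sdiff_cancel hKRK]
  set X := ∫ x in K, f x ^ 2 with hX
  set L := (volume : Measure (EE d)).real (K \ KR K a) with hL
  have hdivle : (4 * (∫ x in KR K a, f (x + a) ^ 2) + 8 * (∫ x in KR K a, f x ^ 2)
        + 4 * (∫ x in KR K a, f (x - a) ^ 2)) / r ^ 2 ≤ 16 / r ^ 2 * X := by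
    rw [div_mul_eq_mul_div]
    apply div_le_div_of_nonneg_right _ (by positivity)
    linarith
  have hR4 : 4 * R * ((∫ x in KR K a, s (x + a)) - ∫ x in KR K a, s (x - a)) ≤ 4 * R * (2 * R * L) :=
    mul_le_mul_of_nonneg_left hosc (by positivity)
  change (∫ x in K, g x ^ 2) ≤ 16 / r ^ 2 * X + 12 * R ^ 2 * L
  rw [hsplit]
  rw [hexpand] at hstep
  have : 4 * R * (2 * R * L) = 8 * R ^ 2 * L := by ring
  linarith

section leg

lemma legK_bddAbove (hK : Body K) {ψ : EE d → ℝ} (hψ : Continuous ψ) (z : EE d) :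
    BddAbove (range fun x : K => ⟪(x : EE d), z⟫ - ψ x) := by
  have hc : ContinuousOn (fun x : EE d => ⟪x, z⟫ - ψ x) K := by
    apply Continuous.continuousOn
    fun_prop
  obtain ⟨B, hB⟩ := (hK.compact.image_of_continuousOn hc).bddAbove
  refine ⟨B, ?_⟩
  rintro _ ⟨x, rfl⟩
  exact hB ⟨x, x.2, rfl⟩

lemma le_legK (hK : Body K) {ψ : EE d → ℝ} (hψ : Continuous ψ) {x : EE d} (hx : x ∈ K) (z : EE d) :
    ⟪x, z⟫ - ψ x ≤ legK K ψ z :=
  le_ciSup (f := fun x : K => ⟪(x : EE d), z⟫ - ψ x) (legK_bddAbove hK hψ z) ⟨x, hx⟩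

lemma nonempty_body (hK : Body K) : Nonempty K := by
  obtain ⟨x, hx⟩ := hK.interior_nonempty
  exact ⟨⟨x, interior_subset hx⟩⟩

lemma legK_le (hK : Body K) {ψ : EE d → ℝ} {z : EE d} {B : ℝ}
    (h : ∀ x ∈ K, ⟪x, z⟫ - ψ x ≤ B) : legK K ψ z ≤ B := by
  have := nonempty_body hK
  exact ciSup_le fun x : K => h x x.2

lemma continuous_legK (hK : Body K) {ψ : EE d → ℝ} (hψ : Continuous ψ) :
    Continuous (legK K ψ) := by
  obtain ⟨M, hM⟩ := hK.compact.exists_bound_of_continuousOn (f := fun x : EE d => x)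
    continuous_id.continuousOn
  have hM0 : 0 ≤ M := by
    obtain ⟨x⟩ := nonempty_body hK
    exact (norm_nonneg _).trans (hM x x.2)
  have : LipschitzWith (Real.toNNReal M) (legK K ψ) := by
    refine LipschitzWith.of_le_add_mul _ fun z z' => ?_
    refine legK_le hK fun x hx => ?_
    have h1 := le_legK hK hψ hx z'
    have h2 : ⟪x, z⟫ = ⟪x, z'⟫ + ⟪x, z - z'⟫ := by rw [inner_sub_right]; ring
    have h3 : ⟪x, z - z'⟫ ≤ M * dist z z' := by
      rw [dist_eq_norm]
      refine (real_inner_le_norm _ _).trans ?_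
      exact mul_le_mul_of_nonneg_right (hM x hx) (norm_nonneg _)
    rw [Real.coe_toNNReal _ hM0, h2]
    linarith
  exact this.continuous

lemma legK_abs_le (hK : Body K) {ψ : EE d → ℝ} (hψ : Continuous ψ) {R : ℝ} (hR : 0 ≤ R) :
    ∃ B : ℝ, 0 ≤ B ∧ ∀ x ∈ K, ∀ z : EE d, ‖z‖ ≤ R → |legK K ψ z + ψ x - ⟪x, z⟫| ≤ B := by
  obtain ⟨M, hM⟩ := hK.compact.exists_bound_of_continuousOn (f := fun x : EE d => x)
    continuous_id.continuousOn
  obtain ⟨P, hP⟩ := hK.compact.exists_bound_of_continuousOn (f := ψ) hψ.continuousOn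
  obtain ⟨x₁⟩ := nonempty_body hK
  have hM0 : 0 ≤ M := (norm_nonneg _).trans (hM x₁ x₁.2)
  have hP0 : 0 ≤ P := (norm_nonneg _).trans (hP x₁ x₁.2)
  have hin : ∀ x ∈ K, ∀ z : EE d, ‖z‖ ≤ R → |⟪x, z⟫| ≤ M * R := fun x hx z hz => by
    refine (abs_real_inner_le_norm _ _).trans ?_
    exact mul_le_mul (hM x hx) hz (norm_nonneg _) hM0
  refine ⟨2 * (M * R + P) + P + M * R, by positivity, ?_⟩
  intro x hx z hz
  have h1 : legK K ψ z ≤ M * R + P := by
    refine legK_le hK fun y hy => ?_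
    have := (abs_le.1 (hin y hy z hz)).2
    have h3 := abs_le.1 (Real.norm_eq_abs (ψ y) ▸ hP y hy)
    linarith [h3.1]
  have h2 : -(M * R + P) ≤ legK K ψ z := by
    have h3 := le_legK hK hψ hx z
    have h4 := (abs_le.1 (hin x hx z hz)).1
    have h5 := abs_le.1 (Real.norm_eq_abs (ψ x) ▸ hP x hx)
    linarith [h5.2]
  have h5 := abs_le.1 (Real.norm_eq_abs (ψ x) ▸ hP x hx)
  have h6 := abs_le.1 (hin x hx z hz)
  rw [abs_le]
  constructor <;> linarith [h5.1, h5.2, h6.1, h6.2]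

end leg

/-- The bound in direction `e` for `rough_bound`. -/
lemma rough_dir (hK : Body K) {R : ℝ} (hR : 0 ≤ R) (ψ : EE d → ℝ) (T S : EE d → EE d)
    (hψ : Continuous ψ) (hT : Measurable T) (hS : Measurable S)
    (hTg : ∀ᵐ x ∂(volume : Measure (EE d)), x ∈ K → ‖T x‖ ≤ R)
    (hSg : ∀ᵐ x ∂(volume : Measure (EE d)), x ∈ K →
      ‖S x‖ ≤ R ∧ ∀ x' ∈ K, ψ x + ⟪S x, x' - x⟫ ≤ ψ x')
    (e : EE d) (he : ‖e‖ = 1) {r : ℝ} (hr : 0 < r) :
    ∫ x in K, ⟪T x - S x, e⟫ ^ 2 ≤ 2 * R / r * (∫ x in K, (legK K ψ (T x) + ψ x - ⟪x, T x⟫))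
      + 8 * R ^ 2 * (volume : Measure (EE d)).real (K \ KR K (r • e)) := by
  classical
  set a := r • e with ha
  have hKm := hK.measurableSet
  have hKc := hK.compact
  have hKRm := measurableSet_KR hKc.isClosed a
  have hKRK : KR K a ⊆ K := KR_subset a
  set D : EE d → ℝ := fun x => legK K ψ (T x) + ψ x - ⟪x, T x⟫ with hD
  have hDm : Measurable D := by
    simp only [hD]
    exact (((continuous_legK hK hψ).measurable.comp hT).add hψ.measurable).sub
      (measurable_id.inner hT)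
  obtain ⟨BD, hBD0, hBD⟩ := legK_abs_le hK hψ hR
  have hDbd : ∀ᵐ x ∂(volume : Measure (EE d)), x ∈ K → |D x| ≤ BD := by
    filter_upwards [hTg] with x h hxK
    exact hBD x hxK _ (h hxK)
  have hDnn : ∀ x ∈ K, 0 ≤ D x := by
    intro x hx
    have := le_legK hK hψ hx (T x)
    simp only [hD]
    linarith
  have hDInt : IntegrableOn D K volume := integrableOn_of_ae_bdd hK subset_rfl hKm hDm hDbd
  set s : EE d → ℝ := fun x => ⟪S x, e⟫ with hs
  have hsm : Measurable s := by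
    simp only [hs]
    exact (hS.inner measurable_const)
  set g : EE d → ℝ := fun x => ⟪T x - S x, e⟫ with hg
  have hgm : Measurable g := by
    simp only [hg]
    exact ((hT.sub hS).inner measurable_const)
  have hinner : ∀ z : EE d, ⟪z, r • e⟫ = r * ⟪z, e⟫ := fun z => by
    rw [real_inner_smul_right]
  have hg2K : ∀ᵐ x ∂(volume : Measure (EE d)), x ∈ K → |g x ^ 2| ≤ 4 * R ^ 2 := by
    filter_upwards [hTg, hSg] with x h1 h2 hxK
    have h3 : |g x| ≤ 2 * R := by
      simp only [hg]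
      have := abs_inner_le (z := T x - S x) (R := 2 * R) (e := e) (by
        have h4 := norm_sub_le (T x) (S x)
        linarith [h1 hxK, (h2 hxK).1]) he
      exact this
    rw [abs_pow, sq_abs]
    have := abs_le.1 h3
    nlinarith
  have hsK : ∀ᵐ x ∂(volume : Measure (EE d)), x ∈ K → |s x| ≤ R := by
    filter_upwards [hSg] with x h2 hxK
    exact abs_inner_le (h2 hxK).1 he
  have hSp := ae_translate hSg a
  have hSm := ae_translate hSg (-a)
  have hpt : ∀ᵐ x ∂(volume : Measure (EE d)), x ∈ KR K a → g x ^ 2 ≤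
      2 * R * (D x / r + (s (x + a) - s (x - a))) := by
    filter_upwards [hTg, hSg, hSp, hSm] with x h1 h2 h3 h4 hx
    obtain ⟨hxK, hxp, hxm⟩ := hx
    have hxm' : x + -a ∈ K := by simpa [sub_eq_add_neg] using hxm
    have hS1 := (h2 hxK).2 _ hxp
    have hS2 := (h2 hxK).2 _ hxm
    have hS3 := (h3 hxp).2 x hxK
    have hS4 := (h4 hxm').2 x hxK
    have e1 : x + a - x = r • e := by simp [ha]
    have e2 : x - a - x = -(r • e) := by simp [ha]
    have e3 : x - (x + a) = -(r • e) := by simp [ha]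
    have e4 : x - (x + -a) = r • e := by simp [ha]
    rw [e1, hinner] at hS1
    rw [e2, inner_neg_right, hinner] at hS2
    rw [e3, inner_neg_right, hinner] at hS3
    rw [e4, hinner] at hS4
    have hS4' : ψ (x - a) + r * s (x - a) ≤ ψ x := by
      have e5 : x - a = x + -a := sub_eq_add_neg _ _
      rw [e5]; exact hS4
    have hL1 := le_legK hK hψ hxp (T x)
    have hL2 := le_legK hK hψ hxm (T x)
    have hL1' : r * ⟪T x, e⟫ - ψ (x + a) + ψ x ≤ D x := by
      have : ⟪x + a, T x⟫ = ⟪x, T x⟫ + r * ⟪T x, e⟫ := by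
        rw [inner_add_left, ha, real_inner_smul_left, real_inner_comm e (T x)]
      simp only [hD]
      rw [this] at hL1
      linarith
    have hL2' : -(r * ⟪T x, e⟫) - ψ (x - a) + ψ x ≤ D x := by
      have : ⟪x - a, T x⟫ = ⟪x, T x⟫ - r * ⟪T x, e⟫ := by
        rw [inner_sub_left, ha, real_inner_smul_left, real_inner_comm e (T x)]
      simp only [hD]
      rw [this] at hL2
      linarith
    have hgx : g x = ⟪T x, e⟫ - s x := by
      simp only [hg, hs, inner_sub_left]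
    rw [hgx]
    exact rough_pointwise hr hL1' hL2' (by simpa [hs] using hS1)
      (by have : ψ x + -(r * s x) ≤ ψ (x - a) := hS2
          linarith)
      (by have : ψ (x + a) + -(r * s (x + a)) ≤ ψ x := hS3
          linarith) hS4' (abs_inner_le (h1 hxK) he) (abs_inner_le (h2 hxK).1 he)
  have hgInt : IntegrableOn (fun x => g x ^ 2) K volume :=
    integrableOn_of_ae_bdd hK subset_rfl hKm (hgm.pow_const 2) hg2K
  have hspInt : IntegrableOn (fun x => s (x + a)) (KR K a) volume := by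
    refine integrableOn_of_ae_bdd (B := R) hK hKRK hKRm (hsm.comp (measurable_id.add_const a)) ?_
    filter_upwards [hSp] with x h hx
    exact abs_inner_le (h hx.2.1).1 he
  have hsmInt : IntegrableOn (fun x => s (x - a)) (KR K a) volume := by
    refine integrableOn_of_ae_bdd (B := R) hK hKRK hKRm (hsm.comp (measurable_id.sub_const a)) ?_
    filter_upwards [hSm] with x h hx
    have hxm' : x + -a ∈ K := by simpa [sub_eq_add_neg] using hx.2.2
    have : s (x - a) = s (x + -a) := by rw [sub_eq_add_neg]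
    rw [this]
    exact abs_inner_le (h hxm').1 he
  have i1 : Integrable (fun x => D x / r) (volume.restrict (KR K a)) :=
    (hDInt.mono_set hKRK).div_const r
  have i2 : Integrable (fun x => s (x + a) - s (x - a)) (volume.restrict (KR K a)) :=
    hspInt.sub hsmInt
  have i3 : Integrable (fun x => D x / r + (s (x + a) - s (x - a))) (volume.restrict (KR K a)) :=
    i1.add i2
  have hstep : ∫ x in KR K a, g x ^ 2 ≤ ∫ x in KR K a,
      2 * R * (D x / r + (s (x + a) - s (x - a))) := by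
    refine integral_mono_ae (hgInt.mono_set hKRK) (i3.const_mul _) ?_
    rw [Filter.EventuallyLE, ae_restrict_iff' hKRm]
    exact hpt
  have hexpand : ∫ x in KR K a, 2 * R * (D x / r + (s (x + a) - s (x - a))) =
      2 * R * ((∫ x in KR K a, D x) / r + ((∫ x in KR K a, s (x + a)) - ∫ x in KR K a, s (x - a))) := by
    rw [integral_const_mul, integral_add i1 i2, integral_div, integral_sub hspInt hsmInt]
  have hI : ∫ x in KR K a, D x ≤ ∫ x in K, D x := by
    refine setIntegral_mono_set hDInt ?_ (HasSubset.Subset.eventuallyLE hKRK)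
    rw [Filter.EventuallyLE, ae_restrict_iff' hKm]
    exact Filter.Eventually.of_forall hDnn
  have hosc := osc_integral_le hK a s hsm hsK
  have hbdry : ∫ x in K \ KR K a, g x ^ 2 ≤
      4 * R ^ 2 * (volume : Measure (EE d)).real (K \ KR K a) := by
    have hQf : (volume : Measure (EE d)) (K \ KR K a) < ⊤ :=
      lt_of_le_of_lt (measure_mono sdiff_subset) hKc.measure_lt_top
    have := norm_setIntegral_le_of_norm_le_const_ae (μ := volume) (s := K \ KR K a)
      (C := 4 * R ^ 2) (f := fun x => g x ^ 2) hQf (by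
        rw [ae_restrict_iff' (hKm.diff hKRm)]
        filter_upwards [hg2K] with x hx hxQ
        simpa using hx hxQ.1)
    exact (le_abs_self _).trans this
  have hsplit : ∫ x in K, g x ^ 2 = (∫ x in KR K a, g x ^ 2) + ∫ x in K \ KR K a, g x ^ 2 := by
    rw [← setIntegral_union disjoint_sdiff_right (hKm.diff hKRm) (hgInt.mono_set hKRK)
      (hgInt.mono_set sdiff_subset), union_sdiff_cancel hKRK]
  set X := ∫ x in K, D x with hX
  set L := (volume : Measure (EE d)).real (K \ KR K a) with hL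
  change (∫ x in K, g x ^ 2) ≤ 2 * R / r * X + 8 * R ^ 2 * L
  rw [hsplit]
  rw [hexpand] at hstep
  have h1 : (∫ x in KR K a, D x) / r ≤ X / r := div_le_div_of_nonneg_right hI hr.le
  have h2 : 2 * R * ((∫ x in KR K a, D x) / r + ((∫ x in KR K a, s (x + a)) - ∫ x in KR K a, s (x - a)))
      ≤ 2 * R * (X / r + 2 * R * L) :=
    mul_le_mul_of_nonneg_left (by linarith) (by positivity)
  have h3 : 2 * R * (X / r + 2 * R * L) = 2 * R / r * X + 4 * R ^ 2 * L := by
    field_simp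
    ring
  linarith

end GNAux

open GNAux

lemma exists_ball (hK : Body K) : ∃ (x₀ : EE d) (τ : ℝ), 0 < τ ∧ closedBall x₀ τ ⊆ K := by
  obtain ⟨x₀, hx₀⟩ := hK.interior_nonempty
  obtain ⟨τ, hτ, hb⟩ := Metric.nhds_basis_closedBall.mem_iff.1 (mem_interior_iff_mem_nhds.1 hx₀)
  exact ⟨x₀, τ, hτ, hb⟩

/-- Gagliardo–Nirenberg: `‖T - S‖² ≲ ‖φ - ψ - c‖_2^{2/3}` for subgradient selections. -/
theorem gn_bound (hK : Body K) (R : ℝ) :
    ∃ C : ℝ, 0 ≤ C ∧ ∀ (φ ψ : EE d → ℝ) (T S : EE d → EE d), Continuous φ → Continuous ψ →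
      Measurable T → Measurable S →
      (∀ᵐ x ∂(rho K), ‖T x‖ ≤ R ∧ ∀ x' ∈ K, φ x + ⟪T x, x' - x⟫ ≤ φ x') →
      (∀ᵐ x ∂(rho K), ‖S x‖ ≤ R ∧ ∀ x' ∈ K, ψ x + ⟪S x, x' - x⟫ ≤ ψ x') →
      ∀ c : ℝ, ∫ x, ‖T x - S x‖ ^ 2 ∂(rho K) ≤
        C * (∫ x, (φ x - ψ x - c) ^ 2 ∂(rho K)) ^ (1 / 3 : ℝ) := by
  obtain ⟨x₀, τ, hτ, hball⟩ := exists_ball hK
  set R' := |R| with hR'
  have hR0 : 0 ≤ R' := abs_nonneg R
  refine ⟨(16 * d + 12 * R' ^ 2 * d ^ 2 / τ + 4 * R' ^ 2 / τ), by positivity, ?_⟩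
  intro φ ψ T S hφ hψ hT hS hTg hSg c
  have := hK.isProb
  have hKm := hK.measurableSet
  have hTg' : ∀ᵐ x ∂(volume : Measure (EE d)), x ∈ K →
      ‖T x‖ ≤ R' ∧ ∀ x' ∈ K, φ x + ⟪T x, x' - x⟫ ≤ φ x' := by
    filter_upwards [ae_of_rho hK hTg] with x h hxK
    exact ⟨(h hxK).1.trans (le_abs_self R), (h hxK).2⟩
  have hSg' : ∀ᵐ x ∂(volume : Measure (EE d)), x ∈ K →
      ‖S x‖ ≤ R' ∧ ∀ x' ∈ K, ψ x + ⟪S x, x' - x⟫ ≤ ψ x' := by
    filter_upwards [ae_of_rho hK hSg] with x h hxK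
    exact ⟨(h hxK).1.trans (le_abs_self R), (h hxK).2⟩
  set v := (volume : Measure (EE d)).real K with hv
  have hv0 : 0 < v := by
    rw [hv, Measure.real]
    exact ENNReal.toReal_pos hK.volume_pos.ne' hK.volume_ne_top
  set V := ∫ x, (φ x - ψ x - c) ^ 2 ∂(rho K) with hV
  have hV0 : 0 ≤ V := integral_nonneg fun x => sq_nonneg _
  have hnorm : ∀ x, ‖T x - S x‖ ^ 2 = ∑ i : Fin d, ⟪T x - S x, EuclideanSpace.single i (1 : ℝ)⟫ ^ 2 := by
    intro x
    rw [EuclideanSpace.real_norm_sq_eq]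
    refine Finset.sum_congr rfl fun i _ => ?_
    simp [EuclideanSpace.inner_single_right]
  have heunit : ∀ i : Fin d, ‖(EuclideanSpace.single i (1 : ℝ) : EE d)‖ = 1 := by
    intro i; simp
  -- integrability of the squares
  have hgInt : ∀ i : Fin d, Integrable (fun x => ⟪T x - S x, EuclideanSpace.single i (1 : ℝ)⟫ ^ 2) (rho K) := by
    intro i
    refine Integrable.of_bound (C := 4 * R' ^ 2) ?_ ?_
    · exact (((hT.sub hS).inner measurable_const).pow_const 2).aestronglyMeasurable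
    · have : ∀ᵐ x ∂(rho K), x ∈ K := hK.ae_mem
      filter_upwards [hTg, hSg] with x h1 h2
      have hT' : ‖T x‖ ≤ R' := h1.1.trans (le_abs_self R)
      have hS' : ‖S x‖ ≤ R' := h2.1.trans (le_abs_self R)
      have h3 : |⟪T x - S x, EuclideanSpace.single i (1 : ℝ)⟫| ≤ 2 * R' := by
        refine abs_inner_le ?_ (heunit i)
        have h4 := norm_sub_le (T x) (S x)
        linarith
      rw [Real.norm_eq_abs, abs_pow, sq_abs]
      have := abs_le.1 h3
      nlinarith
  have hQeq : ∫ x, ‖T x - S x‖ ^ 2 ∂(rho K) =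
      ∑ i : Fin d, ∫ x, ⟪T x - S x, EuclideanSpace.single i (1 : ℝ)⟫ ^ 2 ∂(rho K) := by
    simp_rw [hnorm]
    rw [integral_finsetSum _ (fun i _ => hgInt i)]
  -- crude bound
  have hQB : ∫ x, ‖T x - S x‖ ^ 2 ∂(rho K) ≤ 4 * R' ^ 2 := by
    have h1 : ∫ x, ‖T x - S x‖ ^ 2 ∂(rho K) ≤ ∫ _x, 4 * R' ^ 2 ∂(rho K) := by
      refine integral_mono_ae ?_ (integrable_const _) ?_
      · simp_rw [hnorm]
        exact integrable_finsetSum _ (fun i _ => hgInt i)
      · filter_upwards [hTg, hSg] with x h1 h2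
        have hT' : ‖T x‖ ≤ R' := h1.1.trans (le_abs_self R)
        have hS' : ‖S x‖ ≤ R' := h2.1.trans (le_abs_self R)
        have h4 := norm_sub_le (T x) (S x)
        have h5 : ‖T x - S x‖ ≤ 2 * R' := by linarith
        have h6 := norm_nonneg (T x - S x)
        nlinarith
    simpa using h1
  -- optimisation
  have hopt := opt1 (Q := ∫ x, ‖T x - S x‖ ^ 2 ∂(rho K)) (V := V) (a := 16 * d)
    (b := 12 * R' ^ 2 * d ^ 2 / τ) (B := 4 * R' ^ 2) (τ := τ) hV0 (by positivity) (by positivity)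
    (by positivity) hτ hQB ?_
  · have heq : (16 * (d : ℝ) + 12 * R' ^ 2 * d ^ 2 / τ + 4 * R' ^ 2 / τ) =
        (16 * d + 12 * R' ^ 2 * d ^ 2 / τ + 4 * R' ^ 2 / τ) := rfl
    exact hopt
  · intro r hr hrτ
    rw [hQeq]
    have hdir : ∀ i : Fin d, ∫ x, ⟪T x - S x, EuclideanSpace.single i (1 : ℝ)⟫ ^ 2 ∂(rho K) ≤
        16 / r ^ 2 * V + 12 * R' ^ 2 * (d * (r / τ)) := by
      intro i
      have h1 := gn_dir hK hR0 φ ψ T S hφ hψ hT hS hTg' hSg' c _ (heunit i) hr
      have hna : ‖r • (EuclideanSpace.single i (1 : ℝ) : EE d)‖ = r := by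
        rw [norm_smul, heunit i, mul_one, Real.norm_eq_abs, abs_of_pos hr]
      have h2 := vol_diff_KR_le hK hτ hball (a := r • (EuclideanSpace.single i (1 : ℝ) : EE d))
        (by rw [hna]; exact hr) (by rw [hna]; exact hrτ)
      rw [hna] at h2
      rw [integral_rho, hV, integral_rho, ← hv]
      have h3 : v⁻¹ * ∫ x in K, ⟪T x - S x, EuclideanSpace.single i (1 : ℝ)⟫ ^ 2 ≤
          v⁻¹ * (16 / r ^ 2 * (∫ x in K, (φ x - ψ x - c) ^ 2)
            + 12 * R' ^ 2 * (d * (r / τ) * v)) := by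
        refine mul_le_mul_of_nonneg_left (h1.trans ?_) (inv_pos.2 hv0).le
        rw [← hv] at h2
        have := mul_le_mul_of_nonneg_left h2 (by positivity : 0 ≤ 12 * R' ^ 2)
        linarith
      refine h3.trans (le_of_eq ?_)
      field_simp
    calc ∑ i : Fin d, ∫ x, ⟪T x - S x, EuclideanSpace.single i (1 : ℝ)⟫ ^ 2 ∂(rho K)
        ≤ ∑ _i : Fin d, (16 / r ^ 2 * V + 12 * R' ^ 2 * (d * (r / τ))) :=
          Finset.sum_le_sum fun i _ => hdir i
      _ = 16 * d * V / r ^ 2 + 12 * R' ^ 2 * d ^ 2 / τ * r := by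
          rw [Finset.sum_const, Finset.card_univ, Fintype.card_fin, nsmul_eq_mul]
          field_simp

/-- Rough stability: `‖T' - S‖² ≲ (∫ D_ψ(x, T' x))^{1/3}` where `S` is a subgradient selection of `ψ`
and `T'` is any bounded measurable map. -/
theorem rough_bound (hK : Body K) (R : ℝ) :
    ∃ C : ℝ, 0 ≤ C ∧ ∀ (ψ : EE d → ℝ) (T' S : EE d → EE d), Continuous ψ →
      Measurable T' → Measurable S →
      (∀ᵐ x ∂(rho K), ‖T' x‖ ≤ R) →
      (∀ᵐ x ∂(rho K), ‖S x‖ ≤ R ∧ ∀ x' ∈ K, ψ x + ⟪S x, x' - x⟫ ≤ ψ x') →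
      ∫ x, ‖T' x - S x‖ ^ 2 ∂(rho K) ≤
        C * (∫ x, (legK K ψ (T' x) + ψ x - ⟪x, T' x⟫) ∂(rho K)) ^ (1 / 3 : ℝ) := by
  obtain ⟨x₀, τ, hτ, hball⟩ := exists_ball hK
  set R' := |R| with hR'
  have hR0 : 0 ≤ R' := abs_nonneg R
  refine ⟨(2 * R' * d * τ + 8 * R' ^ 2 * d ^ 2 / τ + 4 * R' ^ 2 / τ), by positivity, ?_⟩
  intro ψ T S hψ hT hS hTg hSg
  have := hK.isProb
  have hKm := hK.measurableSet
  have hTg' : ∀ᵐ x ∂(volume : Measure (EE d)), x ∈ K → ‖T x‖ ≤ R' := by
    filter_upwards [ae_of_rho hK hTg] with x h hxK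
    exact (h hxK).trans (le_abs_self R)
  have hSg' : ∀ᵐ x ∂(volume : Measure (EE d)), x ∈ K →
      ‖S x‖ ≤ R' ∧ ∀ x' ∈ K, ψ x + ⟪S x, x' - x⟫ ≤ ψ x' := by
    filter_upwards [ae_of_rho hK hSg] with x h hxK
    exact ⟨(h hxK).1.trans (le_abs_self R), (h hxK).2⟩
  set v := (volume : Measure (EE d)).real K with hv
  have hv0 : 0 < v := by
    rw [hv, Measure.real]
    exact ENNReal.toReal_pos hK.volume_pos.ne' hK.volume_ne_top
  set V := ∫ x, (legK K ψ (T x) + ψ x - ⟪x, T x⟫) ∂(rho K) with hV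
  have hV0 : 0 ≤ V := by
    refine integral_nonneg_of_ae ?_
    filter_upwards [hK.ae_mem] with x hx
    have := le_legK hK hψ hx (T x)
    simp only [Pi.zero_apply]
    linarith
  have hnorm : ∀ x, ‖T x - S x‖ ^ 2 = ∑ i : Fin d, ⟪T x - S x, EuclideanSpace.single i (1 : ℝ)⟫ ^ 2 := by
    intro x
    rw [EuclideanSpace.real_norm_sq_eq]
    refine Finset.sum_congr rfl fun i _ => ?_
    simp [EuclideanSpace.inner_single_right]
  have heunit : ∀ i : Fin d, ‖(EuclideanSpace.single i (1 : ℝ) : EE d)‖ = 1 := by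
    intro i; simp
  have hgInt : ∀ i : Fin d, Integrable (fun x => ⟪T x - S x, EuclideanSpace.single i (1 : ℝ)⟫ ^ 2) (rho K) := by
    intro i
    refine Integrable.of_bound (C := 4 * R' ^ 2) ?_ ?_
    · exact (((hT.sub hS).inner measurable_const).pow_const 2).aestronglyMeasurable
    · filter_upwards [hTg, hSg] with x h1 h2
      have hT' : ‖T x‖ ≤ R' := h1.trans (le_abs_self R)
      have hS' : ‖S x‖ ≤ R' := h2.1.trans (le_abs_self R)
      have h3 : |⟪T x - S x, EuclideanSpace.single i (1 : ℝ)⟫| ≤ 2 * R' := by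
        refine abs_inner_le ?_ (heunit i)
        have h4 := norm_sub_le (T x) (S x)
        linarith
      rw [Real.norm_eq_abs, abs_pow, sq_abs]
      have := abs_le.1 h3
      nlinarith
  have hQeq : ∫ x, ‖T x - S x‖ ^ 2 ∂(rho K) =
      ∑ i : Fin d, ∫ x, ⟪T x - S x, EuclideanSpace.single i (1 : ℝ)⟫ ^ 2 ∂(rho K) := by
    simp_rw [hnorm]
    rw [integral_finsetSum _ (fun i _ => hgInt i)]
  have hQB : ∫ x, ‖T x - S x‖ ^ 2 ∂(rho K) ≤ 4 * R' ^ 2 := by
    have h1 : ∫ x, ‖T x - S x‖ ^ 2 ∂(rho K) ≤ ∫ _x, 4 * R' ^ 2 ∂(rho K) := by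
      refine integral_mono_ae ?_ (integrable_const _) ?_
      · simp_rw [hnorm]
        exact integrable_finsetSum _ (fun i _ => hgInt i)
      · filter_upwards [hTg, hSg] with x h1 h2
        have hT' : ‖T x‖ ≤ R' := h1.trans (le_abs_self R)
        have hS' : ‖S x‖ ≤ R' := h2.1.trans (le_abs_self R)
        have h4 := norm_sub_le (T x) (S x)
        have h5 : ‖T x - S x‖ ≤ 2 * R' := by linarith
        have h6 := norm_nonneg (T x - S x)
        nlinarith
    simpa using h1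
  refine opt2 (Q := ∫ x, ‖T x - S x‖ ^ 2 ∂(rho K)) (V := V) (a := 2 * R' * d)
    (b := 8 * R' ^ 2 * d ^ 2 / τ) (B := 4 * R' ^ 2) (τ := τ) hV0 (by positivity) (by positivity)
    (by positivity) hτ hQB ?_
  intro r hr hrτ
  rw [hQeq]
  have hdir : ∀ i : Fin d, ∫ x, ⟪T x - S x, EuclideanSpace.single i (1 : ℝ)⟫ ^ 2 ∂(rho K) ≤
      2 * R' / r * V + 8 * R' ^ 2 * (d * (r / τ)) := by
    intro i
    have h1 := rough_dir hK hR0 ψ T S hψ hT hS hTg' hSg' _ (heunit i) hr
    have hna : ‖r • (EuclideanSpace.single i (1 : ℝ) : EE d)‖ = r := by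
      rw [norm_smul, heunit i, mul_one, Real.norm_eq_abs, abs_of_pos hr]
    have h2 := vol_diff_KR_le hK hτ hball (a := r • (EuclideanSpace.single i (1 : ℝ) : EE d))
      (by rw [hna]; exact hr) (by rw [hna]; exact hrτ)
    rw [hna] at h2
    rw [integral_rho, hV, integral_rho, ← hv]
    have h3 : v⁻¹ * ∫ x in K, ⟪T x - S x, EuclideanSpace.single i (1 : ℝ)⟫ ^ 2 ≤
        v⁻¹ * (2 * R' / r * (∫ x in K, (legK K ψ (T x) + ψ x - ⟪x, T x⟫))
          + 8 * R' ^ 2 * (d * (r / τ) * v)) := by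
      refine mul_le_mul_of_nonneg_left (h1.trans ?_) (inv_pos.2 hv0).le
      rw [← hv] at h2
      have := mul_le_mul_of_nonneg_left h2 (by positivity : 0 ≤ 8 * R' ^ 2)
      linarith
    refine h3.trans (le_of_eq ?_)
    field_simp
  calc ∑ i : Fin d, ∫ x, ⟪T x - S x, EuclideanSpace.single i (1 : ℝ)⟫ ^ 2 ∂(rho K)
      ≤ ∑ _i : Fin d, (2 * R' / r * V + 8 * R' ^ 2 * (d * (r / τ))) :=
        Finset.sum_le_sum fun i _ => hdir i
    _ = 2 * R' * d * V / r + 8 * R' ^ 2 * d ^ 2 / τ * r := by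
        rw [Finset.sum_const, Finset.card_univ, Fintype.card_fin, nsmul_eq_mul]
        field_simp

end Crest.Agent.OTS
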