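import Crest.Agent.Lib.OTS.Var
import Crest.Agent.Lib.OTS.GN
import Crest.Agent.Lib.OTS.Discretize

/-!
# Assembly of S0109 (task T8)

Discretise `π`: a finite measurable partition of `Y × Y` into small pieces `Q a`; `m a = (π (Q a)).toReal`,
atoms `y a`, `z a` near the pieces, injective.  `c, c'` from `exists_lagWeights`, `Tδ, Sδ` from
`exists_lagMap`.  `exists_competitor` gives `S₁` with `S₁ # ρ = μ`, and `‖S₁ - Tδ‖ ≤ δ'` a.e.
`excess_bound`: `∫ D(x, Tμ x) ≤ 2 D' δ'` where `D(x,z) = legK K ψ z + ψ x - ⟪x,z⟫`, `ψ = lagPot y c`.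
`rough_bound`: `‖Tμ - Tδ‖² ≲ δ^{1/3}`.  Same for `ν`.
`atomic_var` + `gn_bound`: `‖Tδ - Sδ‖² ≲ (∑ m a ‖y a - z a‖²)^{1/3}` and
`∑ m a ‖y a - z a‖² ≤ 2 W + C δ²`.  Triangle inequality, `δ → 0`.
-/

open MeasureTheory Set Filter
open scoped ENNReal NNReal RealInnerProductSpace Topology

namespace Crest.Agent.OTS

open Crest.AnalysisR.OT

variable {d : ℕ} {K : Set (EE d)}

/-- One marginal: the optimal map is close to the Laguerre map. -/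
theorem side_bound (hd : 0 < d) (hK : Body K) {Cr R : ℝ} (hCr : 0 ≤ Cr)
    (hrough : ∀ (ψ : EE d → ℝ) (T' S : EE d → EE d), Continuous ψ →
      Measurable T' → Measurable S →
      (∀ᵐ x ∂(rho K), ‖T' x‖ ≤ R) →
      (∀ᵐ x ∂(rho K), ‖S x‖ ≤ R ∧ ∀ x' ∈ K, ψ x + ⟪S x, x' - x⟫ ≤ ψ x') →
      ∫ x, ‖T' x - S x‖ ^ 2 ∂(rho K) ≤
        Cr * (∫ x, (legK K ψ (T' x) + ψ x - ⟪x, T' x⟫) ∂(rho K)) ^ (1 / 3 : ℝ))
    {D : ℝ} (hD : ∀ x ∈ K, ‖x‖ ≤ D)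
    {μ : Measure (EE d)} {Y : Set (EE d)} (hYm : MeasurableSet Y) (hYR : ∀ y ∈ Y, ‖y‖ ≤ R)
    (hμY : μ Yᶜ = 0) {T : EE d → EE d} (hopt : IsOptimalMap (uniformProbOn K) μ T)
    {π : Measure (EE d × EE d)} [IsFiniteMeasure π] {I : Type} [Fintype I] [Nonempty I]
    {Q : I → Set (EE d × EE d)}
    (hQm : ∀ a, MeasurableSet (Q a)) (hQd : Pairwise (Function.onFun Disjoint Q))
    (hQc : π (⋃ a, Q a)ᶜ = 0) {m : I → ℝ} (hπm : ∀ a, π (Q a) = ENNReal.ofReal (m a))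
    {y : I → EE d} (hy : Function.Injective y) (hyR : ∀ a, ‖y a‖ ≤ R) {c : I → ℝ}
    (hρm : ∀ a, rho K (lagCell y c a) = ENNReal.ofReal (m a))
    {fs : EE d × EE d → EE d} (hfs : Measurable fs) (hfsμ : π.map fs = μ) {δ : ℝ}
    (hfsδ : ∀ a, ∀ q ∈ Q a, ‖fs q - y a‖ ≤ δ)
    {Tδ : EE d → EE d} (hTm : Measurable Tδ) (hTs : ∀ x, ∃ a, Tδ x = y a ∧ x ∈ lagCell y c a) :
    ∫ x, ‖T x - Tδ x‖ ^ 2 ∂(rho K) ≤ Cr * (2 * D * δ) ^ (1 / 3 : ℝ) := by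
  have hρ := hK.isProb
  obtain ⟨S₁, hS₁, hS₁map, hclose⟩ := exists_competitor hd hK hQm hQd hQc hπm hy hρm hfs hfsδ hTm hTs
  rw [hfsμ] at hS₁map
  have hsub : ∀ᵐ x ∂(rho K), ∀ x' ∈ K, lagPot y c x + ⟪Tδ x, x' - x⟫ ≤ lagPot y c x' := by
    refine Eventually.of_forall fun x x' _ => ?_
    obtain ⟨a, ha, hxa⟩ := hTs x
    rw [ha]
    exact lagPot_subgrad y c hxa x'
  have hex := excess_bound hK hYm hYR hμY hopt hS₁ hS₁map (continuous_lagPot y c) hD hclose hsub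
  have hTY : ∀ᵐ x ∂(rho K), T x ∈ Y := ae_mem_of_map hYm hopt.1 hopt.2.1 hμY
  have hr := hrough (lagPot y c) T Tδ (continuous_lagPot y c) hopt.1 hTm
    (by filter_upwards [hTY] with x hx using hYR _ hx)
    (by
      filter_upwards [hsub] with x hx
      refine ⟨?_, hx⟩
      obtain ⟨a, ha, -⟩ := hTs x
      rw [ha]; exact hyR a)
  refine hr.trans (mul_le_mul_of_nonneg_left ?_ hCr)
  -- nonnegativity of the excess
  have hnn : 0 ≤ ∫ x, (legK K (lagPot y c) (T x) + lagPot y c x - ⟪x, T x⟫) ∂(rho K) := by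
    refine integral_nonneg_of_ae ?_
    filter_upwards [hK.ae_mem] with x hx
    have := le_legK' hK (continuous_lagPot y c) hx (T x)
    simp only [Pi.zero_apply]
    linarith
  exact Real.rpow_le_rpow hnn hex (by norm_num)

/-- The core estimate for a fixed discretisation scale. -/
theorem step_bound (hd : 2 ≤ d) (hK : Body K) {Y : Set (EE d)} (hYc : IsCompact Y) {R : ℝ}
    (hYR : ∀ y ∈ Y, ‖y‖ ≤ R)
    {Cr Cg Cv : ℝ} (hCr : 0 ≤ Cr) (hCg : 0 ≤ Cg) (hCv : 0 ≤ Cv)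
    (hrough : ∀ (ψ : EE d → ℝ) (T' S : EE d → EE d), Continuous ψ →
      Measurable T' → Measurable S →
      (∀ᵐ x ∂(rho K), ‖T' x‖ ≤ R + 2) →
      (∀ᵐ x ∂(rho K), ‖S x‖ ≤ R + 2 ∧ ∀ x' ∈ K, ψ x + ⟪S x, x' - x⟫ ≤ ψ x') →
      ∫ x, ‖T' x - S x‖ ^ 2 ∂(rho K) ≤
        Cr * (∫ x, (legK K ψ (T' x) + ψ x - ⟪x, T' x⟫) ∂(rho K)) ^ (1 / 3 : ℝ))
    (hgn : ∀ (φ ψ : EE d → ℝ) (T S : EE d → EE d), Continuous φ → Continuous ψ →
      Measurable T → Measurable S →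
      (∀ᵐ x ∂(rho K), ‖T x‖ ≤ R + 2 ∧ ∀ x' ∈ K, φ x + ⟪T x, x' - x⟫ ≤ φ x') →
      (∀ᵐ x ∂(rho K), ‖S x‖ ≤ R + 2 ∧ ∀ x' ∈ K, ψ x + ⟪S x, x' - x⟫ ≤ ψ x') →
      ∀ c : ℝ, ∫ x, ‖T x - S x‖ ^ 2 ∂(rho K) ≤
        Cg * (∫ x, (φ x - ψ x - c) ^ 2 ∂(rho K)) ^ (1 / 3 : ℝ))
    (hvar : ∀ (I : Type) [Fintype I] [Nonempty I] (m : I → ℝ), (∀ a, 0 < m a) →
      ∑ a, m a = 1 → ∀ (y z : I → EE d), Function.Injective y → Function.Injective z →
      ∀ c c' : I → ℝ, (∀ a, rho K (lagCell y c a) = ENNReal.ofReal (m a)) →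
        (∀ a, rho K (lagCell z c' a) = ENNReal.ofReal (m a)) →
        ∫ x, (lagPot y c x - lagPot z c' x -
            ∫ u, (lagPot y c u - lagPot z c' u) ∂(rho K)) ^ 2 ∂(rho K) ≤
          Cv * ∑ a, m a * ‖y a - z a‖ ^ 2)
    {D : ℝ} (hD : ∀ x ∈ K, ‖x‖ ≤ D)
    {μ ν : Measure (EE d)} (hμ : IsProbabilityOn Y μ) (hν : IsProbabilityOn Y ν)
    {Tμ Tν : EE d → EE d} (hTμ : IsOptimalMap (uniformProbOn K) μ Tμ)
    (hTν : IsOptimalMap (uniformProbOn K) ν Tν) {π : Measure (EE d × EE d)}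
    (hπ : IsPairCoupling μ ν π) {δ : ℝ} (hδ : 0 < δ) (hδ1 : δ ≤ 1) :
    ∫ x, ‖Tμ x - Tν x‖ ^ 2 ∂(rho K) ≤
      3 * (Cr * (2 * D * (2 * δ)) ^ (1 / 3 : ℝ)) +
      3 * (Cg * (Cv * (2 * (∫ p, ‖p.1 - p.2‖ ^ 2 ∂π) + 32 * δ ^ 2)) ^ (1 / 3 : ℝ)) +
      3 * (Cr * (2 * D * (2 * δ)) ^ (1 / 3 : ℝ)) := by
  have hρ := hK.isProb
  have hρac : rho K ≪ volume := rho_absCont
  have hρK := hK.rho_compl
  have hd0 : 0 < d := by omega
  have hYm : MeasurableSet Y := hYc.isClosed.measurableSet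
  obtain ⟨hμp, hμY⟩ := hμ
  obtain ⟨hνp, hνY⟩ := hν
  obtain ⟨hπ1, hπ2⟩ := hπ
  -- `π` is a probability measure carried by `Y × Y`
  have hπprob : IsProbabilityMeasure π := by
    constructor
    have : π univ = (π.map Prod.fst) univ := by
      rw [Measure.map_apply measurable_fst MeasurableSet.univ, preimage_univ]
    rw [this, hπ1, measure_univ]
  have hZ : IsCompact (Y ×ˢ Y) := hYc.prod hYc
  have hπZ : π (Y ×ˢ Y)ᶜ = 0 := by
    have hsub : (Y ×ˢ Y)ᶜ ⊆ Prod.fst ⁻¹' Yᶜ ∪ Prod.snd ⁻¹' Yᶜ := by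
      intro p hp
      by_contra hcon
      simp only [mem_union, mem_preimage, mem_compl_iff, not_or, not_not] at hcon
      exact hp ⟨hcon.1, hcon.2⟩
    refine measure_mono_null hsub (measure_union_null ?_ ?_)
    · rw [← Measure.map_apply measurable_fst hYm.compl, hπ1, hμY]
    · rw [← Measure.map_apply measurable_snd hYm.compl, hπ2, hνY]
  -- the discretisation
  obtain ⟨I, hIF, hINE, Q, p, hQm, hQd, hQpos, hQc, hQdist, hQZ⟩ := exists_cells hZ hπZ hδ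
  obtain ⟨y, hy, hyp⟩ := exists_atoms hd0 (fun a => (p a).1) hδ
  obtain ⟨z, hz, hzp⟩ := exists_atoms hd0 (fun a => (p a).2) hδ
  let m : I → ℝ := fun a => (π (Q a)).toReal
  have hm : ∀ a, 0 < m a := fun a =>
    ENNReal.toReal_pos (hQpos a).ne' (measure_ne_top _ _)
  have hπm : ∀ a, π (Q a) = ENNReal.ofReal (m a) := fun a =>
    (ENNReal.ofReal_toReal (measure_ne_top _ _)).symm
  have hm1 : ∑ a, m a = 1 := by
    have h1 := measure_eq_sum_inter (lam := π) (B := univ) hQm hQd hQc MeasurableSet.univ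
    simp only [univ_inter, measure_univ] at h1
    have h2 := congrArg ENNReal.toReal h1
    rw [ENNReal.toReal_sum (fun a _ => measure_ne_top _ _)] at h2
    simpa [m] using h2.symm
  -- closeness of atoms and points
  have hclose1 : ∀ a, ∀ q ∈ Q a, ‖q.1 - y a‖ ≤ 2 * δ := by
    intro a q hq
    have h1 : dist q (p a) < δ := hQdist a q hq
    have h2 : dist q.1 (p a).1 ≤ dist q (p a) := by rw [Prod.dist_eq]; exact le_max_left _ _
    have h3 := hyp a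
    rw [dist_eq_norm] at h2
    have h4 : ‖q.1 - y a‖ ≤ ‖q.1 - (p a).1‖ + ‖y a - (p a).1‖ := by
      have : q.1 - y a = (q.1 - (p a).1) - (y a - (p a).1) := by abel
      rw [this]; exact norm_sub_le _ _
    linarith
  have hclose2 : ∀ a, ∀ q ∈ Q a, ‖q.2 - z a‖ ≤ 2 * δ := by
    intro a q hq
    have h1 : dist q (p a) < δ := hQdist a q hq
    have h2 : dist q.2 (p a).2 ≤ dist q (p a) := by rw [Prod.dist_eq]; exact le_max_right _ _
    have h3 := hzp a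
    rw [dist_eq_norm] at h2
    have h4 : ‖q.2 - z a‖ ≤ ‖q.2 - (p a).2‖ + ‖z a - (p a).2‖ := by
      have : q.2 - z a = (q.2 - (p a).2) - (z a - (p a).2) := by abel
      rw [this]; exact norm_sub_le _ _
    linarith
  have hyR : ∀ a, ‖y a‖ ≤ R + 2 := by
    intro a
    obtain ⟨q, hq, hqZ⟩ := hQZ a
    have h1 := hclose1 a q hq
    have h2 := hYR _ hqZ.1
    have h3 : ‖y a‖ ≤ ‖q.1‖ + ‖q.1 - y a‖ := by
      have : y a = q.1 - (q.1 - y a) := by abel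
      conv_lhs => rw [this]
      exact norm_sub_le _ _
    linarith
  have hzR : ∀ a, ‖z a‖ ≤ R + 2 := by
    intro a
    obtain ⟨q, hq, hqZ⟩ := hQZ a
    have h1 := hclose2 a q hq
    have h2 := hYR _ hqZ.2
    have h3 : ‖z a‖ ≤ ‖q.2‖ + ‖q.2 - z a‖ := by
      have : z a = q.2 - (q.2 - z a) := by abel
      conv_lhs => rw [this]
      exact norm_sub_le _ _
    linarith
  -- the weights and Laguerre maps
  obtain ⟨c, hc⟩ := exists_lagWeights hK.compact (rho K) hρac hρK m hm hm1 y hy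
  obtain ⟨c', hc'⟩ := exists_lagWeights hK.compact (rho K) hρac hρK m hm hm1 z hz
  obtain ⟨Tδ, hTδm, hTδs⟩ := exists_lagMap y c
  obtain ⟨Sδ, hSδm, hSδs⟩ := exists_lagMap z c'
  have hYR2 : ∀ y ∈ Y, ‖y‖ ≤ R + 2 := fun y hy => (hYR y hy).trans (by linarith)
  -- the two marginals
  have hs1 := side_bound hd0 hK hCr hrough hD hYm hYR2 hμY hTμ hQm hQd hQc hπm hy hyR hc
    measurable_fst hπ1 (δ := 2 * δ) hclose1 hTδm hTδs
  have hs2 := side_bound hd0 hK hCr hrough hD hYm hYR2 hνY hTν hQm hQd hQc hπm hz hzR hc'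
    measurable_snd hπ2 (δ := 2 * δ) hclose2 hSδm hSδs
  -- the middle term
  have hsub1 : ∀ᵐ x ∂(rho K), ‖Tδ x‖ ≤ R + 2 ∧ ∀ x' ∈ K, lagPot y c x + ⟪Tδ x, x' - x⟫ ≤ lagPot y c x' := by
    refine Eventually.of_forall fun x => ?_
    obtain ⟨a, ha, hxa⟩ := hTδs x
    rw [ha]
    exact ⟨hyR a, fun x' _ => lagPot_subgrad y c hxa x'⟩
  have hsub2 : ∀ᵐ x ∂(rho K), ‖Sδ x‖ ≤ R + 2 ∧ ∀ x' ∈ K, lagPot z c' x + ⟪Sδ x, x' - x⟫ ≤ lagPot z c' x' := by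
    refine Eventually.of_forall fun x => ?_
    obtain ⟨a, ha, hxa⟩ := hSδs x
    rw [ha]
    exact ⟨hzR a, fun x' _ => lagPot_subgrad z c' hxa x'⟩
  have hmid := hgn (lagPot y c) (lagPot z c') Tδ Sδ (continuous_lagPot y c) (continuous_lagPot z c')
    hTδm hSδm hsub1 hsub2 (∫ u, (lagPot y c u - lagPot z c' u) ∂(rho K))
  have hvar' := hvar I m hm hm1 y z hy hz c c' hc hc'
  -- bounding the discrete cost
  have hWint : Integrable (fun p : EE d × EE d => ‖p.1 - p.2‖ ^ 2) π := by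
    have hcont : Continuous (fun p : EE d × EE d => ‖p.1 - p.2‖ ^ 2) := by fun_prop
    obtain ⟨B, hB⟩ := hZ.exists_bound_of_continuousOn hcont.continuousOn
    refine Integrable.of_bound hcont.aestronglyMeasurable B ?_
    have : ∀ᵐ p ∂π, p ∈ Y ×ˢ Y := by rw [ae_iff]; exact hπZ
    filter_upwards [this] with p hp using hB p hp
  have hdiscrete : ∑ a, m a * ‖y a - z a‖ ^ 2 ≤ 2 * (∫ p, ‖p.1 - p.2‖ ^ 2 ∂π) + 32 * δ ^ 2 := by
    let φ : EE d × EE d → ℝ := fun p => 2 * ‖p.1 - p.2‖ ^ 2 + 32 * δ ^ 2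
    have hφi : Integrable φ π := (hWint.const_mul 2).add (integrable_const _)
    have hφval : ∫ p, φ p ∂π = 2 * (∫ p, ‖p.1 - p.2‖ ^ 2 ∂π) + 32 * δ ^ 2 := by
      simp only [φ]
      rw [integral_add (hWint.const_mul 2) (integrable_const _), integral_const_mul, integral_const]
      simp
    rw [← hφval]
    have hsplit : ∫ p, φ p ∂π = ∑ a, ∫ p in Q a, φ p ∂π := by
      have h1 := integral_iUnion (μ := π) (f := φ) hQm hQd hφi.integrableOn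
      rw [tsum_fintype] at h1
      rw [← h1]
      have h2 : π.restrict (⋃ a, Q a) = π := Measure.restrict_eq_self_of_ae_mem (by
        rw [ae_iff]; exact hQc)
      rw [h2]
    rw [hsplit]
    refine Finset.sum_le_sum fun a _ => ?_
    have h3 : ∫ _p in Q a, ‖y a - z a‖ ^ 2 ∂π = m a * ‖y a - z a‖ ^ 2 := by
      rw [setIntegral_const]
      simp [Measure.real, m]
    rw [← h3]
    refine setIntegral_mono_on (integrableOn_const (by simp [hQpos])) hφi.integrableOn (hQm a) ?_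
    intro q hq
    have h4 := hclose1 a q hq
    have h5 := hclose2 a q hq
    have h6 : ‖y a - z a‖ ≤ ‖q.1 - q.2‖ + 4 * δ := by
      have e : y a - z a = (q.1 - q.2) - (q.1 - y a) + (q.2 - z a) := by abel
      rw [e]
      refine (norm_add_le _ _).trans ?_
      have := norm_sub_le (q.1 - q.2) (q.1 - y a)
      linarith
    simp only [φ]
    have h7 : 0 ≤ ‖y a - z a‖ := norm_nonneg _
    have h8 : 0 ≤ ‖q.1 - q.2‖ := norm_nonneg _
    nlinarith [sq_nonneg (‖q.1 - q.2‖ - 4 * δ)]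
  have hmid2 : ∫ x, ‖Tδ x - Sδ x‖ ^ 2 ∂(rho K) ≤
      Cg * (Cv * (2 * (∫ p, ‖p.1 - p.2‖ ^ 2 ∂π) + 32 * δ ^ 2)) ^ (1 / 3 : ℝ) := by
    refine hmid.trans (mul_le_mul_of_nonneg_left ?_ hCg)
    refine Real.rpow_le_rpow (integral_nonneg fun _ => sq_nonneg _) ?_ (by norm_num)
    exact hvar'.trans (mul_le_mul_of_nonneg_left hdiscrete hCv)
  -- triangle inequality
  have hTμY : ∀ᵐ x ∂(rho K), ‖Tμ x‖ ≤ R + 2 := by
    filter_upwards [ae_mem_of_map hYm hTμ.1 hTμ.2.1 hμY] with x hx using hYR2 _ hx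
  have hTνY : ∀ᵐ x ∂(rho K), ‖Tν x‖ ≤ R + 2 := by
    filter_upwards [ae_mem_of_map hYm hTν.1 hTν.2.1 hνY] with x hx using hYR2 _ hx
  have hTδb : ∀ᵐ x ∂(rho K), ‖Tδ x‖ ≤ R + 2 := hsub1.mono fun x hx => hx.1
  have hSδb : ∀ᵐ x ∂(rho K), ‖Sδ x‖ ≤ R + 2 := hsub2.mono fun x hx => hx.1
  have hint : ∀ {U V : EE d → EE d}, Measurable U → Measurable V → (∀ᵐ x ∂(rho K), ‖U x‖ ≤ R + 2) →
      (∀ᵐ x ∂(rho K), ‖V x‖ ≤ R + 2) → Integrable (fun x => ‖U x - V x‖ ^ 2) (rho K) := by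
    intro U V hU hV hUb hVb
    refine integrable_of_ae_bdd (((hU.sub hV).norm).pow_const 2) (B := (R + 2 + (R + 2)) ^ 2) ?_
    filter_upwards [hUb, hVb] with x h1 h2
    rw [abs_of_nonneg (sq_nonneg _)]
    exact pow_le_pow_left₀ (norm_nonneg _) ((norm_sub_le _ _).trans (add_le_add h1 h2)) 2
  have i1 := hint hTμ.1 hTδm hTμY hTδb
  have i2 := hint hTδm hSδm hTδb hSδb
  have i3 := hint hTν.1 hSδm hTνY hSδb
  have i0 := hint hTμ.1 hTν.1 hTμY hTνY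
  have htri : ∫ x, ‖Tμ x - Tν x‖ ^ 2 ∂(rho K) ≤
      3 * ∫ x, ‖Tμ x - Tδ x‖ ^ 2 ∂(rho K) + 3 * ∫ x, ‖Tδ x - Sδ x‖ ^ 2 ∂(rho K) +
        3 * ∫ x, ‖Tν x - Sδ x‖ ^ 2 ∂(rho K) := by
    have h12 : Integrable (fun x => 3 * ‖Tμ x - Tδ x‖ ^ 2 + 3 * ‖Tδ x - Sδ x‖ ^ 2) (rho K) :=
      (i1.const_mul 3).add (i2.const_mul 3)
    have e0 : ∫ x, (3 * ‖Tμ x - Tδ x‖ ^ 2 + 3 * ‖Tδ x - Sδ x‖ ^ 2 + 3 * ‖Tν x - Sδ x‖ ^ 2) ∂(rho K) =
        3 * ∫ x, ‖Tμ x - Tδ x‖ ^ 2 ∂(rho K) + 3 * ∫ x, ‖Tδ x - Sδ x‖ ^ 2 ∂(rho K) +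
        3 * ∫ x, ‖Tν x - Sδ x‖ ^ 2 ∂(rho K) := by
      rw [integral_add h12 (i3.const_mul 3), integral_add (i1.const_mul 3) (i2.const_mul 3),
        integral_const_mul, integral_const_mul, integral_const_mul]
    rw [← e0]
    refine integral_mono i0 (h12.add (i3.const_mul 3)) fun x => ?_
    simp only
    have e : Tμ x - Tν x = (Tμ x - Tδ x) + (Tδ x - Sδ x) - (Tν x - Sδ x) := by abel
    have hn : ‖Tμ x - Tν x‖ ≤ ‖Tμ x - Tδ x‖ + ‖Tδ x - Sδ x‖ + ‖Tν x - Sδ x‖ := by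
      rw [e]
      refine (norm_sub_le _ _).trans (add_le_add (norm_add_le _ _) le_rfl)
    have h0 := norm_nonneg (Tμ x - Tν x)
    nlinarith [sq_nonneg (‖Tμ x - Tδ x‖ - ‖Tδ x - Sδ x‖), sq_nonneg (‖Tμ x - Tδ x‖ - ‖Tν x - Sδ x‖),
      sq_nonneg (‖Tδ x - Sδ x‖ - ‖Tν x - Sδ x‖), norm_nonneg (Tμ x - Tδ x),
      norm_nonneg (Tδ x - Sδ x), norm_nonneg (Tν x - Sδ x),
      mul_self_le_mul_self h0 hn]
  linarith

/-- The statement S0109. -/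
theorem s0109_main (hd : 2 ≤ d) (K : Set (EE d)) (hKc : IsCompact K) (hKv : Convex ℝ K)
    (hKi : (interior K).Nonempty) (Y : Set (EE d)) (hYc : IsCompact Y) (hYn : Y.Nonempty) :
    ∃ C : ℝ≥0, ∀ μ ν : Measure (EE d), IsProbabilityOn Y μ → IsProbabilityOn Y ν →
      ∀ Tμ Tν : EE d → EE d,
        IsOptimalMap (uniformProbOn K) μ Tμ → IsOptimalMap (uniformProbOn K) ν Tν →
        ∀ π : Measure (EE d × EE d), IsPairCoupling μ ν π →
          ∫⁻ x, ‖Tμ x - Tν x‖ₑ ^ 2 ∂(uniformProbOn K) ≤ C * quadCost π ^ (1 / 3 : ℝ) := by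
  have hK : Body K := ⟨hKc, hKv, hKi⟩
  have hρ := hK.isProb
  obtain ⟨R, hYR⟩ : ∃ R, ∀ y ∈ Y, ‖y‖ ≤ R := hYc.exists_bound_of_continuousOn
    continuous_id.continuousOn
  obtain ⟨D, hD⟩ : ∃ D, ∀ x ∈ K, ‖x‖ ≤ D := hKc.exists_bound_of_continuousOn
    continuous_id.continuousOn
  have hD0 : 0 ≤ D := by
    obtain ⟨x, hx⟩ := hK.nonempty
    exact (norm_nonneg _).trans (hD x hx)
  obtain ⟨Cr, hCr, hrough⟩ := rough_bound hK (R + 2)
  obtain ⟨Cg, hCg, hgn⟩ := gn_bound hK (R + 2)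
  obtain ⟨Cv, hCv, hvar⟩ := atomic_var hK
  set C₀ : ℝ := 3 * (Cg * (Cv * 2) ^ (1 / 3 : ℝ)) with hC₀
  have hC₀0 : 0 ≤ C₀ := by positivity
  refine ⟨Real.toNNReal C₀, ?_⟩
  intro μ ν hμ hν Tμ Tν hTμ hTν π hπ
  set E := ∫ x, ‖Tμ x - Tν x‖ ^ 2 ∂(rho K) with hE
  set W := ∫ p, ‖p.1 - p.2‖ ^ 2 ∂π with hW
  have hW0 : 0 ≤ W := integral_nonneg fun _ => sq_nonneg _
  -- the limit
  let F : ℝ → ℝ := fun δ => 3 * (Cr * (2 * D * (2 * δ)) ^ (1 / 3 : ℝ)) +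
      3 * (Cg * (Cv * (2 * W + 32 * δ ^ 2)) ^ (1 / 3 : ℝ)) +
      3 * (Cr * (2 * D * (2 * δ)) ^ (1 / 3 : ℝ))
  have hFc : Continuous F := by
    have hexp : (0 : ℝ) ≤ 1 / 3 := by norm_num
    have h1 : Continuous fun δ : ℝ => (2 * D * (2 * δ)) ^ (1 / 3 : ℝ) :=
      (Real.continuous_rpow_const hexp).comp (by fun_prop)
    have h2 : Continuous fun δ : ℝ => (Cv * (2 * W + 32 * δ ^ 2)) ^ (1 / 3 : ℝ) :=
      (Real.continuous_rpow_const hexp).comp (by fun_prop)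
    simp only [F]
    fun_prop
  have hF0 : F 0 = C₀ * W ^ (1 / 3 : ℝ) := by
    simp only [F, hC₀]
    have h0 : (0 : ℝ) ^ (1 / 3 : ℝ) = 0 := Real.zero_rpow (by norm_num)
    have h1 : (2 * D * (2 * (0 : ℝ))) = 0 := by ring
    have h2 : Cv * (2 * W + 32 * (0 : ℝ) ^ 2) = (Cv * 2) * W := by ring
    rw [h1, h0, h2, Real.mul_rpow (by positivity) hW0]
    ring
  have hlim : E ≤ F 0 := by
    have htend : Tendsto F (𝓝[>] 0) (𝓝 (F 0)) :=
      (hFc.tendsto 0).mono_left nhdsWithin_le_nhds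
    refine ge_of_tendsto htend ?_
    filter_upwards [Ioc_mem_nhdsGT (zero_lt_one' ℝ)] with δ hδ
    exact step_bound hd hK hYc hYR hCr hCg hCv hrough hgn hvar hD hμ hν hTμ hTν hπ hδ.1 hδ.2
  rw [hF0] at hlim
  -- conversion
  obtain ⟨hμp, hμY⟩ := hμ
  obtain ⟨hνp, hνY⟩ := hν
  have hYm : MeasurableSet Y := hYc.isClosed.measurableSet
  have hb : ∀ᵐ x ∂(rho K), ‖Tμ x - Tν x‖ ≤ R + R := by
    filter_upwards [ae_mem_of_map hYm hTμ.1 hTμ.2.1 hμY, ae_mem_of_map hYm hTν.1 hTν.2.1 hνY]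
      with x h1 h2
    exact (norm_sub_le _ _).trans (add_le_add (hYR _ h1) (hYR _ h2))
  have hconvE : ∫⁻ x, ‖Tμ x - Tν x‖ₑ ^ 2 ∂(uniformProbOn K) = ENNReal.ofReal E :=
    lintegral_enorm_sq (ρ := rho K) (f := fun x => Tμ x - Tν x) (hTμ.1.sub hTν.1) hb
  have hconvW : quadCost π = ENNReal.ofReal W := by
    unfold quadCost
    obtain ⟨hπ1, hπ2⟩ := hπ
    have hπprob : IsProbabilityMeasure π := by
      constructor
      have : π univ = (π.map Prod.fst) univ := by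
        rw [Measure.map_apply measurable_fst MeasurableSet.univ, preimage_univ]
      rw [this, hπ1, measure_univ]
    have hZ : IsCompact (Y ×ˢ Y) := hYc.prod hYc
    have hπZ : π (Y ×ˢ Y)ᶜ = 0 := by
      have hsub : (Y ×ˢ Y)ᶜ ⊆ Prod.fst ⁻¹' Yᶜ ∪ Prod.snd ⁻¹' Yᶜ := by
        intro p hp
        by_contra hcon
        simp only [mem_union, mem_preimage, mem_compl_iff, not_or, not_not] at hcon
        exact hp ⟨hcon.1, hcon.2⟩
      refine measure_mono_null hsub (measure_union_null ?_ ?_)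
      · rw [← Measure.map_apply measurable_fst hYm.compl, hπ1, hμY]
      · rw [← Measure.map_apply measurable_snd hYm.compl, hπ2, hνY]
    have hcont : Continuous (fun p : EE d × EE d => ‖p.1 - p.2‖ ^ 2) := by fun_prop
    obtain ⟨B, hB⟩ := hZ.exists_bound_of_continuousOn hcont.continuousOn
    have hWint : Integrable (fun p : EE d × EE d => ‖p.1 - p.2‖ ^ 2) π := by
      refine Integrable.of_bound hcont.aestronglyMeasurable B ?_
      have : ∀ᵐ p ∂π, p ∈ Y ×ˢ Y := by rw [ae_iff]; exact hπZ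
      filter_upwards [this] with p hp using hB p hp
    rw [hW, ofReal_integral_eq_lintegral_ofReal hWint
      (Eventually.of_forall fun x => sq_nonneg _)]
    refine lintegral_congr fun x => ?_
    rw [ENNReal.ofReal_pow (norm_nonneg _), ofReal_norm]
  rw [hconvE, hconvW]
  have hcoe : ((Real.toNNReal C₀ : ℝ≥0) : ℝ≥0∞) = ENNReal.ofReal C₀ := rfl
  rw [hcoe, ENNReal.ofReal_rpow_of_nonneg hW0 (by norm_num), ← ENNReal.ofReal_mul hC₀0]
  exact ENNReal.ofReal_le_ofReal hlim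

end Crest.Agent.OTS
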