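import Crest.Agent.Lib.OTS.Defs

/-!
# Matched families of cell pairs and their refinement by hyperplane cuts (task T2)

A matched family: finitely many pairs `(A j, B j)` of compact convex sets with `ρ (A j) = σ (B j)`,
any two pairs being separated by a common normal.  Cutting a pair `(A, B)` at level `s` in direction
`e` on the `A` side: `A ∩ {⟪x,e⟫ ≤ s}`, `A ∩ {s ≤ ⟪x,e⟫}`, and on the `B` side at a level `s'` with
`σ (B ∩ {⟪x,e⟫ ≤ s'}) = ρ (A ∩ {⟪x,e⟫ ≤ s})` (intermediate value theorem, hyperplanes are null since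
`ρ, σ ≪ volume`).  Symmetric cut with the level prescribed on the `B` side.  A cut does not decrease
`Qval` by Cauchy–Schwarz: `‖z₁+z₂‖²/(m₁+m₂) ≤ ‖z₁‖²/m₁ + ‖z₂‖²/m₂`, and `m = 0` forces `z = 0`.
Doing the cuts on both sides, in the coordinate directions, on a grid of step `δ / (√d + 1)`, gives
a family of mesh at most `δ` (the property "the cell lies on one side of the level `s`" is
inherited by subcells).
-/

open MeasureTheory Set
open scoped ENNReal RealInnerProductSpace

namespace Crest.Agent.OTS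

variable {d : ℕ}

/-- Common-normal separation of two pairs. -/
def Sep (A A' B B' : Set (EE d)) : Prop :=
  ∃ n : EE d, n ≠ 0 ∧ ∃ s s' : ℝ, (∀ x ∈ A, ⟪x, n⟫ ≤ s) ∧ (∀ x ∈ A', s ≤ ⟪x, n⟫) ∧
    (∀ x ∈ B, ⟪x, n⟫ ≤ s') ∧ (∀ x ∈ B', s' ≤ ⟪x, n⟫)

/-- A matched family of pairs of compact convex sets. -/
structure MFam (ρ σ : Measure (EE d)) (ι : Type) where
  A : ι → Set (EE d)
  B : ι → Set (EE d)
  hA : ∀ j, IsCompact (A j) ∧ Convex ℝ (A j)
  hB : ∀ j, IsCompact (B j) ∧ Convex ℝ (B j)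
  mass : ∀ j, ρ (A j) = σ (B j)
  sep : ∀ j j', j ≠ j' → Sep (A j) (A j') (B j) (B j')

/-- The quantity controlled through the refinement. -/
noncomputable def Qval {ρ σ : Measure (EE d)} {ι : Type} [Fintype ι] (F : MFam ρ σ ι) : ℝ :=
  ∑ j, ((ρ (F.A j)).toReal)⁻¹ * ‖(∫ x in F.A j, x ∂ρ) - ∫ x in F.B j, x ∂σ‖ ^ 2

namespace CutAux

/-- Sublevel and superlevel half-spaces. -/
def part (e : EE d) (s : ℝ) : Bool → Set (EE d)
  | true => {x | ⟪x, e⟫ ≤ s}
  | false => {x | s ≤ ⟪x, e⟫}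

lemma isClosed_part (e : EE d) (s : ℝ) (b : Bool) : IsClosed (part e s b) := by
  cases b
  · exact isClosed_le continuous_const (by fun_prop)
  · exact isClosed_le (by fun_prop) continuous_const

lemma convex_part (e : EE d) (s : ℝ) (b : Bool) : Convex ℝ (part e s b) := by
  have hlin : IsLinearMap ℝ (fun x : EE d => ⟪x, e⟫) :=
    ⟨fun u v => inner_add_left _ _ _, fun r u => by simp [inner_smul_left]⟩
  cases b
  · exact convex_halfSpace_ge hlin s
  · exact convex_halfSpace_le hlin s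

lemma Sep.mono {A A' B B' C C' D D' : Set (EE d)} (h : Sep A A' B B')
    (hA : C ⊆ A) (hA' : C' ⊆ A') (hB : D ⊆ B) (hB' : D' ⊆ B') : Sep C C' D D' := by
  obtain ⟨n, hn, s, s', h1, h2, h3, h4⟩ := h
  exact ⟨n, hn, s, s', fun x hx => h1 x (hA hx), fun x hx => h2 x (hA' hx),
    fun x hx => h3 x (hB hx), fun x hx => h4 x (hB' hx)⟩

section measure

variable {μ : Measure (EE d)}

lemma null_hyperplane (hμ : μ ≪ volume) {e : EE d} (he : e ≠ 0) (s : ℝ) :
    μ {x : EE d | ⟪x, e⟫ = s} = 0 := hμ (volume_hyperplane he s)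

lemma union_parts (A : Set (EE d)) (e : EE d) (s : ℝ) :
    (A ∩ part e s true) ∪ (A ∩ part e s false) = A := by
  ext x
  simp only [part, mem_union, mem_inter_iff, mem_setOf_eq]
  constructor
  · rintro (h | h) <;> exact h.1
  · intro hx
    rcases le_total ⟪x, e⟫ s with h | h
    · exact Or.inl ⟨hx, h⟩
    · exact Or.inr ⟨hx, h⟩

lemma aedisjoint_parts (hμ : μ ≪ volume) {e : EE d} (he : e ≠ 0) (A : Set (EE d)) (s : ℝ) :
    AEDisjoint μ (A ∩ part e s true) (A ∩ part e s false) := by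
  refine measure_mono_null ?_ (null_hyperplane hμ he s)
  rintro x ⟨⟨-, h1⟩, ⟨-, h2⟩⟩
  exact le_antisymm h1 h2

lemma measure_parts (hμ : μ ≪ volume) {e : EE d} (he : e ≠ 0) {A : Set (EE d)}
    (hA : IsCompact A) (s : ℝ) :
    μ (A ∩ part e s true) + μ (A ∩ part e s false) = μ A := by
  have hm : MeasurableSet (A ∩ part e s false) :=
    (hA.isClosed.inter (isClosed_part e s false)).measurableSet
  conv_rhs => rw [← union_parts A e s]
  exact (measure_union₀ hm.nullMeasurableSet (aedisjoint_parts hμ he A s)).symm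

lemma integrableOn_id_of_compact [IsFiniteMeasure μ] {A : Set (EE d)} (hA : IsCompact A) :
    IntegrableOn (fun x : EE d => x) A μ :=
  continuous_id.continuousOn.integrableOn_compact hA

lemma integral_parts [IsFiniteMeasure μ] (hμ : μ ≪ volume) {e : EE d} (he : e ≠ 0)
    {A : Set (EE d)} (hA : IsCompact A) (s : ℝ) :
    (∫ x in A ∩ part e s true, x ∂μ) + (∫ x in A ∩ part e s false, x ∂μ) = ∫ x in A, x ∂μ := by
  have hm : MeasurableSet (A ∩ part e s false) :=
    (hA.isClosed.inter (isClosed_part e s false)).measurableSet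
  conv_rhs => rw [← union_parts A e s]
  refine (setIntegral_union₀ (aedisjoint_parts hμ he A s) hm.nullMeasurableSet ?_ ?_).symm
  · exact integrableOn_id_of_compact (hA.inter_right (isClosed_part e s true))
  · exact integrableOn_id_of_compact (hA.inter_right (isClosed_part e s false))

/-- Intermediate value theorem for the mass of a sublevel set. -/
lemma exists_level [IsFiniteMeasure μ] (hμ : μ ≪ volume) {e : EE d} (he : e ≠ 0)
    {B : Set (EE d)} (hB : IsCompact B) {v : ℝ≥0∞} (hv : v ≤ μ B) :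
    ∃ t : ℝ, μ (B ∩ part e t true) = v := by
  classical
  have hBm : MeasurableSet B := hB.isClosed.measurableSet
  -- the real-valued mass function
  let g : ℝ → ℝ := fun t => (μ (B ∩ part e t true)).toReal
  have hmeas : ∀ t, MeasurableSet (B ∩ part e t true) := fun t =>
    (hB.isClosed.inter (isClosed_part e t true)).measurableSet
  have hg : ∀ t, g t = ∫ x, (B ∩ part e t true).indicator (fun _ => (1 : ℝ)) x ∂μ := by
    intro t
    rw [integral_indicator (hmeas t)]
    simp [g, Measure.real]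
  have hcont : Continuous g := by
    rw [continuous_iff_continuousAt]
    intro t₀
    have : g = fun t => ∫ x, (B ∩ part e t true).indicator (fun _ => (1 : ℝ)) x ∂μ := funext hg
    rw [this]
    refine continuousAt_of_dominated (bound := fun _ => (1 : ℝ)) ?_ ?_ (integrable_const _) ?_
    · exact Filter.Eventually.of_forall fun t =>
        (measurable_const.indicator (hmeas t)).aestronglyMeasurable
    · refine Filter.Eventually.of_forall fun t => Filter.Eventually.of_forall fun x => ?_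
      by_cases hx : x ∈ B ∩ part e t true <;> simp [hx]
    · have hnull := null_hyperplane hμ he t₀
      have hae : ∀ᵐ x ∂μ, ⟪x, e⟫ ≠ t₀ := by
        rw [ae_iff]
        simpa using hnull
      filter_upwards [hae] with x hx
      by_cases hxB : x ∈ B
      · rcases lt_or_gt_of_ne hx with hlt | hgt
        · -- locally equal to 1
          have hev : ∀ᶠ t in nhds t₀, ⟪x, e⟫ < t := lt_mem_nhds hlt
          refine (continuousAt_const (y := (1 : ℝ))).congr ?_
          filter_upwards [hev] with t ht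
          have : x ∈ B ∩ part e t true := ⟨hxB, le_of_lt ht⟩
          simp [this]
        · have hev : ∀ᶠ t in nhds t₀, t < ⟪x, e⟫ := gt_mem_nhds hgt
          refine (continuousAt_const (y := (0 : ℝ))).congr ?_
          filter_upwards [hev] with t ht
          have : x ∉ B ∩ part e t true := fun h => absurd h.2 (not_le_of_gt ht)
          simp [this]
      · refine (continuousAt_const (y := (0 : ℝ))).congr ?_
        refine Filter.Eventually.of_forall fun t => ?_
        have : x ∉ B ∩ part e t true := fun h => hxB h.1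
        simp [this]
  -- bounds
  obtain ⟨M, hM⟩ : ∃ M : ℝ, ∀ x ∈ B, ‖⟪x, e⟫‖ ≤ M :=
    hB.exists_bound_of_continuousOn (f := fun x => ⟪x, e⟫) (by fun_prop)
  have hlo : g (-(|M| + 1)) = 0 := by
    have : B ∩ part e (-(|M| + 1)) true = ∅ := by
      ext x
      simp only [mem_inter_iff, part, mem_setOf_eq, mem_empty_iff_false, iff_false, not_and,
        not_le]
      intro hx
      have h1 := hM x hx
      have h2 := abs_le.1 (le_trans h1 (le_abs_self M))
      rw [Real.norm_eq_abs] at h1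
      have h3 := (abs_le.1 (h1.trans (le_abs_self M))).1
      linarith
    show (μ (B ∩ part e (-(|M| + 1)) true)).toReal = 0
    rw [this]; simp
  have hhi : g (|M| + 1) = (μ B).toReal := by
    have : B ∩ part e (|M| + 1) true = B := by
      apply inter_eq_left.2
      intro x hx
      have h1 := hM x hx
      rw [Real.norm_eq_abs] at h1
      have h3 := (abs_le.1 (h1.trans (le_abs_self M))).2
      simp only [part, mem_setOf_eq]
      linarith
    show (μ (B ∩ part e (|M| + 1) true)).toReal = (μ B).toReal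
    rw [this]
  have hv_top : v ≠ ⊤ := ne_top_of_le_ne_top (measure_ne_top μ B) hv
  have hvr : v.toReal ≤ (μ B).toReal := ENNReal.toReal_mono (measure_ne_top μ B) hv
  have hmemr : v.toReal ∈ range g := mem_range_of_exists_le_of_exists_ge hcont
    ⟨-(|M| + 1), by rw [hlo]; exact ENNReal.toReal_nonneg⟩ ⟨|M| + 1, by rw [hhi]; exact hvr⟩
  obtain ⟨t, ht⟩ := hmemr
  refine ⟨t, ?_⟩
  exact (ENNReal.toReal_eq_toReal_iff' (measure_ne_top μ _) hv_top).1 ht

end measure

/-- The Cauchy–Schwarz step behind the monotonicity of `Qval`. -/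
lemma qval_piece {m₁ m₂ : ℝ} (hm₁ : 0 ≤ m₁) (hm₂ : 0 ≤ m₂) (z₁ z₂ : EE d)
    (h1 : m₁ = 0 → z₁ = 0) (h2 : m₂ = 0 → z₂ = 0) :
    (m₁ + m₂)⁻¹ * ‖z₁ + z₂‖ ^ 2 ≤ m₁⁻¹ * ‖z₁‖ ^ 2 + m₂⁻¹ * ‖z₂‖ ^ 2 := by
  rcases hm₁.eq_or_lt with h | hp₁
  · have hz := h1 h.symm
    subst hz
    rw [← h]
    simp
  rcases hm₂.eq_or_lt with h | hp₂
  · have hz := h2 h.symm
    subst hz
    rw [← h]
    simp
  have hn : ‖z₁ + z₂‖ ≤ ‖z₁‖ + ‖z₂‖ := norm_add_le _ _
  set a := ‖z₁‖
  set b := ‖z₂‖
  have ha : 0 ≤ a := norm_nonneg _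
  have hb : 0 ≤ b := norm_nonneg _
  have hsq : ‖z₁ + z₂‖ ^ 2 ≤ (a + b) ^ 2 := pow_le_pow_left₀ (norm_nonneg _) hn 2
  have hs : 0 < m₁ + m₂ := add_pos hp₁ hp₂
  calc (m₁ + m₂)⁻¹ * ‖z₁ + z₂‖ ^ 2 ≤ (m₁ + m₂)⁻¹ * (a + b) ^ 2 :=
        mul_le_mul_of_nonneg_left hsq (inv_nonneg.2 hs.le)
    _ ≤ m₁⁻¹ * a ^ 2 + m₂⁻¹ * b ^ 2 := by
        have key : m₁⁻¹ * a ^ 2 + m₂⁻¹ * b ^ 2 - (m₁ + m₂)⁻¹ * (a + b) ^ 2 =
            (a * m₂ - b * m₁) ^ 2 * (m₁⁻¹ * m₂⁻¹ * (m₁ + m₂)⁻¹) := by
          field_simp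
          ring
        have : 0 ≤ (a * m₂ - b * m₁) ^ 2 * (m₁⁻¹ * m₂⁻¹ * (m₁ + m₂)⁻¹) := by positivity
        linarith

variable {ρ σ : Measure (EE d)} {ι : Type}

/-- Cut every pair of a family with prescribed levels. -/
noncomputable def cut [IsFiniteMeasure ρ] [IsFiniteMeasure σ] (hρ : ρ ≪ volume) (hσ : σ ≪ volume)
    (F : MFam ρ σ ι) {e : EE d} (he : e ≠ 0) (a b : ι → ℝ)
    (hab : ∀ j, ρ (F.A j ∩ part e (a j) true) = σ (F.B j ∩ part e (b j) true)) :
    MFam ρ σ (ι × Bool) where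
  A := fun p => F.A p.1 ∩ part e (a p.1) p.2
  B := fun p => F.B p.1 ∩ part e (b p.1) p.2
  hA := fun p => ⟨(F.hA p.1).1.inter_right (isClosed_part _ _ _),
    (F.hA p.1).2.inter (convex_part _ _ _)⟩
  hB := fun p => ⟨(F.hB p.1).1.inter_right (isClosed_part _ _ _),
    (F.hB p.1).2.inter (convex_part _ _ _)⟩
  mass := by
    rintro ⟨j, bb⟩
    cases bb
    · have h1 := measure_parts hρ he (F.hA j).1 (a j)
      have h2 := measure_parts hσ he (F.hB j).1 (b j)
      rw [F.mass j, ← h2, hab j] at h1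
      exact (ENNReal.add_right_inj (measure_ne_top σ _)).1 h1
    · exact hab j
  sep := by
    rintro ⟨j, bb⟩ ⟨j', bb'⟩ hne
    by_cases hjj : j = j'
    · subst hjj
      have hbb : bb ≠ bb' := fun h => hne (by rw [h])
      cases bb <;> cases bb'
      · exact absurd rfl hbb
      · refine ⟨-e, neg_ne_zero.2 he, -a j, -b j, ?_, ?_, ?_, ?_⟩
        · rintro x ⟨-, hx⟩
          simp only [part, mem_setOf_eq] at hx
          simpa [inner_neg_right] using hx
        · rintro x ⟨-, hx⟩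
          simp only [part, mem_setOf_eq] at hx
          simpa [inner_neg_right] using hx
        · rintro x ⟨-, hx⟩
          simp only [part, mem_setOf_eq] at hx
          simpa [inner_neg_right] using hx
        · rintro x ⟨-, hx⟩
          simp only [part, mem_setOf_eq] at hx
          simpa [inner_neg_right] using hx
      · refine ⟨e, he, a j, b j, ?_, ?_, ?_, ?_⟩
        · rintro x ⟨-, hx⟩; exact hx
        · rintro x ⟨-, hx⟩; exact hx
        · rintro x ⟨-, hx⟩; exact hx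
        · rintro x ⟨-, hx⟩; exact hx
      · exact absurd rfl hbb
    · exact Sep.mono (F.sep j j' hjj) inter_subset_left inter_subset_left inter_subset_left
        inter_subset_left

/-- One family refines another. -/
def Refines {ι' : Type} [Fintype ι] [Fintype ι'] (F : MFam ρ σ ι) (F' : MFam ρ σ ι') : Prop :=
  Qval F ≤ Qval F' ∧
    (∀ j', ∃ j, F'.A j' ⊆ F.A j ∧ F'.B j' ⊆ F.B j) ∧
    (∑ j', ρ (F'.A j')) = ∑ j, ρ (F.A j)

lemma Refines.trans {ι' ι'' : Type} [Fintype ι] [Fintype ι'] [Fintype ι'']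
    {F : MFam ρ σ ι} {F' : MFam ρ σ ι'} {F'' : MFam ρ σ ι''}
    (h : Refines F F') (h' : Refines F' F'') : Refines F F'' := by
  refine ⟨h.1.trans h'.1, fun j'' => ?_, h'.2.2.trans h.2.2⟩
  obtain ⟨j', h1, h2⟩ := h'.2.1 j''
  obtain ⟨j, h3, h4⟩ := h.2.1 j'
  exact ⟨j, h1.trans h3, h2.trans h4⟩

lemma Refines.refl [Fintype ι] (F : MFam ρ σ ι) : Refines F F :=
  ⟨le_rfl, fun j => ⟨j, Subset.rfl, Subset.rfl⟩, rfl⟩

lemma cut_refines [IsFiniteMeasure ρ] [IsFiniteMeasure σ] [Fintype ι]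
    (hρ : ρ ≪ volume) (hσ : σ ≪ volume)
    (F : MFam ρ σ ι) {e : EE d} (he : e ≠ 0) (a b : ι → ℝ)
    (hab : ∀ j, ρ (F.A j ∩ part e (a j) true) = σ (F.B j ∩ part e (b j) true)) :
    Refines F (cut hρ hσ F he a b hab) := by
  refine ⟨?_, ?_, ?_⟩
  · unfold Qval
    rw [Fintype.sum_prod_type]
    refine Finset.sum_le_sum fun j _ => ?_
    rw [Fintype.sum_bool]
    have hAj := (F.hA j).1
    have hBj := (F.hB j).1
    have hm := measure_parts hρ he hAj (a j)
    have hi := integral_parts hρ he hAj (a j)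
    have hi' := integral_parts hσ he hBj (b j)
    set A₁ := F.A j ∩ part e (a j) true with hA₁
    set A₂ := F.A j ∩ part e (a j) false with hA₂
    set B₁ := F.B j ∩ part e (b j) true with hB₁
    set B₂ := F.B j ∩ part e (b j) false with hB₂
    have hmass₂ : ρ A₂ = σ B₂ := (cut hρ hσ F he a b hab).mass (j, false)
    have hmass₁ : ρ A₁ = σ B₁ := hab j
    have hz : (∫ x in F.A j, x ∂ρ) - ∫ x in F.B j, x ∂σ =
        ((∫ x in A₁, x ∂ρ) - ∫ x in B₁, x ∂σ) + ((∫ x in A₂, x ∂ρ) - ∫ x in B₂, x ∂σ) := by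
      rw [← hi, ← hi']; abel
    have hmr : (ρ (F.A j)).toReal = (ρ A₁).toReal + (ρ A₂).toReal := by
      rw [← hm, ENNReal.toReal_add (measure_ne_top ρ _) (measure_ne_top ρ _)]
    have hzero : ∀ {A' B' : Set (EE d)}, ρ A' = σ B' → (ρ A').toReal = 0 →
        (∫ x in A', x ∂ρ) - (∫ x in B', x ∂σ) = 0 := by
      intro A' B' hAB h0
      have h1 : ρ A' = 0 := by
        rcases (ENNReal.toReal_eq_zero_iff _).1 h0 with h | h
        · exact h
        · exact absurd h (measure_ne_top ρ _)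
      have h2 : σ B' = 0 := by rw [← hAB]; exact h1
      rw [Measure.restrict_eq_zero.2 h1, Measure.restrict_eq_zero.2 h2]
      simp
    rw [hmr, hz]
    exact qval_piece ENNReal.toReal_nonneg ENNReal.toReal_nonneg _ _
      (hzero hmass₁) (hzero hmass₂)
  · rintro ⟨j, bb⟩
    exact ⟨j, inter_subset_left, inter_subset_left⟩
  · show (∑ p : ι × Bool, ρ (F.A p.1 ∩ part e (a p.1) p.2)) = _
    rw [Fintype.sum_prod_type]
    refine Finset.sum_congr rfl fun j _ => ?_
    rw [Fintype.sum_bool]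
    exact measure_parts hρ he (F.hA j).1 (a j)

/-- A set lies on one side of a level. -/
def OneSide (e : EE d) (s : ℝ) (S : Set (EE d)) : Prop :=
  (∀ x ∈ S, ⟪x, e⟫ ≤ s) ∨ (∀ x ∈ S, s ≤ ⟪x, e⟫)

lemma OneSide.mono {e : EE d} {s : ℝ} {S T : Set (EE d)} (h : OneSide e s S) (hT : T ⊆ S) :
    OneSide e s T := by
  rcases h with h | h
  · exact Or.inl fun x hx => h x (hT hx)
  · exact Or.inr fun x hx => h x (hT hx)

lemma oneSide_inter_part (e : EE d) (s : ℝ) (S : Set (EE d)) (b : Bool) :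
    OneSide e s (S ∩ part e s b) := by
  cases b
  · exact Or.inr fun x hx => hx.2
  · exact Or.inl fun x hx => hx.2

/-- Cut at level `s` on both sides. -/
lemma step [IsFiniteMeasure ρ] [IsFiniteMeasure σ] [Fintype ι]
    (hρ : ρ ≪ volume) (hσ : σ ≪ volume)
    (F : MFam ρ σ ι) {e : EE d} (he : e ≠ 0) (s : ℝ) :
    ∃ F' : MFam ρ σ ((ι × Bool) × Bool), Refines F F' ∧
      ∀ j', OneSide e s (F'.A j') ∧ OneSide e s (F'.B j') := by
  classical
  -- cut on the `A` side at level `s`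
  have hb : ∀ j, ∃ t : ℝ, σ (F.B j ∩ part e t true) = ρ (F.A j ∩ part e s true) := fun j =>
    exists_level hσ he (F.hB j).1
      ((measure_mono inter_subset_left).trans_eq (F.mass j))
  choose b hb using hb
  let F₁ := cut hρ hσ F he (fun _ => s) b (fun j => (hb j).symm)
  have hF₁ : Refines F F₁ := cut_refines hρ hσ F he _ _ _
  -- cut on the `B` side at level `s`
  have ha : ∀ j, ∃ t : ℝ, ρ (F₁.A j ∩ part e t true) = σ (F₁.B j ∩ part e s true) := fun j =>
    exists_level hρ he (F₁.hA j).1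
      ((measure_mono inter_subset_left).trans_eq (F₁.mass j).symm)
  choose a ha using ha
  let F₂ := cut hρ hσ F₁ he a (fun _ => s) ha
  have hF₂ : Refines F₁ F₂ := cut_refines hρ hσ F₁ he _ _ _
  refine ⟨F₂, hF₁.trans hF₂, ?_⟩
  rintro ⟨⟨j, b₁⟩, b₂⟩
  constructor
  · have : OneSide e s (F₁.A (j, b₁)) := oneSide_inter_part e s _ _
    exact this.mono inter_subset_left
  · exact oneSide_inter_part e s _ _

/-- Cut along a list of levels. -/
lemma exists_list [IsFiniteMeasure ρ] [IsFiniteMeasure σ] [Fintype ι]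
    (hρ : ρ ≪ volume) (hσ : σ ≪ volume) (F : MFam ρ σ ι) (L : List (EE d × ℝ))
    (hL : ∀ c ∈ L, c.1 ≠ 0) :
    ∃ (ι' : Type) (_ : Fintype ι') (F' : MFam ρ σ ι'), Refines F F' ∧
      ∀ j', ∀ c ∈ L, OneSide c.1 c.2 (F'.A j') ∧ OneSide c.1 c.2 (F'.B j') := by
  induction L with
  | nil => exact ⟨ι, inferInstance, F, Refines.refl F, fun _ c hc => absurd hc (by simp)⟩
  | cons c L ih =>
    obtain ⟨ι', hι', F', hF', hF'L⟩ := ih (fun c' hc' => hL c' (List.mem_cons_of_mem _ hc'))
    obtain ⟨F'', hF'', hF''c⟩ := step hρ hσ F' (hL c (List.mem_cons_self)) c.2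
    refine ⟨(ι' × Bool) × Bool, inferInstance, F'', hF'.trans hF'', ?_⟩
    intro j'' c' hc'
    rcases List.mem_cons.1 hc' with rfl | hc'
    · exact hF''c j''
    · obtain ⟨j', h1, h2⟩ := hF''.2.1 j''
      exact ⟨(hF'L j' c' hc').1.mono h1, (hF'L j' c' hc').2.mono h2⟩

/-- The coordinate vectors. -/
noncomputable def bv (i : Fin d) : EE d := EuclideanSpace.single i (1 : ℝ)

lemma bv_ne (i : Fin d) : bv i ≠ 0 := by
  intro h
  have := congrArg (fun v : EE d => v i) h
  simp [bv] at this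

lemma inner_bv (x : EE d) (i : Fin d) : ⟪x, bv i⟫ = x i := by
  simp [bv, EuclideanSpace.inner_single_right]

lemma abs_coord_le (x : EE d) (i : Fin d) : |x i| ≤ ‖x‖ := by
  have := EuclideanSpace.norm_sq_eq x
  have h : ‖x i‖ ^ 2 ≤ ‖x‖ ^ 2 := by
    rw [this]
    exact Finset.single_le_sum (f := fun j => ‖x j‖ ^ 2) (fun _ _ => by positivity)
      (Finset.mem_univ i)
  have h2 : ‖x i‖ ≤ ‖x‖ := (pow_le_pow_iff_left₀ (norm_nonneg _) (norm_nonneg _) two_ne_zero).1 h
  rwa [Real.norm_eq_abs] at h2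

end CutAux

open CutAux in
/-- Refinement to small mesh. -/
theorem exists_refinement {ρ σ : Measure (EE d)} [IsFiniteMeasure ρ] [IsFiniteMeasure σ]
    (hρ : ρ ≪ volume) (hσ : σ ≪ volume) {ι : Type} [Fintype ι] (F : MFam ρ σ ι)
    {δ : ℝ} (hδ : 0 < δ) :
    ∃ (ι' : Type) (_ : Fintype ι') (F' : MFam ρ σ ι'),
      Qval F ≤ Qval F' ∧
      (∀ j', ∃ j, F'.A j' ⊆ F.A j ∧ F'.B j' ⊆ F.B j) ∧
      (∑ j', ρ (F'.A j')) = ∑ j, ρ (F.A j) ∧
      (∀ j', ∀ x ∈ F'.A j', ∀ x' ∈ F'.A j', ‖x - x'‖ ≤ δ) ∧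
      (∀ j', ∀ x ∈ F'.B j', ∀ x' ∈ F'.B j', ‖x - x'‖ ≤ δ) := by
  classical
  -- a bound `R` for all cells
  obtain ⟨R, hR⟩ : ∃ R : ℝ, ∀ j, (∀ x ∈ F.A j, ‖x‖ ≤ R) ∧ (∀ x ∈ F.B j, ‖x‖ ≤ R) := by
    have h : ∀ j, ∃ r : ℝ, (∀ x ∈ F.A j, ‖x‖ ≤ r) ∧ (∀ x ∈ F.B j, ‖x‖ ≤ r) := by
      intro j
      obtain ⟨r₁, h₁⟩ := (F.hA j).1.isBounded.exists_norm_le
      obtain ⟨r₂, h₂⟩ := (F.hB j).1.isBounded.exists_norm_le
      exact ⟨max r₁ r₂, fun x hx => (h₁ x hx).trans (le_max_left _ _),
        fun x hx => (h₂ x hx).trans (le_max_right _ _)⟩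
    choose r hr using h
    refine ⟨∑ j, |r j|, fun j => ⟨fun x hx => ?_, fun x hx => ?_⟩⟩
    · exact ((hr j).1 x hx).trans ((le_abs_self _).trans
        (Finset.single_le_sum (f := fun j => |r j|) (fun _ _ => abs_nonneg _) (Finset.mem_univ j)))
    · exact ((hr j).2 x hx).trans ((le_abs_self _).trans
        (Finset.single_le_sum (f := fun j => |r j|) (fun _ _ => abs_nonneg _) (Finset.mem_univ j)))
  -- the grid step
  set h : ℝ := δ / ((d : ℝ) + 1) with hh
  have hdpos : (0 : ℝ) < (d : ℝ) + 1 := by positivity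
  have hhpos : 0 < h := div_pos hδ hdpos
  -- the number of levels
  obtain ⟨N, hN⟩ : ∃ N : ℕ, (|R| + h) / h + 1 ≤ N := exists_nat_ge _
  -- the list of cuts
  let L : List (EE d × ℝ) :=
    (List.finRange d).flatMap fun i =>
      (List.range (2 * N + 1)).map fun k : ℕ => (bv i, (((k : ℤ) - (N : ℤ) : ℤ) : ℝ) * h)
  have hL : ∀ c ∈ L, c.1 ≠ 0 := by
    intro c hc
    simp only [L, List.mem_flatMap, List.mem_map] at hc
    obtain ⟨i, -, k, -, rfl⟩ := hc
    exact bv_ne i
  obtain ⟨ι', hι', F', hF', hside⟩ := exists_list hρ hσ F L hL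
  -- the mesh from the one-side property
  have hmesh : ∀ S : Set (EE d), (∀ x ∈ S, ‖x‖ ≤ R) →
      (∀ c ∈ L, OneSide c.1 c.2 S) → ∀ x ∈ S, ∀ x' ∈ S, ‖x - x'‖ ≤ δ := by
    intro S hSR hS x hx x' hx'
    have hcoord : ∀ (i : Fin d) (y y' : EE d), y ∈ S → y' ∈ S → y i - y' i ≤ h := by
      intro i y y' hy hy'
      by_contra hcon
      push_neg at hcon
      -- a level between `y' i` and `y i`
      set k : ℤ := ⌊y' i / h⌋ + 1 with hk
      have hk1 : y' i < k * h := by
        have := Int.lt_floor_add_one (y' i / h)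
        rw [hk]
        push_cast
        rwa [div_lt_iff₀ hhpos] at this
      have hk2 : (k : ℝ) * h ≤ y' i + h := by
        have := Int.floor_le (y' i / h)
        rw [hk]
        push_cast
        rw [add_mul, one_mul]
        have h3 : (⌊y' i / h⌋ : ℝ) * h ≤ y' i := by
          rwa [le_div_iff₀ hhpos] at this
        linarith
      have hk3 : (k : ℝ) * h < y i := by linarith
      have hyR : |y i| ≤ R := (abs_coord_le y i).trans (hSR y hy)
      have hyR' : |y' i| ≤ R := (abs_coord_le y' i).trans (hSR y' hy')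
      -- `k` lies in the range of the grid
      have hNR : |R| + h ≤ (N - 1) * h := by
        have : (|R| + h) / h ≤ (N : ℝ) - 1 := by linarith
        rwa [div_le_iff₀ hhpos] at this
      have hRle : R ≤ |R| := le_abs_self R
      have hkN1 : (k : ℝ) ≤ N := by
        have : (k : ℝ) * h ≤ (N : ℝ) * h := by
          have h1 := (abs_le.1 hyR).2
          nlinarith
        exact le_of_mul_le_mul_right this hhpos
      have hkN2 : -(N : ℝ) ≤ k := by
        have : -(N : ℝ) * h ≤ (k : ℝ) * h := by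
          have h1 := (abs_le.1 hyR').1
          nlinarith
        exact le_of_mul_le_mul_right this hhpos
      have hkN1' : k ≤ N := by exact_mod_cast hkN1
      have hkN2' : -(N : ℤ) ≤ k := by exact_mod_cast hkN2
      have hmem : ((bv i, (k : ℝ) * h) : EE d × ℝ) ∈ L := by
        simp only [L, List.mem_flatMap, List.mem_map, List.mem_range, List.mem_finRange, true_and]
        refine ⟨i, (k + N).toNat, ?_, ?_⟩
        · have : (0 : ℤ) ≤ k + N := by omega
          omega
        · have : (0 : ℤ) ≤ k + N := by omega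
          have h5 : (((k + N).toNat : ℤ) - (N : ℤ)) = k := by
            rw [Int.toNat_of_nonneg this]; ring
          rw [h5]
      rcases hS _ hmem with h1 | h1
      · have := h1 y hy
        rw [inner_bv] at this
        simp only at this
        linarith
      · have := h1 y' hy'
        rw [inner_bv] at this
        simp only at this
        linarith
    have hsq : ‖x - x'‖ ^ 2 ≤ δ ^ 2 := by
      rw [EuclideanSpace.norm_sq_eq]
      have hterm : ∀ i, ‖(x - x') i‖ ^ 2 ≤ h ^ 2 := by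
        intro i
        have h1 := hcoord i x x' hx hx'
        have h2 := hcoord i x' x hx' hx
        have h3 : (x - x') i = x i - x' i := by simp
        rw [h3, Real.norm_eq_abs, sq_abs]
        have : |x i - x' i| ≤ h := abs_le.2 ⟨by linarith, h1⟩
        calc (x i - x' i) ^ 2 = |x i - x' i| ^ 2 := (sq_abs _).symm
          _ ≤ h ^ 2 := pow_le_pow_left₀ (abs_nonneg _) this 2
      calc ∑ i, ‖(x - x') i‖ ^ 2 ≤ ∑ _i : Fin d, h ^ 2 := Finset.sum_le_sum fun i _ => hterm i
        _ = (d : ℝ) * h ^ 2 := by simp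
        _ ≤ ((d : ℝ) + 1) ^ 2 * h ^ 2 := by
            apply mul_le_mul_of_nonneg_right _ (sq_nonneg h)
            have : (0 : ℝ) ≤ d := Nat.cast_nonneg d
            nlinarith
        _ = δ ^ 2 := by
            rw [hh]
            field_simp
    exact abs_le_of_sq_le_sq' hsq hδ.le |>.2
  refine ⟨ι', hι', F', hF'.1, hF'.2.1, hF'.2.2, ?_, ?_⟩
  · intro j'
    obtain ⟨j, hsub, -⟩ := hF'.2.1 j'
    exact hmesh _ (fun x hx => (hR j).1 x (hsub hx)) fun c hc => (hside j' c hc).1
  · intro j'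
    obtain ⟨j, -, hsub⟩ := hF'.2.1 j'
    exact hmesh _ (fun x hx => (hR j).2 x (hsub hx)) fun c hc => (hside j' c hc).2

end Crest.Agent.OTS
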