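import Mathlib
import Crest.Prelude.Def_QuadraticTransport

/-!
# Row 82 (S0109): core definitions (helper10)

Laguerre potentials/cells for finitely many atoms, the uniform probability on a compact convex body,
tilted measures.  See findings of row 82 for the full mathematical blueprint.
-/

set_option autoImplicit false

open MeasureTheory Set
open scoped ENNReal NNReal InnerProductSpace RealInnerProductSpace

namespace Crest.Agent.OTS

open Crest.AnalysisR.OT

/-- Ambient space. -/
abbrev EE (d : ℕ) := EuclideanSpace ℝ (Fin d)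

variable {d : ℕ} {I : Type} [Fintype I]

/-- Laguerre potential `max_a (⟪x, y a⟫ - c a)`. -/
noncomputable def lagPot [Nonempty I] (y : I → EE d) (c : I → ℝ) (x : EE d) : ℝ :=
  Finset.univ.sup' Finset.univ_nonempty fun a => ⟪x, y a⟫ - c a

/-- Laguerre cell of the index `a` (closed). -/
def lagCell (y : I → EE d) (c : I → ℝ) (a : I) : Set (EE d) :=
  {x | ∀ b, ⟪x, y b⟫ - c b ≤ ⟪x, y a⟫ - c a}

lemma isClosed_lagCell (y : I → EE d) (c : I → ℝ) (a : I) : IsClosed (lagCell y c a) := by
  have : lagCell y c a = ⋂ b, {x : EE d | ⟪x, y b⟫ - c b ≤ ⟪x, y a⟫ - c a} := by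
    ext x; simp [lagCell]
  rw [this]
  refine isClosed_iInter fun b => isClosed_le ?_ ?_ <;> fun_prop

lemma measurableSet_lagCell (y : I → EE d) (c : I → ℝ) (a : I) : MeasurableSet (lagCell y c a) :=
  (isClosed_lagCell y c a).measurableSet

lemma convex_lagCell (y : I → EE d) (c : I → ℝ) (a : I) : Convex ℝ (lagCell y c a) := by
  have : lagCell y c a = ⋂ b, {x : EE d | ⟪x, y b - y a⟫ ≤ c b - c a} := by
    ext x
    simp only [lagCell, mem_setOf_eq, mem_iInter, inner_sub_right]
    constructor
    · intro h b; have := h b; linarith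
    · intro h b; have := h b; linarith
  rw [this]
  refine convex_iInter fun b => ?_
  exact convex_halfSpace_le (f := fun x : EE d => ⟪x, y b - y a⟫) ⟨fun u v => inner_add_left _ _ _,
    fun r u => by simp [inner_smul_left]⟩ _

section pot
variable [Nonempty I] (y : I → EE d) (c : I → ℝ)

lemma le_lagPot (a : I) (x : EE d) : ⟪x, y a⟫ - c a ≤ lagPot y c x :=
  Finset.le_sup' (fun a => ⟪x, y a⟫ - c a) (Finset.mem_univ a)

lemma exists_lagPot_eq (x : EE d) : ∃ a, lagPot y c x = ⟪x, y a⟫ - c a := by
  obtain ⟨a, -, h⟩ := Finset.exists_mem_eq_sup' Finset.univ_nonempty (fun a => ⟪x, y a⟫ - c a)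
  exact ⟨a, h⟩

lemma mem_lagCell_iff {x : EE d} {a : I} : x ∈ lagCell y c a ↔ lagPot y c x = ⟪x, y a⟫ - c a := by
  constructor
  · intro h
    apply le_antisymm
    · apply Finset.sup'_le; intro b _; exact h b
    · exact le_lagPot y c a x
  · intro h b; rw [← h]; exact le_lagPot y c b x

lemma exists_mem_lagCell (x : EE d) : ∃ a, x ∈ lagCell y c a := by
  obtain ⟨a, h⟩ := exists_lagPot_eq y c x
  exact ⟨a, (mem_lagCell_iff y c).2 h⟩

lemma continuous_lagPot : Continuous (lagPot y c) := by
  unfold lagPot
  refine Continuous.finset_sup'_apply Finset.univ_nonempty ?_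
  intro a _; fun_prop

lemma measurable_lagPot : Measurable (lagPot y c) := (continuous_lagPot y c).measurable

/-- Subgradient inequality on a cell. -/
lemma lagPot_subgrad {x : EE d} {a : I} (hx : x ∈ lagCell y c a) (x' : EE d) :
    lagPot y c x + ⟪y a, x' - x⟫ ≤ lagPot y c x' := by
  have h1 := (mem_lagCell_iff y c).1 hx
  have h2 := le_lagPot y c a x'
  rw [h1, inner_sub_right, real_inner_comm x' (y a), real_inner_comm x (y a)]
  linarith

/-- A measurable selection of cells: a measurable map with `T x = y a` for some `a` with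
`x ∈ lagCell y c a`. -/
lemma exists_lagMap : ∃ T : EE d → EE d, Measurable T ∧
    ∀ x, ∃ a, T x = y a ∧ x ∈ lagCell y c a := by
  classical
  -- enumerate the indices
  obtain ⟨n, ⟨e⟩⟩ := Finite.exists_equiv_fin I
  -- the first index of a cell containing `x`
  have hex : ∀ x : EE d, ∃ k : Fin n, x ∈ lagCell y c (e.symm k) := fun x => by
    obtain ⟨a, ha⟩ := exists_mem_lagCell y c x
    exact ⟨e a, by simpa using ha⟩
  let P : EE d → ℕ → Prop := fun x k => ∃ h : k < n, x ∈ lagCell y c (e.symm ⟨k, h⟩)
  have hP : ∀ x, ∃ k, P x k := fun x => by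
    obtain ⟨k, hk⟩ := hex x
    exact ⟨k, k.2, hk⟩
  have hPm : ∀ k, MeasurableSet {x | P x k} := fun k => by
    by_cases h : k < n
    · have : {x | P x k} = lagCell y c (e.symm ⟨k, h⟩) := by
        ext x; simp [P, h]
      rw [this]; exact measurableSet_lagCell _ _ _
    · have : {x | P x k} = ∅ := by
        ext x; simp [P, h]
      rw [this]; exact MeasurableSet.empty
  have hfm : Measurable (fun x => Nat.find (hP x)) := measurable_find hP hPm
  have hn : 0 < n := by
    obtain ⟨a⟩ := (inferInstance : Nonempty I)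
    exact lt_of_le_of_lt (Nat.zero_le _) (e a).2
  let pick : ℕ → EE d := fun k => if h : k < n then y (e.symm ⟨k, h⟩) else y (e.symm ⟨0, hn⟩)
  refine ⟨fun x => pick (Nat.find (hP x)), (measurable_from_nat (f := pick)).comp hfm, fun x => ?_⟩
  obtain ⟨h, hx⟩ := Nat.find_spec (hP x)
  refine ⟨e.symm ⟨_, h⟩, ?_, hx⟩
  simp [pick, h]

end pot

/-- Hyperplanes are Lebesgue-null. -/
lemma volume_hyperplane {n : EE d} (hn : n ≠ 0) (s : ℝ) :
    volume {x : EE d | ⟪x, n⟫ = s} = 0 := by
  classical
  let W : Submodule ℝ (EE d) := (ℝ ∙ n)ᗮ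
  have hW : W ≠ ⊤ := by
    intro h
    have hmem : n ∈ W := by rw [h]; trivial
    have : ⟪n, n⟫ = 0 := (Submodule.mem_orthogonal_singleton_iff_inner_left.1 hmem)
    exact hn (inner_self_eq_zero.1 this)
  have h0 := Measure.addHaar_submodule (volume : Measure (EE d)) W hW
  have hnn : ⟪n, n⟫ ≠ 0 := fun h => hn (inner_self_eq_zero.1 h)
  let x₁ : EE d := (s / ⟪n, n⟫) • n
  have hx₁ : ⟪x₁, n⟫ = s := by
    simp only [x₁, inner_smul_left]
    simp
    field_simp
  have hset : {x : EE d | ⟪x, n⟫ = s} = (fun u => u - x₁) ⁻¹' (W : Set (EE d)) := by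
    ext x
    simp only [mem_setOf_eq, mem_preimage, SetLike.mem_coe, W,
      Submodule.mem_orthogonal_singleton_iff_inner_left, inner_sub_left, hx₁]
    constructor
    · intro h; simp [h]
    · intro h; linarith
  rw [hset]
  have : (fun u : EE d => u - x₁) = fun u => u + (-x₁) := by
    ext u; simp [sub_eq_add_neg]
  rw [this, measure_preimage_add_right]
  exact h0

/-- Two distinct atoms have cells overlapping in a null set. -/
lemma volume_lagCell_inter (y : I → EE d) (c : I → ℝ) {a b : I} (hab : y a ≠ y b) :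
    volume (lagCell y c a ∩ lagCell y c b) = 0 := by
  have hsub : lagCell y c a ∩ lagCell y c b ⊆
      {x : EE d | ⟪x, y a - y b⟫ = c a - c b} := by
    rintro x ⟨h1, h2⟩
    have h3 := h1 b
    have h4 := h2 a
    simp only [mem_setOf_eq, inner_sub_right]
    linarith
  exact measure_mono_null hsub (volume_hyperplane (sub_ne_zero.2 hab) _)

section uniform

variable {K : Set (EE d)}

/-- Standing assumptions on the body. -/
structure Body (K : Set (EE d)) : Prop where
  compact : IsCompact K
  convex : Convex ℝ K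
  interior_nonempty : (interior K).Nonempty

lemma Body.measurableSet (hK : Body K) : MeasurableSet K := hK.compact.isClosed.measurableSet

lemma Body.volume_pos (hK : Body K) : 0 < volume K :=
  lt_of_lt_of_le (IsOpen.measure_pos volume isOpen_interior hK.interior_nonempty)
    (measure_mono interior_subset)

lemma Body.volume_ne_top (hK : Body K) : volume K ≠ ⊤ := hK.compact.measure_lt_top.ne

/-- The uniform probability measure on the body. -/
noncomputable abbrev rho (K : Set (EE d)) : Measure (EE d) := uniformProbOn K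

lemma Body.isProb (hK : Body K) : IsProbabilityMeasure (rho K) := by
  constructor
  simp only [rho, uniformProbOn, Measure.smul_apply, smul_eq_mul, Measure.restrict_apply_univ]
  exact ENNReal.inv_mul_cancel hK.volume_pos.ne' hK.volume_ne_top

lemma rho_apply (hK : Body K) (A : Set (EE d)) (hA : MeasurableSet A) :
    rho K A = (volume K)⁻¹ * volume (A ∩ K) := by
  simp [rho, uniformProbOn, hA]

lemma rho_absCont : rho K ≪ volume := by
  refine Measure.AbsolutelyContinuous.smul_left ?_ _
  exact Measure.restrict_le_self.absolutelyContinuous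

lemma Body.rho_compl (hK : Body K) : rho K Kᶜ = 0 := by
  rw [rho_apply hK _ hK.measurableSet.compl]
  simp

lemma Body.ae_mem (hK : Body K) : ∀ᵐ x ∂(rho K), x ∈ K := by
  have h := hK.rho_compl
  rw [ae_iff]
  exact h

end uniform

/-- The tilted measure `(1 + ε g) ρ`. -/
noncomputable def tilt (K : Set (EE d)) (ε : ℝ) (g : EE d → ℝ) : Measure (EE d) :=
  (rho K).withDensity fun x => ENNReal.ofReal (1 + ε * g x)

/-- Admissible perturbations. `g` is bounded on `K`, mean zero, `|ε g| ≤ 1/2` on `K`. -/
structure Admissible (K : Set (EE d)) (ε : ℝ) (g : EE d → ℝ) : Prop where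
  meas : Measurable g
  bdd : ∃ B, ∀ x ∈ K, |g x| ≤ B
  small : ∀ x ∈ K, |ε * g x| ≤ 1 / 2
  mean : ∫ x, g x ∂(rho K) = 0

/-- Legendre transform relative to the body `K`. -/
noncomputable def legK (K : Set (EE d)) (ψ : EE d → ℝ) (z : EE d) : ℝ :=
  ⨆ x : K, ⟪(x : EE d), z⟫ - ψ x

end Crest.Agent.OTS
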