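import Crest.Agent.Lib.OTS.Defs

/-!
# Auxiliary lemmas for `GN.lean` (helper3): layers of a convex body, translation of set integrals,
pointwise inequalities, one-variable optimisation.
-/

open MeasureTheory Set Metric
open scoped ENNReal RealInnerProductSpace

namespace Crest.Agent.OTS

namespace GNAux

variable {d : ℕ} {K : Set (EE d)}

/-- The inner layer. -/
def KR (K : Set (EE d)) (a : EE d) : Set (EE d) := {x | x ∈ K ∧ x + a ∈ K ∧ x - a ∈ K}

lemma KR_subset (a : EE d) : KR K a ⊆ K := fun _ h => h.1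

lemma isClosed_KR (hK : IsClosed K) (a : EE d) : IsClosed (KR K a) := by
  have : KR K a = K ∩ ((fun x => x + a) ⁻¹' K ∩ (fun x => x - a) ⁻¹' K) := rfl
  rw [this]
  exact hK.inter ((hK.preimage (by fun_prop)).inter (hK.preimage (by fun_prop)))

lemma measurableSet_KR (hK : IsClosed K) (a : EE d) : MeasurableSet (KR K a) :=
  (isClosed_KR hK a).measurableSet

lemma homothety_subset (hconv : Convex ℝ K) {x₀ : EE d} {τ : ℝ} (hτ : 0 < τ)
    (hball : closedBall x₀ τ ⊆ K) {a : EE d} (ha : 0 < ‖a‖) (haτ : ‖a‖ ≤ τ) :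
    AffineMap.homothety x₀ (1 - ‖a‖ / τ) '' K ⊆ KR K a := by
  rintro _ ⟨y, hy, rfl⟩
  set s := ‖a‖ / τ with hs
  have hs0 : 0 < s := div_pos ha hτ
  have hs1 : s ≤ 1 := (div_le_one hτ).2 haτ
  have hsa : s⁻¹ * ‖a‖ = τ := by
    rw [hs]; field_simp
  have hx₀ : x₀ ∈ K := hball (mem_closedBall_self hτ.le)
  have hplus : x₀ + s⁻¹ • a ∈ K := by
    apply hball
    rw [mem_closedBall, dist_eq_norm, add_sub_cancel_left, norm_smul, Real.norm_eq_abs,
      abs_of_pos (inv_pos.2 hs0), hsa]
  have hminus : x₀ - s⁻¹ • a ∈ K := by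
    apply hball
    rw [mem_closedBall, dist_eq_norm, sub_sub_cancel_left, norm_neg, norm_smul, Real.norm_eq_abs,
      abs_of_pos (inv_pos.2 hs0), hsa]
  have hform : AffineMap.homothety x₀ (1 - s) y = (1 - s) • y + s • x₀ := by
    simp only [AffineMap.homothety_apply, vsub_eq_sub, vadd_eq_add, smul_sub, sub_smul, one_smul]
    abel
  have h1s : 0 ≤ 1 - s := by linarith
  refine ⟨?_, ?_, ?_⟩
  · rw [hform]; exact hconv hy hx₀ h1s hs0.le (by ring)
  · have : (1 - s) • y + s • x₀ + a = (1 - s) • y + s • (x₀ + s⁻¹ • a) := by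
      rw [smul_add, smul_smul, mul_inv_cancel₀ hs0.ne', one_smul, add_assoc]
    rw [hform, this]; exact hconv hy hplus h1s hs0.le (by ring)
  · have : (1 - s) • y + s • x₀ - a = (1 - s) • y + s • (x₀ - s⁻¹ • a) := by
      rw [smul_sub, smul_smul, mul_inv_cancel₀ hs0.ne', one_smul, add_sub_assoc]
    rw [hform, this]; exact hconv hy hminus h1s hs0.le (by ring)

/-- The layer has small volume. -/
lemma vol_diff_KR_le (hK : Body K) {x₀ : EE d} {τ : ℝ} (hτ : 0 < τ)
    (hball : closedBall x₀ τ ⊆ K) {a : EE d} (ha : 0 < ‖a‖) (haτ : ‖a‖ ≤ τ) :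
    (volume : Measure (EE d)).real (K \ KR K a) ≤ d * (‖a‖ / τ) * (volume : Measure (EE d)).real K := by
  set s := ‖a‖ / τ with hs
  have hs0 : 0 < s := div_pos ha hτ
  have hs1 : s ≤ 1 := (div_le_one hτ).2 haτ
  have hfin : (volume : Measure (EE d)) K ≠ ⊤ := hK.volume_ne_top
  have hsub := homothety_subset hK.convex hτ hball ha haτ
  have hvol : (volume : Measure (EE d)) (AffineMap.homothety x₀ (1 - s) '' K)
      = ENNReal.ofReal |(1 - s) ^ d| * volume K := by
    have := Measure.addHaar_image_homothety (volume : Measure (EE d)) x₀ (1 - s) K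
    simpa using this
  have hreal : (1 - s) ^ d * (volume : Measure (EE d)).real K ≤ (volume : Measure (EE d)).real (KR K a) := by
    have hfinKR : (volume : Measure (EE d)) (KR K a) ≠ ⊤ :=
      ne_top_of_le_ne_top hfin (measure_mono (KR_subset a))
    have h1 : ENNReal.ofReal |(1 - s) ^ d| * volume K ≤ (volume : Measure (EE d)) (KR K a) := by
      rw [← hvol]; exact measure_mono hsub
    have h2 := ENNReal.toReal_mono hfinKR h1
    rw [ENNReal.toReal_mul, ENNReal.toReal_ofReal (abs_nonneg _),
      abs_of_nonneg (pow_nonneg (by linarith) d)] at h2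
    exact h2
  have hbern : 1 - d * s ≤ (1 - s) ^ d := by
    have := one_add_mul_le_pow (a := -s) (by linarith) d
    have h3 : (1 : ℝ) + (-s) = 1 - s := by ring
    rw [h3] at this
    linarith
  have hdiff : (volume : Measure (EE d)).real (K \ KR K a)
      = (volume : Measure (EE d)).real K - (volume : Measure (EE d)).real (KR K a) := by
    rw [measureReal_sdiff (KR_subset a) (measurableSet_KR hK.compact.isClosed a)]
  have hv : 0 ≤ (volume : Measure (EE d)).real K := measureReal_nonneg
  rw [hdiff]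
  nlinarith [mul_le_mul_of_nonneg_right hbern hv]

/-- Translation of set integrals. -/
lemma setIntegral_translate (A : Set (EE d)) (a : EE d) (h : EE d → ℝ) :
    ∫ x in A, h (x + a) = ∫ y in (fun y => y - a) ⁻¹' A, h y := by
  have hmp : MeasurePreserving (fun x : EE d => x + a) volume volume :=
    measurePreserving_add_right volume a
  have hemb : MeasurableEmbedding (fun x : EE d => x + a) := measurableEmbedding_addRight a
  have := hmp.setIntegral_preimage_emb hemb h ((fun y => y - a) ⁻¹' A)
  have hset : (fun x : EE d => x + a) ⁻¹' ((fun y => y - a) ⁻¹' A) = A := by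
    ext x; simp
  rwa [hset] at this

lemma volume_translate (A : Set (EE d)) (a : EE d) :
    (volume : Measure (EE d)) ((fun y => y - a) ⁻¹' A) = volume A := by
  have : (fun y : EE d => y - a) = fun y => y + (-a) := by
    ext y; simp [sub_eq_add_neg]
  rw [this]
  exact measure_preimage_add_right _ _ _

lemma ae_translate {P : EE d → Prop} (h : ∀ᵐ x ∂(volume : Measure (EE d)), P x) (a : EE d) :
    ∀ᵐ x ∂(volume : Measure (EE d)), P (x + a) :=
  (measurePreserving_add_right (volume : Measure (EE d)) a).quasiMeasurePreserving.ae h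

lemma ae_of_rho (hK : Body K) {P : EE d → Prop} (h : ∀ᵐ x ∂(rho K), P x) :
    ∀ᵐ x ∂(volume : Measure (EE d)), x ∈ K → P x := by
  have hc : (volume K)⁻¹ ≠ 0 := ENNReal.inv_ne_zero.2 hK.volume_ne_top
  have h1 : ∀ᵐ x ∂(volume.restrict K : Measure (EE d)), P x := by
    have : ∀ᵐ x ∂((volume K)⁻¹ • (volume.restrict K : Measure (EE d))), P x := h
    exact (Measure.ae_ennreal_smul_measure_iff hc).1 this
  exact (ae_restrict_iff' hK.measurableSet).1 h1

lemma integral_rho (h : EE d → ℝ) :
    ∫ x, h x ∂(rho K) = ((volume : Measure (EE d)).real K)⁻¹ * ∫ x in K, h x := by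
  simp only [rho, Crest.AnalysisR.OT.uniformProbOn, integral_smul_measure, smul_eq_mul,
    ENNReal.toReal_inv]
  rfl

/-- Osc integral: for `h` bounded by `B` a.e. on `K`. -/
lemma osc_integral_le (hK : Body K) (a : EE d) (h : EE d → ℝ) (hm : Measurable h) {B : ℝ}
    (hB : ∀ᵐ x ∂(volume : Measure (EE d)), x ∈ K → |h x| ≤ B) :
    (∫ x in KR K a, h (x + a)) - ∫ x in KR K a, h (x - a) ≤
      2 * B * (volume : Measure (EE d)).real (K \ KR K a) := by
  classical
  have hKm := hK.measurableSet
  have hKRm := measurableSet_KR hK.compact.isClosed a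
  have hfin : (volume : Measure (EE d)) K ≠ ⊤ := hK.volume_ne_top
  have hInt : IntegrableOn h K volume := by
    refine Measure.integrableOn_of_bounded (M := B) hfin hm.aestronglyMeasurable ?_
    rw [ae_restrict_iff' hKm]
    filter_upwards [hB] with x hx hxK
    simpa using hx hxK
  set P := (fun y : EE d => y - a) ⁻¹' KR K a with hP
  set M := (fun y : EE d => y - (-a)) ⁻¹' KR K a with hM
  have hPm : MeasurableSet P := (measurable_id.sub_const a) hKRm
  have hMm : MeasurableSet M := (measurable_id.sub_const (-a)) hKRm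
  have hPK : P ⊆ K := by
    intro y hy
    have : y - a ∈ KR K a := hy
    have h2 := this.2.1
    simpa using h2
  have hMK : M ⊆ K := by
    intro y hy
    have : y - (-a) ∈ KR K a := hy
    have h2 := this.2.2
    simpa [sub_eq_add_neg] using h2
  have h1 : ∫ x in KR K a, h (x + a) = ∫ y in P, h y := setIntegral_translate _ _ _
  have h2 : ∫ x in KR K a, h (x - a) = ∫ y in M, h y := by
    have hxa : ∀ x : EE d, x - a = x + (-a) := fun x => sub_eq_add_neg _ _
    simp_rw [hxa]
    exact setIntegral_translate (KR K a) (-a) h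
  rw [h1, h2]
  -- decompose
  have hdecP : ∫ y in K, h y = (∫ y in P, h y) + ∫ y in K \ P, h y := by
    rw [← setIntegral_union disjoint_sdiff_right (hKm.diff hPm) (hInt.mono_set hPK)
      (hInt.mono_set sdiff_subset), union_sdiff_cancel hPK]
  have hdecM : ∫ y in K, h y = (∫ y in M, h y) + ∫ y in K \ M, h y := by
    rw [← setIntegral_union disjoint_sdiff_right (hKm.diff hMm) (hInt.mono_set hMK)
      (hInt.mono_set sdiff_subset), union_sdiff_cancel hMK]
  have hbdd : ∀ (Q : Set (EE d)), Q ⊆ K → MeasurableSet Q →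
      |∫ y in Q, h y| ≤ B * (volume : Measure (EE d)).real Q := by
    intro Q hQ hQm
    have hQf : (volume : Measure (EE d)) Q < ⊤ :=
      lt_of_le_of_lt (measure_mono hQ) hK.compact.measure_lt_top
    have := norm_setIntegral_le_of_norm_le_const_ae (μ := volume) (s := Q) (C := B) (f := h) hQf (by
      rw [ae_restrict_iff' hQm]
      filter_upwards [hB] with x hx hxQ
      simpa using hx (hQ hxQ))
    simpa using this
  have hvP : (volume : Measure (EE d)).real (K \ P) = (volume : Measure (EE d)).real (K \ KR K a) := by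
    rw [measureReal_sdiff hPK hPm, measureReal_sdiff (KR_subset a) (measurableSet_KR hK.compact.isClosed a)]
    congr 1
    simp only [Measure.real, hP, volume_translate]
  have hvM : (volume : Measure (EE d)).real (K \ M) = (volume : Measure (EE d)).real (K \ KR K a) := by
    rw [measureReal_sdiff hMK hMm, measureReal_sdiff (KR_subset a) (measurableSet_KR hK.compact.isClosed a)]
    congr 1
    simp only [Measure.real, hM, volume_translate]
  have e1 := abs_le.1 (hbdd (K \ P) sdiff_subset (hKm.diff hPm))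
  have e2 := abs_le.1 (hbdd (K \ M) sdiff_subset (hKm.diff hMm))
  rw [hvP] at e1
  rw [hvM] at e2
  linarith [e1.1, e1.2, e2.1, e2.2]

/-- Translated integrals of a function nonnegative on `K` are bounded by the integral on `K`. -/
lemma translate_integral_le (hK : Body K) (a b : EE d) (h : EE d → ℝ)
    (hInt : IntegrableOn h K volume) (hnn : ∀ x ∈ K, 0 ≤ h x)
    (hb : ∀ x ∈ KR K a, x + b ∈ K) :
    ∫ x in KR K a, h (x + b) ≤ ∫ x in K, h x := by
  have hKRm := measurableSet_KR hK.compact.isClosed a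
  rw [setIntegral_translate]
  have hPm : MeasurableSet ((fun y : EE d => y - b) ⁻¹' KR K a) :=
    (measurable_id.sub_const b) hKRm
  have hPK : (fun y : EE d => y - b) ⁻¹' KR K a ⊆ K := by
    intro y hy
    have := hb _ hy
    simpa using this
  refine setIntegral_mono_set hInt ?_ (HasSubset.Subset.eventuallyLE hPK)
  rw [Filter.EventuallyLE, ae_restrict_iff' hK.measurableSet]
  exact Filter.Eventually.of_forall fun x hx => hnn x hx

/-- one-variable optimisation, `V/r²` form. -/
lemma opt1 {Q V a b B τ : ℝ} (hV : 0 ≤ V) (ha : 0 ≤ a) (hb : 0 ≤ b) (hB : 0 ≤ B) (hτ : 0 < τ)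
    (hQB : Q ≤ B) (h : ∀ r : ℝ, 0 < r → r ≤ τ → Q ≤ a * V / r ^ 2 + b * r) :
    Q ≤ (a + b + B / τ) * V ^ (1 / 3 : ℝ) := by
  rcases hV.eq_or_lt with rfl | hVpos
  · rw [Real.zero_rpow (by norm_num), mul_zero]
    by_contra hc
    push Not at hc
    have hbb : 0 < b + 1 := by linarith
    set r := min τ (Q / (b + 1)) with hr
    have hr0 : 0 < r := lt_min hτ (div_pos hc hbb)
    have := h r hr0 (min_le_left _ _)
    have h2 : r ≤ Q / (b + 1) := min_le_right _ _
    have h3 : r * (b + 1) ≤ Q := (le_div_iff₀ hbb).1 h2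
    simp at this
    nlinarith
  · set t := V ^ (1 / 3 : ℝ) with ht
    have ht0 : 0 < t := Real.rpow_pos_of_pos hVpos _
    have ht3 : t ^ 3 = V := by
      rw [ht, ← Real.rpow_natCast, ← Real.rpow_mul hVpos.le]
      norm_num
    have hBτ : 0 ≤ B / τ := div_nonneg hB hτ.le
    by_cases htτ : t ≤ τ
    · have := h t ht0 htτ
      rw [← ht3] at this
      have h5 : a * t ^ 3 / t ^ 2 = a * t := by field_simp
      rw [h5] at this
      nlinarith [mul_nonneg hBτ ht0.le]
    · push Not at htτ
      have h6 : B ≤ B / τ * t := by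
        rw [div_mul_eq_mul_div, le_div_iff₀ hτ]
        exact mul_le_mul_of_nonneg_left htτ.le hB
      nlinarith [mul_nonneg ha ht0.le, mul_nonneg hb ht0.le]

/-- one-variable optimisation, `I/r` form. -/
lemma opt2 {Q V a b B τ : ℝ} (hV : 0 ≤ V) (ha : 0 ≤ a) (hb : 0 ≤ b) (hB : 0 ≤ B) (hτ : 0 < τ)
    (hQB : Q ≤ B) (h : ∀ r : ℝ, 0 < r → r ≤ τ → Q ≤ a * V / r + b * r) :
    Q ≤ (a * τ + b + B / τ) * V ^ (1 / 3 : ℝ) := by
  rcases hV.eq_or_lt with rfl | hVpos
  · rw [Real.zero_rpow (by norm_num), mul_zero]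
    by_contra hc
    push Not at hc
    have hbb : 0 < b + 1 := by linarith
    set r := min τ (Q / (b + 1)) with hr
    have hr0 : 0 < r := lt_min hτ (div_pos hc hbb)
    have := h r hr0 (min_le_left _ _)
    have h2 : r ≤ Q / (b + 1) := min_le_right _ _
    have h3 : r * (b + 1) ≤ Q := (le_div_iff₀ hbb).1 h2
    simp at this
    nlinarith
  · set t := V ^ (1 / 3 : ℝ) with ht
    have ht0 : 0 < t := Real.rpow_pos_of_pos hVpos _
    have ht3 : t ^ 3 = V := by
      rw [ht, ← Real.rpow_natCast, ← Real.rpow_mul hVpos.le]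
      norm_num
    have hBτ : 0 ≤ B / τ := div_nonneg hB hτ.le
    by_cases htτ : t ≤ τ
    · have := h t ht0 htτ
      rw [← ht3] at this
      have h5 : a * t ^ 3 / t = a * t ^ 2 := by field_simp
      rw [h5] at this
      have h6 : a * t ^ 2 ≤ a * τ * t := by
        have : t ^ 2 ≤ τ * t := by nlinarith
        nlinarith
      nlinarith [mul_nonneg hBτ ht0.le]
    · push Not at htτ
      have h6 : B ≤ B / τ * t := by
        rw [div_mul_eq_mul_div, le_div_iff₀ hτ]
        exact mul_le_mul_of_nonneg_left htτ.le hB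
      nlinarith [mul_nonneg (mul_nonneg ha hτ.le) ht0.le, mul_nonneg hb ht0.le]

end GNAux

end Crest.Agent.OTS
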