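import Crest.Agent.Lib.OTS.Defs

/-!
# Existence of Laguerre weights (semi-discrete optimal transport) (task T4)

Proof: let `F c = ∫ lagPot y c dσ + ∑ m a * c a`.  `F` is Lipschitz, `F (c + const) = F c`, and if
`min c = 0`, `max c = M` then `F c ≥ -R₀ + (min m) M` (integrate `⟪x, y a⟫ - c a ≤ lagPot y c x` for
the index with `c a = 0`), so a global minimiser `c` exists (compact box).  One-sided first-order
condition: for `τ > 0`, `lagPot y (c - τ e_a) x ≤ lagPot y c x + τ 1_{L_τ}(x)` where
`L_τ = {x | ⟪x,y a⟫ - c a + τ ≥ max_{b ≠ a} (⟪x,y b⟫ - c b)}`, hence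
`0 ≤ F (c - τ e_a) - F c ≤ τ (σ L_τ - m a)`, so `σ L_τ ≥ m a`, and `τ ↓ 0` gives
`σ (lagCell y c a) ≥ m a`.  Since the cells overlap in `σ`-null sets (`y` injective, `σ ≪ volume`)
and cover, `∑ σ (lagCell) = 1 = ∑ m`, so equality for each `a`.
-/

open MeasureTheory Set
open scoped ENNReal RealInnerProductSpace

namespace Crest.Agent.OTS

variable {d : ℕ} {I : Type} [Fintype I] [Nonempty I]

private lemma lagPot_le_of_le (y : I → EE d) {c c' : I → ℝ} {L : ℝ} (h : ∀ a, c' a ≤ c a + L)
    (x : EE d) : lagPot y c x ≤ lagPot y c' x + L := by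
  obtain ⟨a, ha⟩ := exists_lagPot_eq y c x
  rw [ha]
  have := le_lagPot y c' a x
  linarith [h a]

private lemma lagPot_add_const (y : I → EE d) (c : I → ℝ) (t : ℝ) (x : EE d) :
    lagPot y (fun a => c a + t) x = lagPot y c x - t := by
  apply le_antisymm
  · have := lagPot_le_of_le y (c := fun a => c a + t) (c' := c) (L := -t) (fun a => by simp) x
    linarith
  · have := lagPot_le_of_le y (c := c) (c' := fun a => c a + t) (L := t) (fun a => by simp) x
    linarith

private lemma integrable_cont {K : Set (EE d)} (hK : IsCompact K) {σ : Measure (EE d)}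
    [IsFiniteMeasure σ] (hσK : σ Kᶜ = 0) {f : EE d → ℝ} (hf : Continuous f) : Integrable f σ := by
  obtain ⟨B, hB⟩ := hK.exists_bound_of_continuousOn hf.continuousOn
  refine Integrable.of_bound hf.aestronglyMeasurable B ?_
  have : ∀ᵐ x ∂σ, x ∈ K := by rw [ae_iff]; exact hσK
  filter_upwards [this] with x hx using hB x hx

/-- The dual functional. -/
private noncomputable def sdF (σ : Measure (EE d)) (m : I → ℝ) (y : I → EE d) (c : I → ℝ) : ℝ :=
  ∫ x, lagPot y c x ∂σ + ∑ a, m a * c a

private lemma sdF_continuous {K : Set (EE d)} (hK : IsCompact K) {σ : Measure (EE d)}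
    [IsProbabilityMeasure σ] (hσK : σ Kᶜ = 0) (m : I → ℝ) (y : I → EE d) :
    Continuous (sdF σ m y) := by
  have h1 : LipschitzWith 1 (fun c : I → ℝ => ∫ x, lagPot y c x ∂σ) := by
    refine LipschitzWith.of_dist_le_mul fun c c' => ?_
    simp only [NNReal.coe_one, one_mul]
    rw [Real.dist_eq, ← integral_sub (integrable_cont hK hσK (continuous_lagPot y c))
      (integrable_cont hK hσK (continuous_lagPot y c'))]
    have hb : ∀ x, ‖lagPot y c x - lagPot y c' x‖ ≤ dist c c' := fun x => by
      have hle : ∀ a, |c a - c' a| ≤ dist c c' := fun a => by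
        have := dist_le_pi_dist c c' a
        rwa [Real.dist_eq] at this
      rw [Real.norm_eq_abs, abs_le]
      constructor
      · have := lagPot_le_of_le y (c := c') (c' := c) (L := dist c c')
          (fun a => by have := abs_le.1 (hle a); linarith [this.1, this.2]) x
        linarith
      · have := lagPot_le_of_le y (c := c) (c' := c') (L := dist c c')
          (fun a => by have := abs_le.1 (hle a); linarith [this.1, this.2]) x
        linarith
    have := norm_integral_le_of_norm_le_const (μ := σ)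
      (Filter.Eventually.of_forall hb)
    simpa [Real.norm_eq_abs] using this
  unfold sdF
  refine h1.continuous.add ?_
  fun_prop

private lemma sdF_add_const {K : Set (EE d)} (hK : IsCompact K) {σ : Measure (EE d)}
    [IsProbabilityMeasure σ] (hσK : σ Kᶜ = 0) {m : I → ℝ} (hm1 : ∑ a, m a = 1) (y : I → EE d)
    (c : I → ℝ) (t : ℝ) : sdF σ m y (fun a => c a + t) = sdF σ m y c := by
  unfold sdF
  simp_rw [lagPot_add_const]
  rw [integral_sub (integrable_cont hK hσK (continuous_lagPot y c)) (integrable_const _)]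
  simp only [integral_const, mul_add, Finset.sum_add_distrib, ← Finset.sum_mul, hm1]
  simp

private lemma inner_integrable {K : Set (EE d)} (hK : IsCompact K) {σ : Measure (EE d)}
    [IsProbabilityMeasure σ] (hσK : σ Kᶜ = 0) (v : EE d) :
    Integrable (fun x : EE d => ⟪x, v⟫) σ :=
  integrable_cont hK hσK (by fun_prop)

private lemma sdF_lower {K : Set (EE d)} (hK : IsCompact K) {σ : Measure (EE d)}
    [IsProbabilityMeasure σ] (hσK : σ Kᶜ = 0) (m : I → ℝ) (y : I → EE d) (c : I → ℝ) (a : I) :
    (∫ x, ⟪x, y a⟫ ∂σ) - c a + ∑ b, m b * c b ≤ sdF σ m y c := by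
  unfold sdF
  have : (∫ x, ⟪x, y a⟫ ∂σ) - c a = ∫ x, (⟪x, y a⟫ - c a) ∂σ := by
    rw [integral_sub (inner_integrable hK hσK _) (integrable_const _)]
    simp
  rw [this]
  have h2 : ∫ x, (⟪x, y a⟫ - c a) ∂σ ≤ ∫ x, lagPot y c x ∂σ :=
    integral_mono ((inner_integrable hK hσK _).sub (integrable_const _))
      (integrable_cont hK hσK (continuous_lagPot y c)) (fun x => le_lagPot y c a x)
  linarith

/-- Existence of a global minimiser of the dual functional. -/
private lemma sdF_exists_min {K : Set (EE d)} (hK : IsCompact K) {σ : Measure (EE d)}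
    [IsProbabilityMeasure σ] (hσK : σ Kᶜ = 0) {m : I → ℝ} (hm : ∀ a, 0 < m a)
    (hm1 : ∑ a, m a = 1) (y : I → EE d) : ∃ c : I → ℝ, ∀ c', sdF σ m y c ≤ sdF σ m y c' := by
  classical
  obtain ⟨a₁, -, ha₁⟩ := Finset.exists_min_image Finset.univ m Finset.univ_nonempty
  set m₀ := m a₁ with hm₀def
  have hm₀ : 0 < m₀ := hm a₁
  set R₀ : ℝ := ∑ a, |∫ x, ⟪x, y a⟫ ∂σ| with hR₀
  have hR : ∀ a, -R₀ ≤ ∫ x, ⟪x, y a⟫ ∂σ := fun a => by
    have h1 : |∫ x, ⟪x, y a⟫ ∂σ| ≤ R₀ :=
      Finset.single_le_sum (f := fun a => |∫ x, ⟪x, y a⟫ ∂σ|) (fun _ _ => abs_nonneg _)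
        (Finset.mem_univ a)
    linarith [(abs_le.1 h1).1]
  set M : ℝ := (sdF σ m y 0 + R₀ + 1) / m₀ with hM
  have hF0 : -R₀ ≤ sdF σ m y 0 := by
    have := sdF_lower hK hσK m y 0 a₁
    simp only [Pi.zero_apply, sub_zero, mul_zero, Finset.sum_const_zero, add_zero] at this
    linarith [hR a₁]
  have hMpos : 0 ≤ M := by
    rw [hM]; apply div_nonneg _ hm₀.le; linarith
  have hbox : IsCompact (Set.pi univ fun _ : I => Icc (0:ℝ) M) :=
    isCompact_univ_pi fun _ => isCompact_Icc
  have h0box : (0 : I → ℝ) ∈ Set.pi univ fun _ : I => Icc (0:ℝ) M := by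
    intro a _; simp [hMpos]
  obtain ⟨c, hc, hmin⟩ := hbox.exists_isMinOn ⟨0, h0box⟩ (sdF_continuous hK hσK m y).continuousOn
  refine ⟨c, fun c' => ?_⟩
  obtain ⟨a0, -, ha0⟩ := Finset.exists_min_image Finset.univ c' Finset.univ_nonempty
  have hshift := sdF_add_const hK hσK hm1 y c' (- c' a0)
  set c'' : I → ℝ := fun a => c' a + - c' a0 with hc''
  have hc''0 : ∀ a, 0 ≤ c'' a := fun a => by
    simp only [hc'']; linarith [ha0 a (Finset.mem_univ a)]
  have hc''a0 : c'' a0 = 0 := by simp [hc'']
  by_cases hin : c'' ∈ Set.pi univ fun _ : I => Icc (0:ℝ) M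
  · rw [← hshift]; exact hmin hin
  · -- coercivity
    have : ∃ b, M < c'' b := by
      by_contra hcon
      push Not at hcon
      exact hin fun a _ => ⟨hc''0 a, hcon a⟩
    obtain ⟨b, hb⟩ := this
    have hl := sdF_lower hK hσK m y c'' a0
    rw [hc''a0, sub_zero] at hl
    have hsum : m b * c'' b ≤ ∑ a, m a * c'' a :=
      Finset.single_le_sum (f := fun a => m a * c'' a)
        (fun a _ => mul_nonneg (hm a).le (hc''0 a)) (Finset.mem_univ b)
    have hm0b : m₀ * c'' b ≤ m b * c'' b :=
      mul_le_mul_of_nonneg_right (ha₁ b (Finset.mem_univ b)) (hc''0 b)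
    have hMm : m₀ * M = sdF σ m y 0 + R₀ + 1 := by
      rw [hM]; field_simp
    have hlt : m₀ * M < m₀ * c'' b := mul_lt_mul_of_pos_left hb hm₀
    have h3 := hmin h0box
    simp only [mem_ofPred_eq] at h3
    rw [← hshift]
    linarith [hR a0]

/-- First-order condition at a minimiser. -/
private lemma sdF_first_order {K : Set (EE d)} (hK : IsCompact K) {σ : Measure (EE d)}
    [IsProbabilityMeasure σ] (hσK : σ Kᶜ = 0) (m : I → ℝ) (y : I → EE d) (c : I → ℝ)
    (hc : ∀ c', sdF σ m y c ≤ sdF σ m y c') (a : I) :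
    ENNReal.ofReal (m a) ≤ σ (lagCell y c a) := by
  classical
  let L : ℝ → Set (EE d) := fun τ => {x | ∀ b, ⟪x, y b⟫ - c b ≤ ⟪x, y a⟫ - c a + τ}
  have hLclosed : ∀ τ, IsClosed (L τ) := fun τ => by
    have : L τ = ⋂ b, {x : EE d | ⟪x, y b⟫ - c b ≤ ⟪x, y a⟫ - c a + τ} := by
      ext x; simp [L]
    rw [this]
    exact isClosed_iInter fun b => isClosed_le (by fun_prop) (by fun_prop)
  have hLmeas : ∀ τ, MeasurableSet (L τ) := fun τ => (hLclosed τ).measurableSet
  -- Step: `m a ≤ σ (L τ)` for `τ > 0`.
  have hstep : ∀ τ : ℝ, 0 < τ → m a ≤ (σ (L τ)).toReal := by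
    intro τ hτ
    let cτ : I → ℝ := fun b => if b = a then c a - τ else c b
    have h1 : ∀ x, lagPot y cτ x - lagPot y c x ≤ (L τ).indicator (fun _ => τ) x := by
      intro x
      obtain ⟨b, hb⟩ := exists_lagPot_eq y cτ x
      by_cases hx : x ∈ L τ
      · rw [indicator_of_mem hx]
        have := lagPot_le_of_le y (c := cτ) (c' := c) (L := τ) (fun b => by
          simp only [cτ]
          split_ifs with h
          · subst h; linarith
          · linarith) x
        linarith
      · rw [indicator_of_notMem hx]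
        -- the max at `x` for `cτ` is attained at an index other than `a`, or else `x ∈ L τ`
        have hxL : ∃ b, ⟪x, y a⟫ - c a + τ < ⟪x, y b⟫ - c b := by
          by_contra hcon
          push Not at hcon
          exact hx hcon
        obtain ⟨b', hb'⟩ := hxL
        rw [hb]
        by_cases hba : b = a
        · subst hba
          simp only [cτ, if_true] at *
          have := le_lagPot y c b' x
          have e : ⟪x, y b⟫ - (c b - τ) = ⟪x, y b⟫ - c b + τ := by ring
          rw [e]
          linarith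
        · have e : cτ b = c b := by simp [cτ, hba]
          rw [e]
          have := le_lagPot y c b x
          linarith
    have h2 : ∫ x, (lagPot y cτ x - lagPot y c x) ∂σ ≤ σ.real (L τ) * τ := by
      have hi : Integrable ((L τ).indicator fun _ : EE d => τ) σ :=
        (integrable_const _).indicator (hLmeas τ)
      have := integral_mono ((integrable_cont hK hσK (continuous_lagPot y cτ)).sub
        (integrable_cont hK hσK (continuous_lagPot y c))) hi h1
      rw [integral_indicator_const _ (hLmeas τ)] at this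
      simpa using this
    have h3 : ∑ b, m b * cτ b = ∑ b, m b * c b - m a * τ := by
      have : ∀ b, m b * cτ b = m b * c b - (if b = a then m a * τ else 0) := fun b => by
        simp only [cτ]
        split_ifs with h
        · subst h; ring
        · ring
      simp_rw [this]
      rw [Finset.sum_sub_distrib]
      simp
    have h4 := hc cτ
    unfold sdF at h4
    rw [integral_sub (integrable_cont hK hσK (continuous_lagPot y cτ))
      (integrable_cont hK hσK (continuous_lagPot y c))] at h2
    have h5 : m a * τ ≤ σ.real (L τ) * τ := by linarith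
    have := le_of_mul_le_mul_right h5 hτ
    simpa [Measure.real] using this
  -- Pass to the limit along `τ = 1/(n+1)`.
  let S : ℕ → Set (EE d) := fun n => L (1 / ((n:ℝ) + 1))
  have hSanti : Antitone S := by
    intro i j hij x hx b
    have := hx b
    have h6 : (1:ℝ) / ((j:ℝ) + 1) ≤ 1 / ((i:ℝ) + 1) :=
      one_div_le_one_div_of_le (by positivity) (by exact_mod_cast Nat.succ_le_succ hij)
    linarith
  have hSinter : ⋂ n, S n = lagCell y c a := by
    ext x
    simp only [mem_iInter, S, L, mem_ofPred_eq, lagCell]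
    constructor
    · intro h b
      have hlim : Filter.Tendsto (fun n : ℕ => ⟪x, y a⟫ - c a + 1 / ((n:ℝ) + 1)) Filter.atTop
          (nhds (⟪x, y a⟫ - c a + 0)) := tendsto_const_nhds.add tendsto_one_div_add_atTop_nhds_zero_nat
      rw [add_zero] at hlim
      exact ge_of_tendsto' hlim fun n => h n b
    · intro h n b
      have : (0:ℝ) ≤ 1 / ((n:ℝ) + 1) := by positivity
      linarith [h b]
  have hlim := tendsto_measure_iInter_atTop (μ := σ) (s := S)
    (fun n => (hLmeas _).nullMeasurableSet) hSanti ⟨0, measure_ne_top _ _⟩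
  rw [hSinter] at hlim
  refine ge_of_tendsto' hlim fun n => ?_
  exact ENNReal.ofReal_le_of_le_toReal (hstep _ (by positivity))

/-- Semi-discrete optimal transport: existence of weights. -/
theorem exists_lagWeights {K : Set (EE d)} (hK : IsCompact K) (σ : Measure (EE d))
    [IsProbabilityMeasure σ] (hσ : σ ≪ volume) (hσK : σ Kᶜ = 0) (m : I → ℝ) (hm : ∀ a, 0 < m a)
    (hm1 : ∑ a, m a = 1) (y : I → EE d) (hy : Function.Injective y) :
    ∃ c : I → ℝ, ∀ a, σ (lagCell y c a) = ENNReal.ofReal (m a) := by
  classical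
  obtain ⟨c, hc⟩ := sdF_exists_min hK hσK hm hm1 y
  refine ⟨c, ?_⟩
  have hge := sdF_first_order hK hσK m y c hc
  -- total mass
  have hcover : (⋃ a, lagCell y c a) = univ := by
    ext x
    simp only [mem_iUnion, mem_univ, iff_true]
    exact exists_mem_lagCell y c x
  have hdisj : Pairwise (Function.onFun (AEDisjoint σ) fun a => lagCell y c a) := by
    intro a b hab
    exact hσ (volume_lagCell_inter y c (fun h => hab (hy h)))
  have hsum : ∑ a, σ (lagCell y c a) = 1 := by
    have := measure_iUnion₀ (μ := σ) hdisj (fun a => (measurableSet_lagCell y c a).nullMeasurableSet)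
    rw [hcover, measure_univ, tsum_fintype] at this
    exact this.symm
  have hfin : ∀ a, σ (lagCell y c a) ≠ ⊤ := fun a => measure_ne_top _ _
  have hsumR : ∑ a, (σ (lagCell y c a)).toReal = ∑ a, m a := by
    rw [hm1, ← ENNReal.toReal_sum (fun a _ => hfin a), hsum]; simp
  have hgeR : ∀ a, m a ≤ (σ (lagCell y c a)).toReal := fun a => by
    have := ENNReal.toReal_mono (hfin a) (hge a)
    rwa [ENNReal.toReal_ofReal (hm a).le] at this
  have heq := (Finset.sum_eq_sum_iff_of_le (fun a _ => hgeR a)).1 hsumR.symm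
  intro a
  rw [heq a (Finset.mem_univ a), ENNReal.ofReal_toReal (hfin a)]

end Crest.Agent.OTS
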