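import Crest.Agent.Lib.OTS.SmallMesh
import Crest.Agent.Lib.OTS.SDOT

/-!
# Generalised Talagrand inequality for barycentres of Laguerre cells (task T3b)

Initial family: `A a = lagCell y c a ∩ K`, `B a = lagCell y c' a ∩ K`; separation with normal
`y b - y a`; refine with `exists_refinement`, apply `qval_le_of_mesh`, let `δ → 0`.
-/

open MeasureTheory Set
open scoped ENNReal RealInnerProductSpace

namespace Crest.Agent.OTS

variable {d : ℕ} {K : Set (EE d)} {I : Type} [Fintype I]

/-- The initial matched family of cells. -/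
noncomputable def cellFam (hK : Body K) {ρ σ : Measure (EE d)} (hρK : ρ Kᶜ = 0) (hσK : σ Kᶜ = 0)
    (I : Type) [Fintype I] (y : I → EE d) (hy : Function.Injective y) (c c' : I → ℝ)
    (hmass : ∀ a, ρ (lagCell y c a) = σ (lagCell y c' a)) : MFam ρ σ I where
  A a := lagCell y c a ∩ K
  B a := lagCell y c' a ∩ K
  hA a := ⟨hK.compact.inter_left (isClosed_lagCell y c a),
    (convex_lagCell y c a).inter hK.convex⟩
  hB a := ⟨hK.compact.inter_left (isClosed_lagCell y c' a),
    (convex_lagCell y c' a).inter hK.convex⟩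
  mass a := by
    rw [measure_inter_conull hρK, measure_inter_conull hσK]
    exact hmass a
  sep a b hab := by
    refine ⟨y b - y a, sub_ne_zero.2 (fun h => hab (hy h).symm), c b - c a, c' b - c' a, ?_, ?_, ?_, ?_⟩
    · rintro x ⟨hx, -⟩
      have := hx b
      rw [inner_sub_right]
      linarith
    · rintro x ⟨hx, -⟩
      have := hx a
      rw [inner_sub_right]
      linarith
    · rintro x ⟨hx, -⟩
      have := hx b
      rw [inner_sub_right]
      linarith
    · rintro x ⟨hx, -⟩
      have := hx a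
      rw [inner_sub_right]
      linarith

theorem gt_main (hK : Body K) :
    ∃ C₀ : ℝ, 0 ≤ C₀ ∧ ∀ (ε : ℝ) (g : EE d → ℝ), Admissible K ε g →
      ∀ (I : Type) [Fintype I] (m : I → ℝ), (∀ a, 0 < m a) → ∑ a, m a = 1 →
      ∀ (y : I → EE d), Function.Injective y → ∀ c c' : I → ℝ,
        (∀ a, rho K (lagCell y c a) = ENNReal.ofReal (m a)) →
        (∀ a, tilt K ε g (lagCell y c' a) = ENNReal.ofReal (m a)) →
        ∑ a, (m a)⁻¹ * ‖(∫ x in lagCell y c a, x ∂(rho K)) -
            ∫ x in lagCell y c' a, x ∂(tilt K ε g)‖ ^ 2 ≤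
          C₀ * ε ^ 2 * ∫ x, g x ^ 2 ∂(rho K) := by
  obtain ⟨C₁, C₂, δ₀, hC₁, hC₂, hδ₀, hmain⟩ := qval_le_of_mesh hK
  refine ⟨C₁, hC₁, ?_⟩
  intro ε g h I _ m hm hm1 y hy c c' hc hc'
  have := hK.isProb
  have := tilt_isProb hK h
  have hρK := hK.rho_compl
  have hσK := tilt_compl hK ε g
  have hmass : ∀ a, rho K (lagCell y c a) = tilt K ε g (lagCell y c' a) := fun a => by
    rw [hc, hc']
  set F := cellFam hK hρK hσK I y hy c c' hmass with hF
  have hFA : ∀ a, rho K (F.A a) = ENNReal.ofReal (m a) := fun a => by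
    rw [← hc a]
    exact measure_inter_conull hρK
  have hQ : Qval F = ∑ a, (m a)⁻¹ * ‖(∫ x in lagCell y c a, x ∂(rho K)) -
      ∫ x in lagCell y c' a, x ∂(tilt K ε g)‖ ^ 2 := by
    unfold Qval
    refine Finset.sum_congr rfl fun a _ => ?_
    rw [hFA, ENNReal.toReal_ofReal (hm a).le]
    have e1 : ∫ x in F.A a, x ∂(rho K) = ∫ x in lagCell y c a, x ∂(rho K) := by
      refine setIntegral_congr_set ?_
      rw [ae_eq_set]
      constructor
      · refine measure_mono_null ?_ (measure_empty (μ := rho K))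
        intro x hx
        exact absurd hx.1.1 hx.2
      · refine measure_mono_null ?_ hρK
        intro x hx
        exact fun hxK => hx.2 ⟨hx.1, hxK⟩
    have e2 : ∫ x in F.B a, x ∂(tilt K ε g) = ∫ x in lagCell y c' a, x ∂(tilt K ε g) := by
      refine setIntegral_congr_set ?_
      rw [ae_eq_set]
      constructor
      · refine measure_mono_null ?_ (measure_empty (μ := tilt K ε g))
        intro x hx
        exact absurd hx.1.1 hx.2
      · refine measure_mono_null ?_ hσK
        intro x hx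
        exact fun hxK => hx.2 ⟨hx.1, hxK⟩
    rw [e1, e2]
  have hsum1 : ∑ a, rho K (F.A a) = 1 := by
    simp only [hFA]
    rw [← ENNReal.ofReal_sum_of_nonneg fun a _ => (hm a).le, hm1]
    simp
  rw [← hQ]
  have hforall : ∀ δ : ℝ, 0 < δ → δ ≤ δ₀ →
      Qval F ≤ C₁ * ε ^ 2 * (∫ x, g x ^ 2 ∂(rho K)) + C₂ * δ ^ 2 := by
    intro δ hδ hδle
    obtain ⟨ι', _, F', hle, hsub, hmass', hA', hB'⟩ :=
      exists_refinement rho_absCont (tilt_absCont ε g) F hδ
    refine hle.trans (hmain ε g h δ hδ hδle ι' F' ?_ ?_ ?_ hA' hB')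
    · intro j
      obtain ⟨k, hk, -⟩ := hsub j
      exact hk.trans inter_subset_right
    · intro j
      obtain ⟨k, -, hk⟩ := hsub j
      exact hk.trans inter_subset_right
    · rw [hmass', hsum1]
  -- let δ → 0
  refine le_of_forall_pos_le_add fun e he => ?_
  set δ := min δ₀ (min 1 (e / (C₂ + 1))) with hδ
  have hδ0 : 0 < δ := by
    refine lt_min hδ₀ (lt_min one_pos (by positivity))
  have h1 := hforall δ hδ0 (min_le_left _ _)
  refine h1.trans ?_
  have h2 : δ ≤ 1 := (min_le_right _ _).trans (min_le_left _ _)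
  have h3 : δ ≤ e / (C₂ + 1) := (min_le_right _ _).trans (min_le_right _ _)
  have h4 : δ ^ 2 ≤ e / (C₂ + 1) := by nlinarith
  have h5 : C₂ * δ ^ 2 ≤ e := by
    have h6 : C₂ * δ ^ 2 ≤ C₂ * (e / (C₂ + 1)) := mul_le_mul_of_nonneg_left h4 hC₂
    have h7 : C₂ * (e / (C₂ + 1)) ≤ e := by
      rw [mul_div_assoc', div_le_iff₀ (by positivity)]
      nlinarith
    linarith
  linarith

end Crest.Agent.OTS
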