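import Crest.Agent.Lib.OTS.Defs

/-!
# Midpoint Prékopa–Leindler inequality on `EuclideanSpace ℝ (Fin d)` (task T1)

Proof plan: 1D Brunn–Minkowski (`volume A + volume B ≤ volume (A + B)` for nonempty measurable
`A B ⊆ ℝ`: inner regularity, compact case by shifting), 1D case of PL by
truncation (`min f n`, monotone convergence), normalisation by the sup and layer cake
(`MeasureTheory.lintegral_eq_lintegral_meas_lt`), dimension induction on `Fin n → ℝ` with
`volume_preserving_piFinSuccAbove` and Tonelli, transfer with `PiLp.volume_preserving_toLp`.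
-/

open MeasureTheory Set
open scoped ENNReal NNReal

namespace Crest.Agent.OTS

namespace PLAux

lemma add_le_of_forall_lt {a b c : ℝ≥0∞} (h0 : a = 0 → b ≤ c) (h : ∀ r, r < a → r + b ≤ c) :
    a + b ≤ c := by
  by_cases ha : a = 0
  · simpa [ha] using h0 ha
  have hb : b ≤ c := by
    have := h 0 (pos_iff_ne_zero.2 ha)
    simpa using this
  by_cases hbt : b = ∞
  · have : c = ∞ := top_le_iff.1 (hbt ▸ hb)
    simp [this]
  have : a ≤ c - b := le_of_forall_lt_imp_le_of_dense fun r hr => ENNReal.le_sub_of_add_le_right hbt (h r hr)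
  calc a + b ≤ (c - b) + b := by gcongr
    _ = c := tsub_add_cancel_of_le hb

/-- The volume of the preimage of a set under `x ↦ (x + b) / 2` is twice the volume. -/
lemma volume_preimage_half (b : ℝ) (S : Set ℝ) :
    volume ((fun x : ℝ => (x + b) / 2) ⁻¹' S) = 2 * volume S := by
  have h1 : (fun x : ℝ => (x + b) / 2) ⁻¹' S = (fun x : ℝ => x + b) ⁻¹' ((fun y : ℝ => (1 / 2 : ℝ) * y) ⁻¹' S) := by
    ext x
    simp only [mem_preimage]
    have : (x + b) / 2 = (1 / 2 : ℝ) * (x + b) := by ring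
    rw [this]
  rw [h1, measure_preimage_add_right, Real.volume_preimage_mul_left (by norm_num)]
  congr 1
  have : |((1 / 2 : ℝ))⁻¹| = 2 := by norm_num
  rw [this]
  simp

lemma bm_compact {K L C : Set ℝ} (hK : IsCompact K) (hL : IsCompact L)
    (hKn : K.Nonempty) (hLn : L.Nonempty)
    (hC : ∀ x ∈ K, ∀ y ∈ L, (x + y) / 2 ∈ C) : volume K + volume L ≤ 2 * volume C := by
  set a := sSup K with ha_def
  set b := sInf L with hb_def
  have ha : a ∈ K := hK.sSup_mem hKn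
  have hb : b ∈ L := hL.sInf_mem hLn
  set m := (a + b) / 2 with hm
  have h1 : volume K ≤ 2 * volume (C ∩ Iic m) := by
    rw [← volume_preimage_half b]
    apply measure_mono
    intro x hx
    refine ⟨hC x hx b hb, ?_⟩
    have : x ≤ a := le_csSup hK.bddAbove hx
    simp only [mem_Iic, hm]
    linarith
  have h2 : volume L ≤ 2 * volume (C \ Iic m) := by
    have hsub : L ⊆ ((fun y : ℝ => (y + a) / 2) ⁻¹' (C \ Iic m)) ∪ {b} := by
      intro y hy
      by_cases hyb : y = b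
      · right; exact hyb
      · left
        have hle : b ≤ y := csInf_le hL.bddBelow hy
        have hlt : b < y := lt_of_le_of_ne hle (Ne.symm hyb)
        refine ⟨?_, ?_⟩
        · have := hC a ha y hy
          rwa [add_comm] at this
        · simp only [mem_Iic, hm, not_le]
          linarith
    calc volume L ≤ volume (((fun y : ℝ => (y + a) / 2) ⁻¹' (C \ Iic m)) ∪ {b}) := measure_mono hsub
      _ ≤ volume ((fun y : ℝ => (y + a) / 2) ⁻¹' (C \ Iic m)) + volume ({b} : Set ℝ) :=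
        measure_union_le _ _
      _ = 2 * volume (C \ Iic m) := by
        rw [volume_preimage_half]; simp
  calc volume K + volume L ≤ 2 * volume (C ∩ Iic m) + 2 * volume (C \ Iic m) := add_le_add h1 h2
    _ = 2 * volume C := by rw [← mul_add, measure_inter_add_sdiff _ measurableSet_Iic]

lemma bm_meas {A B C : Set ℝ} (hA : MeasurableSet A) (hB : MeasurableSet B)
    (hAn : A.Nonempty) (hBn : B.Nonempty)
    (hC : ∀ x ∈ A, ∀ y ∈ B, (x + y) / 2 ∈ C) : volume A + volume B ≤ 2 * volume C := by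
  -- first step: `B` replaced by compact nonempty `L`
  have step1 : ∀ L : Set ℝ, L ⊆ B → IsCompact L → L.Nonempty → volume A + volume L ≤ 2 * volume C := by
    intro L hLB hL hLn
    apply add_le_of_forall_lt
    · intro _
      obtain ⟨a, ha⟩ := hAn
      have := bm_compact (isCompact_singleton (x := a)) hL (singleton_nonempty a) hLn
        (fun x hx y hy => by
          rw [mem_singleton_iff] at hx; subst hx; exact hC _ ha y (hLB hy))
      simpa using this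
    · intro r hr
      obtain ⟨K, hKA, hK, hrK⟩ := hA.exists_lt_isCompact hr
      have hKn : K.Nonempty := by
        by_contra hne
        rw [not_nonempty_iff_eq_empty] at hne
        simp [hne] at hrK
      calc r + volume L ≤ volume K + volume L := by gcongr
        _ ≤ 2 * volume C := bm_compact hK hL hKn hLn (fun x hx y hy => hC x (hKA hx) y (hLB hy))
  rw [add_comm]
  apply add_le_of_forall_lt
  · intro _
    obtain ⟨b, hb⟩ := hBn
    have := step1 {b} (singleton_subset_iff.2 hb) isCompact_singleton (singleton_nonempty b)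
    simpa using this
  · intro r hr
    obtain ⟨L, hLB, hL, hrL⟩ := hB.exists_lt_isCompact hr
    have hLn : L.Nonempty := by
      by_contra hne
      rw [not_nonempty_iff_eq_empty] at hne
      simp [hne] at hrL
    calc r + volume A ≤ volume L + volume A := by gcongr
      _ = volume A + volume L := add_comm _ _
      _ ≤ 2 * volume C := step1 L hLB hL hLn

/-- Layer cake for `[0,1]`-valued functions. -/
lemma layer {φ : ℝ → ℝ≥0∞} (hφ : Measurable φ) (h1 : ∀ x, φ x ≤ 1) :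
    ∫⁻ x, φ x = ∫⁻ t in Ioi (0 : ℝ), volume {x | ENNReal.ofReal t < φ x} := by
  have hne : ∀ x, φ x ≠ ∞ := fun x => ne_top_of_le_ne_top ENNReal.one_ne_top (h1 x)
  have key := lintegral_eq_lintegral_meas_lt (volume : Measure ℝ) (f := fun x => (φ x).toReal)
    (Filter.Eventually.of_forall fun x => ENNReal.toReal_nonneg)
    (hφ.ennreal_toReal.aemeasurable)
  have e1 : ∀ x, ENNReal.ofReal (φ x).toReal = φ x := fun x => ENNReal.ofReal_toReal (hne x)
  simp only [e1] at key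
  rw [key]
  refine setLIntegral_congr_fun measurableSet_Ioi ?_
  intro t ht
  have ht0 : (0 : ℝ) ≤ t := le_of_lt ht
  have : {a | t < (φ a).toReal} = {x | ENNReal.ofReal t < φ x} := by
    ext x
    simp only [mem_ofPred_eq]
    rw [ENNReal.ofReal_lt_iff_lt_toReal ht0 (hne x)]
  simp only [this]

lemma antitone_level (φ : ℝ → ℝ≥0∞) :
    Antitone fun t : ℝ => volume {x | ENNReal.ofReal t < φ x} := by
  intro s t hst
  apply measure_mono
  intro x hx
  simp only [mem_ofPred_eq] at hx ⊢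
  exact lt_of_le_of_lt (ENNReal.ofReal_le_ofReal hst) hx

lemma pl1_normalized {f g h : ℝ → ℝ≥0∞} (hf : Measurable f) (hg : Measurable g)
    (hh : Measurable h) (hf1 : ∀ x, f x ≤ 1) (hg1 : ∀ x, g x ≤ 1)
    (hfs : ∀ t : ℝ≥0∞, t < 1 → ∃ x, t < f x) (hgs : ∀ t : ℝ≥0∞, t < 1 → ∃ x, t < g x)
    (H : ∀ x y, f x * g y ≤ h ((x + y) / 2) ^ 2) :
    (∫⁻ x, f x) + (∫⁻ x, g x) ≤ 2 * ∫⁻ x, h x := by
  set h' : ℝ → ℝ≥0∞ := fun x => min (h x) 1 with hh'
  have hh'm : Measurable h' := hh.min measurable_const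
  have hh'1 : ∀ x, h' x ≤ 1 := fun x => min_le_right _ _
  have hle : ∫⁻ x, h' x ≤ ∫⁻ x, h x := lintegral_mono fun x => min_le_left _ _
  have key : ∀ t ∈ Ioi (0 : ℝ),
      volume {x | ENNReal.ofReal t < f x} + volume {x | ENNReal.ofReal t < g x}
        ≤ 2 * volume {x | ENNReal.ofReal t < h' x} := by
    intro t _
    by_cases ht : ENNReal.ofReal t < 1
    · refine bm_meas (measurableSet_lt measurable_const hf) (measurableSet_lt measurable_const hg)
        (hfs _ ht) (hgs _ ht) ?_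
      intro x hx y hy
      simp only [mem_ofPred_eq] at hx hy ⊢
      refine lt_min ?_ ht
      have h1 : ENNReal.ofReal t ^ 2 < f x * g y := by
        rw [pow_two]
        exact ENNReal.mul_lt_mul hx hy
      have h2 : ENNReal.ofReal t ^ 2 < h ((x + y) / 2) ^ 2 := lt_of_lt_of_le h1 (H x y)
      by_contra hcon
      exact absurd h2 (not_lt.2 (pow_le_pow_left' (not_lt.1 hcon) 2))
    · have hA : {x | ENNReal.ofReal t < f x} = ∅ := by
        ext x
        simp only [mem_ofPred_eq, mem_empty_iff_false, iff_false, not_lt]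
        exact (hf1 x).trans (not_lt.1 ht)
      have hB : {x | ENNReal.ofReal t < g x} = ∅ := by
        ext x
        simp only [mem_ofPred_eq, mem_empty_iff_false, iff_false, not_lt]
        exact (hg1 x).trans (not_lt.1 ht)
      simp [hA, hB]
  calc (∫⁻ x, f x) + (∫⁻ x, g x)
      = ∫⁻ t in Ioi (0 : ℝ), (volume {x | ENNReal.ofReal t < f x} + volume {x | ENNReal.ofReal t < g x}) := by
        rw [layer hf hf1, layer hg hg1, lintegral_add_left (antitone_level f).measurable]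
    _ ≤ ∫⁻ t in Ioi (0 : ℝ), 2 * volume {x | ENNReal.ofReal t < h' x} :=
        setLIntegral_mono' measurableSet_Ioi key
    _ = 2 * ∫⁻ x, h' x := by
        rw [lintegral_const_mul _ (antitone_level h').measurable, layer hh'm hh'1]
    _ ≤ 2 * ∫⁻ x, h x := by gcongr

lemma am_gm (x y : ℝ≥0∞) : 4 * (x * y) ≤ (x + y) ^ 2 := by
  by_cases hx : x = ∞
  · simp [hx]
  by_cases hy : y = ∞
  · simp [hy]
  lift x to ℝ≥0 using hx
  lift y to ℝ≥0 using hy
  have : (4 : ℝ≥0) * (x * y) ≤ (x + y) ^ 2 := by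
    rw [← NNReal.coe_le_coe]
    push_cast
    nlinarith [sq_nonneg ((x : ℝ) - y)]
  exact_mod_cast this

lemma pl1_bdd {f g h : ℝ → ℝ≥0∞} (hf : Measurable f) (hg : Measurable g) (hh : Measurable h)
    (a b : ℝ≥0) (ha : 0 < a) (hb : 0 < b) (hfa : ∀ x, f x ≤ a) (hgb : ∀ x, g x ≤ b)
    (hfs : ∀ t : ℝ≥0∞, t < a → ∃ x, t < f x) (hgs : ∀ t : ℝ≥0∞, t < b → ∃ x, t < g x)
    (H : ∀ x y, f x * g y ≤ h ((x + y) / 2) ^ 2) :
    (∫⁻ x, f x) * (∫⁻ x, g x) ≤ (∫⁻ x, h x) ^ 2 := by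
  set c : ℝ≥0 := NNReal.sqrt (a * b) with hc
  have hc2 : (c : ℝ≥0∞) ^ 2 = a * b := by
    have : c ^ 2 = a * b := NNReal.sq_sqrt _
    exact_mod_cast this
  have hc0 : (c : ℝ≥0∞) ≠ 0 := by
    intro h0
    have : (a : ℝ≥0∞) * b = 0 := by rw [← hc2, h0]; simp
    have ha' : (a : ℝ≥0∞) ≠ 0 := by exact_mod_cast ha.ne'
    have hb' : (b : ℝ≥0∞) ≠ 0 := by exact_mod_cast hb.ne'
    exact (mul_ne_zero ha' hb') this
  have ha0 : (a : ℝ≥0∞) ≠ 0 := by exact_mod_cast ha.ne'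
  have hb0 : (b : ℝ≥0∞) ≠ 0 := by exact_mod_cast hb.ne'
  have hat : (a : ℝ≥0∞) ≠ ∞ := ENNReal.coe_ne_top
  have hbt : (b : ℝ≥0∞) ≠ ∞ := ENNReal.coe_ne_top
  have hct : (c : ℝ≥0∞) ≠ ∞ := ENNReal.coe_ne_top
  have norm1 : ∀ {φ : ℝ → ℝ≥0∞} {s : ℝ≥0}, (s : ℝ≥0∞) ≠ 0 → (∀ x, φ x ≤ s) →
      ∀ x, φ x * (s : ℝ≥0∞)⁻¹ ≤ 1 := by
    intro φ s hs0 hφ x
    calc φ x * (s : ℝ≥0∞)⁻¹ ≤ s * (s : ℝ≥0∞)⁻¹ := by gcongr; exact hφ x
      _ = 1 := ENNReal.mul_inv_cancel hs0 ENNReal.coe_ne_top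
  have norm2 : ∀ {φ : ℝ → ℝ≥0∞} {s : ℝ≥0}, (s : ℝ≥0∞) ≠ 0 →
      (∀ t : ℝ≥0∞, t < s → ∃ x, t < φ x) →
      ∀ t : ℝ≥0∞, t < 1 → ∃ x, t < φ x * (s : ℝ≥0∞)⁻¹ := by
    intro φ s hs0 hφ t ht
    have hlt : t * s < s := by
      have := (ENNReal.mul_lt_mul_iff_left (a := t) (b := 1) hs0 ENNReal.coe_ne_top).2 ht
      simpa using this
    obtain ⟨x, hx⟩ := hφ _ hlt
    refine ⟨x, ?_⟩
    have h3 : t = (t * s) * (s : ℝ≥0∞)⁻¹ := by
      rw [mul_assoc, ENNReal.mul_inv_cancel hs0 ENNReal.coe_ne_top, mul_one]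
    rw [h3]
    exact (ENNReal.mul_lt_mul_iff_left (ENNReal.inv_ne_zero.2 ENNReal.coe_ne_top)
      (ENNReal.inv_ne_top.2 hs0)).2 hx
  have key := pl1_normalized (f := fun x => f x * (a : ℝ≥0∞)⁻¹) (g := fun x => g x * (b : ℝ≥0∞)⁻¹)
    (h := fun x => h x * (c : ℝ≥0∞)⁻¹) (hf.mul_const _) (hg.mul_const _) (hh.mul_const _)
    (norm1 ha0 hfa) (norm1 hb0 hgb) (norm2 ha0 hfs) (norm2 hb0 hgs) (by
      intro x y
      have h4 := H x y
      calc f x * (a : ℝ≥0∞)⁻¹ * (g y * (b : ℝ≥0∞)⁻¹)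
          = (f x * g y) * ((a : ℝ≥0∞) * b)⁻¹ := by
            rw [ENNReal.mul_inv (Or.inl ha0) (Or.inl hat)]; ring
        _ ≤ h ((x + y) / 2) ^ 2 * ((a : ℝ≥0∞) * b)⁻¹ := by gcongr
        _ = (h ((x + y) / 2) * (c : ℝ≥0∞)⁻¹) ^ 2 := by
            rw [← hc2, mul_pow, ENNReal.inv_pow])
  rw [lintegral_mul_const _ hf, lintegral_mul_const _ hg, lintegral_mul_const _ hh] at key
  set X := ∫⁻ x, f x
  set Y := ∫⁻ x, g x
  set Z := ∫⁻ x, h x
  have h5 : 4 * ((X * (a : ℝ≥0∞)⁻¹) * (Y * (b : ℝ≥0∞)⁻¹)) ≤ 4 * ((Z * (c : ℝ≥0∞)⁻¹) ^ 2) := by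
    calc 4 * ((X * (a : ℝ≥0∞)⁻¹) * (Y * (b : ℝ≥0∞)⁻¹))
        ≤ (X * (a : ℝ≥0∞)⁻¹ + Y * (b : ℝ≥0∞)⁻¹) ^ 2 := am_gm _ _
      _ ≤ (2 * (Z * (c : ℝ≥0∞)⁻¹)) ^ 2 := by gcongr
      _ = 4 * ((Z * (c : ℝ≥0∞)⁻¹) ^ 2) := by rw [mul_pow]; norm_num
  have h6 : (X * (a : ℝ≥0∞)⁻¹) * (Y * (b : ℝ≥0∞)⁻¹) ≤ (Z * (c : ℝ≥0∞)⁻¹) ^ 2 :=
    (ENNReal.mul_le_mul_iff_right (by norm_num) (by norm_num)).1 h5
  have h7 : (X * Y) * ((a : ℝ≥0∞) * b)⁻¹ ≤ Z ^ 2 * ((a : ℝ≥0∞) * b)⁻¹ := by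
    calc (X * Y) * ((a : ℝ≥0∞) * b)⁻¹ = (X * (a : ℝ≥0∞)⁻¹) * (Y * (b : ℝ≥0∞)⁻¹) := by
          rw [ENNReal.mul_inv (Or.inl ha0) (Or.inl hat)]; ring
      _ ≤ (Z * (c : ℝ≥0∞)⁻¹) ^ 2 := h6
      _ = Z ^ 2 * ((a : ℝ≥0∞) * b)⁻¹ := by
          rw [← hc2, mul_pow, ENNReal.inv_pow]
  have hab0 : ((a : ℝ≥0∞) * b)⁻¹ ≠ 0 := ENNReal.inv_ne_zero.2 (ENNReal.mul_ne_top hat hbt)
  have habt : ((a : ℝ≥0∞) * b)⁻¹ ≠ ∞ := ENNReal.inv_ne_top.2 (mul_ne_zero ha0 hb0)
  exact (ENNReal.mul_le_mul_iff_left hab0 habt).1 h7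

/-- Truncation at level `n`. -/
noncomputable def trunc (φ : ℝ → ℝ≥0∞) (n : ℕ) : ℝ → ℝ≥0∞ := fun x => min (φ x) n

lemma trunc_measurable {φ : ℝ → ℝ≥0∞} (hφ : Measurable φ) (n : ℕ) : Measurable (trunc φ n) :=
  hφ.min measurable_const

lemma trunc_mono (φ : ℝ → ℝ≥0∞) : Monotone (trunc φ) := by
  intro m n hmn x
  apply min_le_min_left
  exact_mod_cast hmn

lemma iSup_trunc (φ : ℝ → ℝ≥0∞) (x : ℝ) : ⨆ n, trunc φ n x = φ x := by
  apply le_antisymm
  · exact iSup_le fun n => min_le_left _ _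
  · by_cases hx : φ x = ∞
    · have : (⨆ n : ℕ, trunc φ n x) = ⨆ n : ℕ, (n : ℝ≥0∞) := by
        simp [trunc, hx]
      rw [this, ENNReal.iSup_natCast, hx]
    · obtain ⟨n, hn⟩ := ENNReal.exists_nat_gt hx
      refine le_trans ?_ (le_iSup (fun n => trunc φ n x) n)
      simp only [trunc]
      exact le_min le_rfl hn.le

lemma lintegral_trunc {φ : ℝ → ℝ≥0∞} (hφ : Measurable φ) :
    ∫⁻ x, φ x = ⨆ n, ∫⁻ x, trunc φ n x := by
  rw [← lintegral_iSup (fun n => trunc_measurable hφ n) (trunc_mono φ)]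
  simp only [iSup_trunc]

/-- Truncated version of the 1D inequality. -/
lemma pl1_trunc {f g h : ℝ → ℝ≥0∞} (hf : Measurable f) (hg : Measurable g) (hh : Measurable h)
    (H : ∀ x y, f x * g y ≤ h ((x + y) / 2) ^ 2) (m n : ℕ) :
    (∫⁻ x, trunc f m x) * (∫⁻ x, trunc g n x) ≤ (∫⁻ x, h x) ^ 2 := by
  set a := ⨆ x, trunc f m x with ha
  set b := ⨆ x, trunc g n x with hb
  have haf : ∀ x, trunc f m x ≤ a := fun x => le_iSup (fun x => trunc f m x) x
  have hbg : ∀ x, trunc g n x ≤ b := fun x => le_iSup (fun x => trunc g n x) x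
  have hat : a ≠ ∞ := by
    refine ne_top_of_le_ne_top (ENNReal.natCast_ne_top m) (iSup_le fun x => min_le_right _ _)
  have hbt : b ≠ ∞ := by
    refine ne_top_of_le_ne_top (ENNReal.natCast_ne_top n) (iSup_le fun x => min_le_right _ _)
  by_cases ha0 : a = 0
  · have : ∀ x, trunc f m x = 0 := fun x => le_antisymm (ha0 ▸ haf x) bot_le
    simp [this]
  by_cases hb0 : b = 0
  · have : ∀ x, trunc g n x = 0 := fun x => le_antisymm (hb0 ▸ hbg x) bot_le
    simp [this]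
  obtain ⟨a', ha'⟩ : ∃ a' : ℝ≥0, (a' : ℝ≥0∞) = a := ⟨a.toNNReal, ENNReal.coe_toNNReal hat⟩
  obtain ⟨b', hb'⟩ : ∃ b' : ℝ≥0, (b' : ℝ≥0∞) = b := ⟨b.toNNReal, ENNReal.coe_toNNReal hbt⟩
  refine pl1_bdd (trunc_measurable hf m) (trunc_measurable hg n) hh a' b'
    (by rw [← ha'] at ha0; exact_mod_cast pos_iff_ne_zero.2 ha0)
    (by rw [← hb'] at hb0; exact_mod_cast pos_iff_ne_zero.2 hb0)
    (fun x => by rw [ha']; exact haf x) (fun x => by rw [hb']; exact hbg x) ?_ ?_ ?_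
  · intro t ht
    rw [ha'] at ht
    exact lt_iSup_iff.1 ht
  · intro t ht
    rw [hb'] at ht
    exact lt_iSup_iff.1 ht
  · intro x y
    calc trunc f m x * trunc g n y ≤ f x * g y := by
          gcongr <;> exact min_le_left _ _
      _ ≤ h ((x + y) / 2) ^ 2 := H x y

/-- The one-dimensional midpoint Prékopa–Leindler inequality. -/
theorem pl1 {f g h : ℝ → ℝ≥0∞} (hf : Measurable f) (hg : Measurable g) (hh : Measurable h)
    (H : ∀ x y, f x * g y ≤ h ((x + y) / 2) ^ 2) :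
    (∫⁻ x, f x) * (∫⁻ x, g x) ≤ (∫⁻ x, h x) ^ 2 := by
  rw [lintegral_trunc hf, ENNReal.iSup_mul]
  refine iSup_le fun m => ?_
  rw [lintegral_trunc hg, ENNReal.mul_iSup]
  refine iSup_le fun n => pl1_trunc hf hg hh H m n

/-- Prékopa–Leindler on `Fin n → ℝ`. -/
theorem pl_pi (n : ℕ) : ∀ {f g h : (Fin n → ℝ) → ℝ≥0∞}, Measurable f → Measurable g → Measurable h →
    (∀ x y, f x * g y ≤ h ((1 / 2 : ℝ) • (x + y)) ^ 2) →
    (∫⁻ x, f x) * (∫⁻ x, g x) ≤ (∫⁻ x, h x) ^ 2 := by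
  induction n with
  | zero =>
    intro f g h _ _ _ H
    have hv : (volume : Measure (Fin 0 → ℝ)) univ = 1 := by
      simp [volume_pi]
    simp only [lintegral_unique, hv, mul_one]
    have := H default default
    convert this using 3
  | succ n ih =>
    intro f g h hf hg hh H
    set e := MeasurableEquiv.piFinSuccAbove (fun _ : Fin (n + 1) => ℝ) 0 with he
    have hp : MeasurePreserving e volume volume :=
      volume_preserving_piFinSuccAbove (fun _ : Fin (n + 1) => ℝ) 0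
    have hps := hp.symm
    have split : ∀ {φ : (Fin (n + 1) → ℝ) → ℝ≥0∞}, Measurable φ →
        ∫⁻ x, φ x = ∫⁻ s : ℝ, ∫⁻ x : Fin n → ℝ, φ (e.symm (s, x)) := by
      intro φ hφ
      rw [← hps.lintegral_comp hφ, Measure.volume_eq_prod]
      exact lintegral_prod (fun p => φ (e.symm p)) (hφ.comp e.symm.measurable).aemeasurable
    rw [split hf, split hg, split hh]
    have mF : ∀ {φ : (Fin (n + 1) → ℝ) → ℝ≥0∞}, Measurable φ →
        Measurable fun s : ℝ => ∫⁻ x : Fin n → ℝ, φ (e.symm (s, x)) := by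
      intro φ hφ
      exact Measurable.lintegral_prod_right' (f := fun p : ℝ × (Fin n → ℝ) => φ (e.symm p))
        (hφ.comp e.symm.measurable)
    have mS : ∀ {φ : (Fin (n + 1) → ℝ) → ℝ≥0∞} (s : ℝ), Measurable φ →
        Measurable fun x : Fin n → ℝ => φ (e.symm (s, x)) := by
      intro φ s hφ
      exact hφ.comp (e.symm.measurable.comp (measurable_const.prodMk measurable_id))
    refine pl1 (mF hf) (mF hg) (mF hh) ?_
    intro s s'
    refine ih (mS s hf) (mS s' hg) (mS ((s + s') / 2) hh) ?_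
    intro x y
    have hmid : (1 / 2 : ℝ) • (e.symm (s, x) + e.symm (s', y))
        = e.symm ((s + s') / 2, (1 / 2 : ℝ) • (x + y)) := by
      funext i
      refine Fin.cases ?_ (fun j => ?_) i
      · simp [he, MeasurableEquiv.piFinSuccAbove]
        ring
      · simp [he, MeasurableEquiv.piFinSuccAbove]
        ring
    have := H (e.symm (s, x)) (e.symm (s', y))
    rwa [hmid] at this

end PLAux

variable {d : ℕ}

/-- Midpoint Prékopa–Leindler in `ℝ≥0∞`-valued form. -/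
theorem pl_midpoint (f g h : EE d → ℝ≥0∞) (hf : Measurable f) (hg : Measurable g)
    (hh : Measurable h) (H : ∀ x y, f x * g y ≤ h ((1 / 2 : ℝ) • (x + y)) ^ 2) :
    (∫⁻ x, f x) * (∫⁻ x, g x) ≤ (∫⁻ x, h x) ^ 2 := by
  have hp := PiLp.volume_preserving_toLp (Fin d)
  rw [← hp.lintegral_comp hf, ← hp.lintegral_comp hg, ← hp.lintegral_comp hh]
  have hm : Measurable (WithLp.toLp 2 : (Fin d → ℝ) → EE d) := hp.measurable
  refine PLAux.pl_pi d (hf.comp hm) (hg.comp hm) (hh.comp hm) ?_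
  intro x y
  have := H (WithLp.toLp 2 x) (WithLp.toLp 2 y)
  simpa using this

end Crest.Agent.OTS
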