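import Crest.Agent.Lib.OTS.Defs

/-!
# Auxiliary lemmas for S0110 (helper79): optimal maps to finitely many atoms, box volumes in the cube.
-/

set_option autoImplicit false

open MeasureTheory Set
open scoped ENNReal NNReal RealInnerProductSpace

namespace Crest.Agent.OTS.S0110Aux

open Crest.AnalysisR.OT

variable {d : ℕ}

/-! ### Box volumes -/

lemma volume_box (J : Fin d → Set ℝ) (hJ : ∀ i, MeasurableSet (J i)) :
    volume {x : EE d | ∀ i, x i ∈ J i} = ∏ i, volume (J i) := by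
  have hp := PiLp.volume_preserving_ofLp (Fin d)
  have hs : {x : EE d | ∀ i, x i ∈ J i} = (WithLp.ofLp) ⁻¹' (Set.pi Set.univ J) := by
    ext x; simp
  rw [hs, hp.measure_preimage (MeasurableSet.univ_pi hJ).nullMeasurableSet, volume_pi_pi]

/-- The cube. -/
def cube (d : ℕ) : Set (EE d) := {x | ∀ i, |x i| ≤ 1}

lemma cube_eq : cube d = {x : EE d | ∀ i, x i ∈ Icc (-1 : ℝ) 1} := by
  ext x; simp [cube, abs_le]

lemma measurableSet_box (J : Fin d → Set ℝ) (hJ : ∀ i, MeasurableSet (J i)) :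
    MeasurableSet {x : EE d | ∀ i, x i ∈ J i} := by
  have hs : {x : EE d | ∀ i, x i ∈ J i} = ⋂ i, (fun x : EE d => x i) ⁻¹' (J i) := by
    ext x; simp
  rw [hs]
  refine MeasurableSet.iInter fun i => ?_
  have : Measurable (fun x : EE d => x i) := by fun_prop
  exact this (hJ i)

lemma measurableSet_cube : MeasurableSet (cube d) := by
  rw [cube_eq]; exact measurableSet_box _ fun _ => measurableSet_Icc

lemma volume_Icc_neg_one_one : volume (Icc (-1 : ℝ) 1) = 2 := by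
  rw [Real.volume_Icc]; norm_num

lemma volume_cube : volume (cube d) = 2 ^ d := by
  rw [cube_eq, volume_box _ fun _ => measurableSet_Icc]
  simp only [volume_Icc_neg_one_one, Finset.prod_const, Finset.card_univ, Fintype.card_fin]

lemma volume_cube_ne_zero : volume (cube d) ≠ 0 := by
  rw [volume_cube]; simp

lemma volume_cube_ne_top : volume (cube d) ≠ ⊤ := by
  rw [volume_cube]; simp

/-- Uniform measure on the cube. -/
noncomputable abbrev rhoC (d : ℕ) : Measure (EE d) := uniformProbOn (cube d)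

lemma rhoC_apply (A : Set (EE d)) (hA : MeasurableSet A) :
    rhoC d A = (volume (cube d))⁻¹ * volume (A ∩ cube d) := by
  simp [uniformProbOn, hA]

instance rhoC_isProb : IsProbabilityMeasure (rhoC d) := by
  constructor
  simp only [uniformProbOn, Measure.smul_apply, smul_eq_mul, Measure.restrict_apply_univ]
  exact ENNReal.inv_mul_cancel volume_cube_ne_zero volume_cube_ne_top

lemma rhoC_compl : rhoC d (cube d)ᶜ = 0 := by
  rw [rhoC_apply _ measurableSet_cube.compl]; simp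

lemma ae_mem_cube : ∀ᵐ x ∂(rhoC d), x ∈ cube d := by
  rw [ae_iff]; exact rhoC_compl

/-- Mass of a box: product of normalised one-dimensional masses. -/
lemma rhoC_box (J : Fin d → Set ℝ) (hJ : ∀ i, MeasurableSet (J i)) :
    rhoC d {x : EE d | ∀ i, x i ∈ J i} = ∏ i, (volume (J i ∩ Icc (-1 : ℝ) 1) / 2) := by
  have hinter : {x : EE d | ∀ i, x i ∈ J i} ∩ cube d =
      {x : EE d | ∀ i, x i ∈ J i ∩ Icc (-1 : ℝ) 1} := by
    rw [cube_eq]; ext x; simp only [mem_inter_iff, mem_setOf_eq, forall_and]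
  rw [rhoC_apply _ (measurableSet_box J hJ), hinter,
    volume_box _ fun i => (hJ i).inter measurableSet_Icc, volume_cube]
  have : ((2 : ℝ≥0∞) ^ d)⁻¹ = ∏ _i : Fin d, (2 : ℝ≥0∞)⁻¹ := by
    simp [ENNReal.inv_pow]
  rw [this, ← Finset.prod_mul_distrib]
  refine Finset.prod_congr rfl fun i _ => ?_
  rw [ENNReal.div_eq_inv_mul]

/-- One-dimensional normalised mass. -/
noncomputable def m1 (J : Set ℝ) : ℝ≥0∞ := volume (J ∩ Icc (-1 : ℝ) 1) / 2

lemma m1_univ : m1 univ = 1 := by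
  simp only [m1, univ_inter, volume_Icc_neg_one_one]
  exact ENNReal.div_self (by norm_num) (by norm_num)

lemma m1_Ioo {p q : ℝ} (hp : -1 ≤ p) (hq : q ≤ 1) (hpq : p ≤ q) :
    m1 (Ioo p q) = ENNReal.ofReal ((q - p) / 2) := by
  have : Ioo p q ∩ Icc (-1 : ℝ) 1 = Ioo p q := by
    ext x; simp only [mem_inter_iff, mem_Ioo, mem_Icc]
    constructor
    · exact fun h => h.1
    · exact fun h => ⟨h, by linarith [h.1], by linarith [h.2]⟩
  rw [m1, this, Real.volume_Ioo, ENNReal.ofReal_div_of_pos (by norm_num)]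
  simp

lemma m1_Ioi {s : ℝ} (hs : -1 ≤ s) (hs1 : s ≤ 1) :
    m1 (Ioi s) = ENNReal.ofReal ((1 - s) / 2) := by
  have : Ioi s ∩ Icc (-1 : ℝ) 1 = Ioc s 1 := by
    ext x; simp only [mem_inter_iff, mem_Ioi, mem_Icc, mem_Ioc]
    constructor
    · exact fun h => ⟨h.1, h.2.2⟩
    · exact fun h => ⟨h.1, by linarith [h.1], h.2⟩
  rw [m1, this, Real.volume_Ioc, ENNReal.ofReal_div_of_pos (by norm_num)]
  simp

lemma m1_Iio {s : ℝ} (hs : -1 ≤ s) (hs1 : s ≤ 1) :
    m1 (Iio s) = ENNReal.ofReal ((s + 1) / 2) := by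
  have : Iio s ∩ Icc (-1 : ℝ) 1 = Ico (-1) s := by
    ext x; simp only [mem_inter_iff, mem_Iio, mem_Icc, mem_Ico]
    constructor
    · exact fun h => ⟨h.2.1, h.1⟩
    · exact fun h => ⟨h.2, h.1, by linarith [h.2]⟩
  rw [m1, this, Real.volume_Ico, ENNReal.ofReal_div_of_pos (by norm_num)]
  simp [sub_neg_eq_add]

/-- Mass of a set defined by a condition on one coordinate. -/
lemma rhoC_one (i₀ : Fin d) (A : Set ℝ) (hA : MeasurableSet A) :
    rhoC d {x : EE d | x i₀ ∈ A} = m1 A := by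
  classical
  have hs : {x : EE d | x i₀ ∈ A} =
      {x : EE d | ∀ i, x i ∈ (if i = i₀ then A else univ)} := by
    ext x; simp only [mem_setOf_eq]
    constructor
    · intro h i; by_cases hi : i = i₀
      · subst hi; simpa using h
      · simp [hi]
    · intro h; simpa using h i₀
  rw [hs, rhoC_box _ (fun i => by split_ifs <;> simp [hA])]
  rw [Finset.prod_eq_single i₀]
  · simp [m1]
  · intro b _ hb
    simp only [hb, if_false]
    exact m1_univ
  · simp

/-- Mass of a set defined by conditions on two distinct coordinates. -/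
lemma rhoC_two {i₀ i₁ : Fin d} (h01 : i₀ ≠ i₁) (A B : Set ℝ) (hA : MeasurableSet A)
    (hB : MeasurableSet B) :
    rhoC d {x : EE d | x i₀ ∈ A ∧ x i₁ ∈ B} = m1 A * m1 B := by
  classical
  have hs : {x : EE d | x i₀ ∈ A ∧ x i₁ ∈ B} =
      {x : EE d | ∀ i, x i ∈ (if i = i₀ then A else if i = i₁ then B else univ)} := by
    ext x; simp only [mem_setOf_eq]
    constructor
    · rintro ⟨h0, h1⟩ i
      by_cases hi : i = i₀
      · subst hi; simpa using h0
      · by_cases hi' : i = i₁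
        · subst hi'; simpa [hi] using h1
        · simp [hi, hi']
    · intro h
      have h0 := h i₀
      have h1 := h i₁
      simp only [if_true] at h0
      simp only [h01.symm, if_false, if_true] at h1
      exact ⟨h0, h1⟩
  rw [hs, rhoC_box _ (fun i => by split_ifs <;> simp [hA, hB])]
  rw [Finset.prod_eq_mul i₀ i₁ h01]
  · simp [h01.symm, m1]
  · intro c _ hc
    simp only [hc.1, hc.2, if_false]
    exact m1_univ
  · simp
  · simp

/-! ### Optimal maps onto finitely many atoms -/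

lemma enorm_pow_two_helper (u : EE d) : ENNReal.ofReal (‖u‖ ^ 2) = ‖u‖ₑ ^ 2 := by
  rw [ENNReal.ofReal_pow (norm_nonneg _), ofReal_norm_eq_enorm]

section Lag

variable {I : Type} [Fintype I] [Nonempty I] (y : I → EE d) (c : I → ℝ)

/-- The key pointwise comparison. -/
lemma cost_compare {x : EE d} {a a' : I} (hx : x ∈ lagCell y c a) (M : ℝ) :
    ‖x - y a‖ ^ 2 + (‖y a'‖ ^ 2 - 2 * c a' + M) + 2 * ((⟪x, y a⟫ - c a) - (⟪x, y a'⟫ - c a')) =
      ‖x - y a'‖ ^ 2 + (‖y a‖ ^ 2 - 2 * c a + M) ∧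
      0 ≤ (⟪x, y a⟫ - c a) - (⟪x, y a'⟫ - c a') := by
  refine ⟨?_, by have := hx a'; linarith⟩
  rw [@norm_sub_sq_real, @norm_sub_sq_real]
  ring

/-- The potential on atoms, extended by zero. -/
noncomputable def gfun [DecidableEq (EE d)] (v : I → ℝ) (z : EE d) : ℝ :=
  ∑ a, ({y a} : Set (EE d)).indicator (fun _ => v a) z

lemma gfun_atom [DecidableEq (EE d)] (hy : Function.Injective y) (v : I → ℝ) (a : I) :
    gfun y v (y a) = v a := by
  classical
  unfold gfun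
  rw [Finset.sum_eq_single a]
  · simp
  · intro b _ hb
    have : y a ∉ ({y b} : Set (EE d)) := by
      intro h; exact hb (hy h).symm
    simp [this]
  · simp

lemma measurable_gfun [DecidableEq (EE d)] (v : I → ℝ) : Measurable (gfun y v) := by
  unfold gfun
  refine Finset.measurable_sum _ fun a _ => ?_
  exact measurable_const.indicator (measurableSet_singleton _)

variable {y c} (ρ : Measure (EE d)) [IsProbabilityMeasure ρ]

/-- Bound on `g`. -/
lemma exists_shift : ∃ M : ℝ, ∀ a : I, 0 ≤ ‖y a‖ ^ 2 - 2 * c a + M := by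
  classical
  refine ⟨∑ a, |2 * c a|, fun a => ?_⟩
  have h1 : |2 * c a| ≤ ∑ a, |2 * c a| :=
    Finset.single_le_sum (f := fun a => |2 * c a|) (fun _ _ => abs_nonneg _) (Finset.mem_univ a)
  have h2 := le_abs_self (2 * c a)
  have h3 := sq_nonneg ‖y a‖
  linarith

/-- Main lemma: a Laguerre selection is optimal, and every other map with the same image measure
which does not cost more selects a.e. a maximiser. -/
theorem lag_compare (hy : Function.Injective y) {T T' : EE d → EE d} (hT : Measurable T)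
    (hT' : Measurable T') (hTc : ∀ x, ∃ a, T x = y a ∧ x ∈ lagCell y c a)
    (hmap : ρ.map T' = ρ.map T) :
    (∫⁻ x, ‖x - T x‖ₑ ^ 2 ∂ρ ≤ ∫⁻ x, ‖x - T' x‖ₑ ^ 2 ∂ρ) ∧
    ((∫⁻ x, ‖x - T x‖ₑ ^ 2 ∂ρ ≠ ⊤) → (∫⁻ x, ‖x - T' x‖ₑ ^ 2 ∂ρ ≤ ∫⁻ x, ‖x - T x‖ₑ ^ 2 ∂ρ) →
      ∀ᵐ x ∂ρ, ∃ a', T' x = y a' ∧ x ∈ lagCell y c a') := by
  classical
  obtain ⟨M, hM⟩ := exists_shift (y := y) (c := c)
  set v : I → ℝ := fun a => ‖y a‖ ^ 2 - 2 * c a + M with hv
  set g : EE d → ℝ≥0∞ := fun z => ENNReal.ofReal (gfun y v z) with hg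
  have hgm : Measurable g := (measurable_gfun y v).ennreal_ofReal
  -- T' takes values in atoms a.e.
  have hrange : ∀ᵐ x ∂ρ, ∃ a', T' x = y a' := by
    have hfin : (range y).Finite := finite_range y
    have hmeas : MeasurableSet (range y)ᶜ := hfin.measurableSet.compl
    have h1 : ρ.map T (range y)ᶜ = 0 := by
      rw [Measure.map_apply hT hmeas]
      have : T ⁻¹' (range y)ᶜ = ∅ := by
        ext x
        simp only [mem_preimage, mem_compl_iff, mem_range, mem_empty_iff_false, iff_false, not_not]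
        obtain ⟨a, ha, -⟩ := hTc x
        exact ⟨a, ha.symm⟩
      rw [this]; simp
    have h2 : ρ (T' ⁻¹' (range y)ᶜ) = 0 := by
      rw [← Measure.map_apply hT' hmeas, hmap, h1]
    rw [ae_iff]
    refine measure_mono_null ?_ h2
    intro x hx
    simp only [mem_setOf_eq, not_exists] at hx
    simp only [mem_preimage, mem_compl_iff, mem_range, not_exists]
    exact fun a h => hx a h.symm
  -- common value of the integrals of g
  have hG1 : ∫⁻ x, g (T' x) ∂ρ = ∫⁻ x, g (T x) ∂ρ := by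
    rw [← lintegral_map hgm hT', ← lintegral_map hgm hT, hmap]
  have hGfin : ∫⁻ x, g (T x) ∂ρ ≠ ⊤ := by
    have hbd : ∀ x, g (T x) ≤ ENNReal.ofReal (∑ a, v a) := by
      intro x
      obtain ⟨a, ha, -⟩ := hTc x
      simp only [hg, ha, gfun_atom y hy]
      apply ENNReal.ofReal_le_ofReal
      exact Finset.single_le_sum (f := v) (fun b _ => hM b) (Finset.mem_univ a)
    refine ne_of_lt (lt_of_le_of_lt (lintegral_mono hbd) ?_)
    simp
  -- pointwise inequality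
  have hpt : ∀ᵐ x ∂ρ, ‖x - T x‖ₑ ^ 2 + g (T' x) ≤ ‖x - T' x‖ₑ ^ 2 + g (T x) := by
    filter_upwards [hrange] with x hx
    obtain ⟨a', ha'⟩ := hx
    obtain ⟨a, ha, hxa⟩ := hTc x
    obtain ⟨h1, h2⟩ := cost_compare y c hxa (a' := a') M
    simp only [hg, ha, ha', gfun_atom y hy]
    rw [← enorm_pow_two_helper, ← enorm_pow_two_helper,
      ← ENNReal.ofReal_add (sq_nonneg _) (hM a'), ← ENNReal.ofReal_add (sq_nonneg _) (hM a)]
    apply ENNReal.ofReal_le_ofReal
    show ‖x - y a‖ ^ 2 + (‖y a'‖ ^ 2 - 2 * c a' + M) ≤ ‖x - y a'‖ ^ 2 + (‖y a‖ ^ 2 - 2 * c a + M)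
    linarith
  have hm1 : Measurable fun x => g (T' x) := hgm.comp hT'
  have hm2 : Measurable fun x => g (T x) := hgm.comp hT
  have hF : ∫⁻ x, (‖x - T x‖ₑ ^ 2 + g (T' x)) ∂ρ =
      ∫⁻ x, ‖x - T x‖ₑ ^ 2 ∂ρ + ∫⁻ x, g (T x) ∂ρ := by
    rw [lintegral_add_right _ hm1, hG1]
  have hH : ∫⁻ x, (‖x - T' x‖ₑ ^ 2 + g (T x)) ∂ρ =
      ∫⁻ x, ‖x - T' x‖ₑ ^ 2 ∂ρ + ∫⁻ x, g (T x) ∂ρ := by
    rw [lintegral_add_right _ hm2]
  have hint := lintegral_mono_ae hpt
  rw [hF, hH] at hint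
  refine ⟨(ENNReal.add_le_add_iff_right hGfin).1 hint, fun hfin hle => ?_⟩
  have hHm : AEMeasurable (fun x => ‖x - T' x‖ₑ ^ 2 + g (T x)) ρ := by
    refine Measurable.aemeasurable ?_
    exact ((measurable_id.sub hT').enorm.pow_const 2).add hm2
  have hFfin : ∫⁻ x, (‖x - T x‖ₑ ^ 2 + g (T' x)) ∂ρ ≠ ⊤ := by
    rw [hF]; exact ENNReal.add_ne_top.2 ⟨hfin, hGfin⟩
  have hle2 : ∫⁻ x, (‖x - T' x‖ₑ ^ 2 + g (T x)) ∂ρ ≤ ∫⁻ x, (‖x - T x‖ₑ ^ 2 + g (T' x)) ∂ρ := by
    rw [hF, hH]; gcongr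
  have hae := ae_eq_of_ae_le_of_lintegral_le hpt hFfin hHm hle2
  filter_upwards [hae, hrange] with x hx hx'
  obtain ⟨a', ha'⟩ := hx'
  refine ⟨a', ha', ?_⟩
  obtain ⟨a, ha, hxa⟩ := hTc x
  obtain ⟨h1, h2⟩ := cost_compare y c hxa (a' := a') M
  simp only [hg, ha, ha', gfun_atom y hy] at hx
  rw [← enorm_pow_two_helper, ← enorm_pow_two_helper,
    ← ENNReal.ofReal_add (sq_nonneg _) (hM a'), ← ENNReal.ofReal_add (sq_nonneg _) (hM a)] at hx
  have hreal := (ENNReal.ofReal_eq_ofReal_iff (add_nonneg (sq_nonneg _) (hM a'))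
    (add_nonneg (sq_nonneg _) (hM a))).1 hx
  have hgap : (⟪x, y a⟫ - c a) - (⟪x, y a'⟫ - c a') = 0 := by
    have h3 : ‖x - y a‖ ^ 2 + (‖y a'‖ ^ 2 - 2 * c a' + M) =
        ‖x - y a'‖ ^ 2 + (‖y a‖ ^ 2 - 2 * c a + M) := hreal
    linarith
  intro b
  have := hxa b
  linarith

/-- Partition of a measure along a finite-valued map. -/
lemma preimage_sum (hy : Function.Injective y) {T : EE d → EE d} (hT : Measurable T)
    (hTc : ∀ x, ∃ a, T x = y a ∧ x ∈ lagCell y c a) (s : Set (EE d)) (hs : MeasurableSet s) :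
    ρ (T ⁻¹' s) = ∑ a, ρ (T ⁻¹' {y a}) * s.indicator 1 (y a) := by
  classical
  have hcover : T ⁻¹' s = ⋃ a ∈ (Finset.univ : Finset I), T ⁻¹' (s ∩ {y a}) := by
    ext x
    simp only [mem_preimage, Finset.mem_univ, iUnion_true, mem_iUnion, mem_inter_iff,
      mem_singleton_iff]
    constructor
    · intro hx
      obtain ⟨a, ha, -⟩ := hTc x
      exact ⟨a, hx, ha⟩
    · rintro ⟨a, hx, -⟩
      exact hx
  rw [hcover, measure_biUnion_finset]
  · refine Finset.sum_congr rfl fun a _ => ?_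
    by_cases ha : y a ∈ s
    · have : s ∩ {y a} = {y a} := by
        ext z; simp only [mem_inter_iff, mem_singleton_iff]
        constructor
        · exact fun h => h.2
        · exact fun h => ⟨h ▸ ha, h⟩
      rw [this, indicator_of_mem ha]; simp
    · have : s ∩ {y a} = ∅ := by
        ext z; simp only [mem_inter_iff, mem_singleton_iff, mem_empty_iff_false, iff_false]
        rintro ⟨h1, h2⟩; exact ha (h2 ▸ h1)
      rw [this, indicator_of_notMem ha]; simp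
  · intro a _ b _ hab
    refine Disjoint.preimage _ ?_
    rw [Set.disjoint_left]
    rintro z ⟨-, h1⟩ ⟨-, h2⟩
    exact hab (hy ((mem_singleton_iff.1 h1).symm.trans (mem_singleton_iff.1 h2)))
  · intro a _
    exact hT (hs.inter (measurableSet_singleton _))

lemma map_eq_sum (hy : Function.Injective y) {T : EE d → EE d} (hT : Measurable T)
    (hTc : ∀ x, ∃ a, T x = y a ∧ x ∈ lagCell y c a) :
    ρ.map T = ∑ a, (ρ (T ⁻¹' {y a})) • Measure.dirac (y a) := by
  ext s hs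
  rw [Measure.map_apply hT hs, preimage_sum ρ hy hT hTc s hs, Measure.finset_sum_apply]
  refine Finset.sum_congr rfl fun a _ => ?_
  simp [Measure.dirac_apply' _ hs]

lemma sum_masses (hy : Function.Injective y) {T : EE d → EE d} (hT : Measurable T)
    (hTc : ∀ x, ∃ a, T x = y a ∧ x ∈ lagCell y c a) :
    ∑ a, ρ (T ⁻¹' {y a}) = 1 := by
  have h := preimage_sum ρ hy hT hTc univ MeasurableSet.univ
  simp only [preimage_univ, measure_univ, indicator_univ, Pi.one_apply, mul_one] at h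
  exact h.symm

end Lag

/-! ### The construction -/

section Construction

variable (i₀ i₁ : Fin d)

/-- Unit coordinate vector. -/
noncomputable def ee (i : Fin d) : EE d := EuclideanSpace.single i (1 : ℝ)

/-- Atoms of `ν`. -/
noncomputable def yN (δ : ℝ) : Fin 3 → EE d := ![-(ee i₀), δ • ee i₁, ee i₀]

/-- Weights of `ν`. -/
noncomputable def cN (ε : ℝ) : Fin 3 → ℝ := ![ε, 0, ε]

/-- Atoms of `μ`. -/
noncomputable def yM : Fin 3 → EE d := ![-(ee i₀), 0, ee i₀]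

/-- Weights of `μ`. -/
noncomputable def cM (sa sb : ℝ) : Fin 3 → ℝ := ![sa, 0, sb]

variable {i₀ i₁}

lemma inner_ee (x : EE d) (i : Fin d) : ⟪x, ee i⟫ = x i := by
  simp [ee, EuclideanSpace.inner_single_right]

lemma N_val0 (x : EE d) (δ ε : ℝ) : ⟪x, yN i₀ i₁ δ 0⟫ - cN ε 0 = - x i₀ - ε := by
  simp [yN, cN, inner_neg_right, inner_ee]

lemma N_val1 (x : EE d) (δ ε : ℝ) : ⟪x, yN i₀ i₁ δ 1⟫ - cN ε 1 = δ * x i₁ := by
  simp [yN, cN, inner_smul_right, inner_ee]

lemma N_val2 (x : EE d) (δ ε : ℝ) : ⟪x, yN i₀ i₁ δ 2⟫ - cN ε 2 = x i₀ - ε := by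
  simp [yN, cN, inner_ee]

lemma M_val0 (x : EE d) (sa sb : ℝ) : ⟪x, yM i₀ 0⟫ - cM sa sb 0 = - x i₀ - sa := by
  simp [yM, cM, inner_neg_right, inner_ee]

lemma M_val1 (x : EE d) (sa sb : ℝ) : ⟪x, yM i₀ 1⟫ - cM sa sb 1 = 0 := by
  simp [yM, cM]

lemma M_val2 (x : EE d) (sa sb : ℝ) : ⟪x, yM i₀ 2⟫ - cM sa sb 2 = x i₀ - sb := by
  simp [yM, cM, inner_ee]

lemma ee_apply_self (i : Fin d) : (ee i) i = 1 := by
  simp [ee]

lemma ee_apply_ne {i j : Fin d} (h : j ≠ i) : (ee i) j = 0 := by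
  simp [ee, h]

lemma inj_of_coord (y : Fin 3 → EE d) (h0 : y 0 i₀ = -1) (h1 : y 1 i₀ = 0) (h2 : y 2 i₀ = 1) :
    Function.Injective y := by
  intro a b hab
  have hc : y a i₀ = y b i₀ := by rw [hab]
  fin_cases a <;> fin_cases b <;> first
    | rfl
    | (exfalso; simp only [Fin.zero_eta, Fin.mk_one, Fin.reduceFinMk, h0, h1, h2] at hc; norm_num at hc)

lemma yN_coord0 (δ : ℝ) : yN i₀ i₁ δ 0 i₀ = -1 := by
  simp [yN, ee_apply_self]

lemma yN_coord1 (h01 : i₀ ≠ i₁) (δ : ℝ) : yN i₀ i₁ δ 1 i₀ = 0 := by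
  simp [yN, ee_apply_ne h01]

lemma yN_coord2 (δ : ℝ) : yN i₀ i₁ δ 2 i₀ = 1 := by
  simp [yN, ee_apply_self]

lemma yM_coord0 : yM i₀ 0 i₀ = -1 := by
  simp [yM, ee_apply_self]

lemma yM_coord1 : yM i₀ 1 i₀ = 0 := by
  simp [yM]

lemma yM_coord2 : yM i₀ 2 i₀ = 1 := by
  simp [yM, ee_apply_self]

lemma yN_inj (h01 : i₀ ≠ i₁) (δ : ℝ) : Function.Injective (yN i₀ i₁ δ) :=
  inj_of_coord (i₀ := i₀) _ (yN_coord0 δ) (yN_coord1 h01 δ) (yN_coord2 δ)

lemma yM_inj : Function.Injective (yM i₀) :=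
  inj_of_coord (i₀ := i₀) _ yM_coord0 yM_coord1 yM_coord2

lemma m1_Ici {s : ℝ} (hs : -1 ≤ s) (hs1 : s ≤ 1) :
    m1 (Ici s) = ENNReal.ofReal ((1 - s) / 2) := by
  have : Ici s ∩ Icc (-1 : ℝ) 1 = Icc s 1 := by
    ext x; simp only [mem_inter_iff, mem_Ici, mem_Icc]
    constructor
    · exact fun h => ⟨h.1, h.2.2⟩
    · exact fun h => ⟨h.1, by linarith [h.1], h.2⟩
  rw [m1, this, Real.volume_Icc, ENNReal.ofReal_div_of_pos (by norm_num)]
  simp

lemma m1_Iic {s : ℝ} (hs : -1 ≤ s) (hs1 : s ≤ 1) :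
    m1 (Iic s) = ENNReal.ofReal ((s + 1) / 2) := by
  have : Iic s ∩ Icc (-1 : ℝ) 1 = Icc (-1) s := by
    ext x; simp only [mem_inter_iff, mem_Iic, mem_Icc]
    constructor
    · exact fun h => ⟨h.2.1, h.1⟩
    · exact fun h => ⟨h.2, h.1, by linarith [h.2]⟩
  rw [m1, this, Real.volume_Icc, ENNReal.ofReal_div_of_pos (by norm_num)]
  simp [sub_neg_eq_add]

lemma m1_Icc {p q : ℝ} (hp : -1 ≤ p) (hq : q ≤ 1) (hpq : p ≤ q) :
    m1 (Icc p q) = ENNReal.ofReal ((q - p) / 2) := by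
  have : Icc p q ∩ Icc (-1 : ℝ) 1 = Icc p q := by
    ext x; simp only [mem_inter_iff, mem_Icc]
    constructor
    · exact fun h => h.1
    · exact fun h => ⟨h, by linarith [h.1], by linarith [h.2]⟩
  rw [m1, this, Real.volume_Icc, ENNReal.ofReal_div_of_pos (by norm_num)]
  simp

/-- Choice of the parameter. -/
lemma exists_eps (α : ℝ) (hα : 1 / 3 < α) (C : ℝ≥0) :
    ∃ ε : ℝ, 0 < ε ∧ ε ≤ 1 / 4 ∧ (C : ℝ) * (3 * ε ^ 3 / 8) ^ α < ε / 2 / 16 := by
  set γ : ℝ := 3 * α - 1 with hγ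
  have hγpos : 0 < γ := by rw [hγ]; linarith
  set B : ℝ := 1 / (64 * ((C : ℝ) + 1)) with hB
  have hC : (0 : ℝ) ≤ C := C.2
  have hBpos : 0 < B := by rw [hB]; positivity
  set ε : ℝ := min (1 / 4) (B ^ (1 / γ)) with hε
  have hεpos : 0 < ε := lt_min (by norm_num) (Real.rpow_pos_of_pos hBpos _)
  have hε1 : ε ≤ 1 / 4 := min_le_left _ _
  have hε2 : ε ^ γ ≤ B := by
    have h1 : ε ≤ B ^ (1 / γ) := min_le_right _ _
    calc ε ^ γ ≤ (B ^ (1 / γ)) ^ γ := Real.rpow_le_rpow hεpos.le h1 hγpos.le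
      _ = B := by
        rw [← Real.rpow_mul hBpos.le, one_div, inv_mul_cancel₀ hγpos.ne', Real.rpow_one]
  refine ⟨ε, hεpos, hε1, ?_⟩
  have hαpos : 0 < α := by linarith
  have h3 : (3 * ε ^ 3 / 8) ^ α ≤ ε * ε ^ γ := by
    have h4 : 3 * ε ^ 3 / 8 ≤ ε ^ 3 := by
      have : 0 < ε ^ 3 := by positivity
      linarith
    calc (3 * ε ^ 3 / 8) ^ α ≤ (ε ^ 3) ^ α := Real.rpow_le_rpow (by positivity) h4 hαpos.le
      _ = ε ^ ((3 : ℝ) * α) := by
        rw [← Real.rpow_natCast ε 3, ← Real.rpow_mul hεpos.le]; norm_num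
      _ = ε * ε ^ γ := by
        rw [hγ, Real.rpow_sub hεpos, Real.rpow_one]
        field_simp
  have h5 : (C : ℝ) * (3 * ε ^ 3 / 8) ^ α ≤ C * (ε * B) := by
    apply mul_le_mul_of_nonneg_left _ hC
    exact h3.trans (mul_le_mul_of_nonneg_left hε2 hεpos.le)
  have h6 : (C : ℝ) * (ε * B) < ε / 2 / 16 := by
    have h7 : (C : ℝ) * B < 1 / 32 := by
      rw [hB]
      rw [mul_one_div, div_lt_div_iff₀ (by positivity) (by norm_num)]
      nlinarith
    nlinarith
  exact lt_of_le_of_lt h5 h6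

lemma fin3_cases (a : Fin 3) : a = 0 ∨ a = 1 ∨ a = 2 := by
  fin_cases a <;> simp

lemma N0 {x : EE d} {δ ε : ℝ} (hx : x ∈ lagCell (yN i₀ i₁ δ) (cN ε) 0) :
    δ * x i₁ ≤ - x i₀ - ε ∧ x i₀ - ε ≤ - x i₀ - ε := by
  have h1 := hx 1
  have h2 := hx 2
  rw [N_val1, N_val0] at h1
  rw [N_val2, N_val0] at h2
  exact ⟨h1, h2⟩

lemma N1 {x : EE d} {δ ε : ℝ} (hx : x ∈ lagCell (yN i₀ i₁ δ) (cN ε) 1) :
    - x i₀ - ε ≤ δ * x i₁ ∧ x i₀ - ε ≤ δ * x i₁ := by
  have h1 := hx 0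
  have h2 := hx 2
  rw [N_val1, N_val0] at h1
  rw [N_val2, N_val1] at h2
  exact ⟨h1, h2⟩

lemma N2 {x : EE d} {δ ε : ℝ} (hx : x ∈ lagCell (yN i₀ i₁ δ) (cN ε) 2) :
    - x i₀ - ε ≤ x i₀ - ε ∧ δ * x i₁ ≤ x i₀ - ε := by
  have h1 := hx 0
  have h2 := hx 1
  rw [N_val2, N_val0] at h1
  rw [N_val2, N_val1] at h2
  exact ⟨h1, h2⟩

lemma M0 {x : EE d} {sa sb : ℝ} (hx : x ∈ lagCell (yM i₀) (cM sa sb) 0) :
    0 ≤ - x i₀ - sa ∧ x i₀ - sb ≤ - x i₀ - sa := by
  have h1 := hx 1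
  have h2 := hx 2
  rw [M_val1, M_val0] at h1
  rw [M_val2, M_val0] at h2
  exact ⟨h1, h2⟩

lemma M1 {x : EE d} {sa sb : ℝ} (hx : x ∈ lagCell (yM i₀) (cM sa sb) 1) :
    - x i₀ - sa ≤ 0 ∧ x i₀ - sb ≤ 0 := by
  have h1 := hx 0
  have h2 := hx 2
  rw [M_val1, M_val0] at h1
  rw [M_val2, M_val1] at h2
  exact ⟨h1, h2⟩

lemma M2 {x : EE d} {sa sb : ℝ} (hx : x ∈ lagCell (yM i₀) (cM sa sb) 2) :
    - x i₀ - sa ≤ x i₀ - sb ∧ 0 ≤ x i₀ - sb := by
  have h1 := hx 0
  have h2 := hx 1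
  rw [M_val2, M_val0] at h1
  rw [M_val2, M_val1] at h2
  exact ⟨h1, h2⟩

lemma coord_le_one {x : EE d} (hx : x ∈ cube d) (i : Fin d) : - 1 ≤ x i ∧ x i ≤ 1 :=
  abs_le.1 (hx i)

lemma norm_le_of_cube {x : EE d} (hx : x ∈ cube d) : ‖x‖ ≤ √(d : ℝ) := by
  apply Real.le_sqrt_of_sq_le
  rw [EuclideanSpace.norm_sq_eq]
  calc ∑ i, ‖x i‖ ^ 2 ≤ ∑ _i : Fin d, (1 : ℝ) := by
        refine Finset.sum_le_sum fun i _ => ?_
        rw [Real.norm_eq_abs, sq_abs]
        have := coord_le_one hx i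
        nlinarith [this.1, this.2]
    _ = d := by simp

lemma cost_ne_top {T : EE d → EE d} (B : ℝ) (hB : ∀ x, ‖T x‖ ≤ B) :
    ∫⁻ x, ‖x - T x‖ₑ ^ 2 ∂(rhoC d) ≠ ⊤ := by
  have hbd : ∀ᵐ x ∂(rhoC d), ‖x - T x‖ₑ ^ 2 ≤ ENNReal.ofReal ((√(d : ℝ) + B) ^ 2) := by
    filter_upwards [ae_mem_cube] with x hx
    rw [← enorm_pow_two_helper]
    apply ENNReal.ofReal_le_ofReal
    apply pow_le_pow_left₀ (norm_nonneg _)
    calc ‖x - T x‖ ≤ ‖x‖ + ‖T x‖ := norm_sub_le _ _
      _ ≤ √(d : ℝ) + B := add_le_add (norm_le_of_cube hx) (hB x)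
  refine ne_of_lt (lt_of_le_of_lt (lintegral_mono_ae hbd) ?_)
  simp

lemma one_le_enorm_sq {v : EE d} (i : Fin d) (h : 1 ≤ |v i|) : 1 ≤ ‖v‖ₑ ^ 2 := by
  have h1 : 1 ≤ ‖v‖ := by
    calc (1 : ℝ) ≤ |v i| := h
      _ = ‖v i‖ := (Real.norm_eq_abs _).symm
      _ ≤ ‖v‖ := PiLp.norm_apply_le v i
  rw [← enorm_pow_two_helper]
  exact ENNReal.one_le_ofReal.2 (one_le_pow₀ h1)

lemma ee_abs_le (i j : Fin d) : |(ee i) j| ≤ 1 := by
  by_cases h : j = i
  · subst h; simp [ee_apply_self]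
  · simp [ee_apply_ne h]

lemma yM_mem_cube (a : Fin 3) : yM i₀ a ∈ cube d := by
  intro j
  rcases fin3_cases a with rfl | rfl | rfl
  · simpa [yM] using ee_abs_le i₀ j
  · simp [yM]
  · simpa [yM] using ee_abs_le i₀ j

lemma yN_mem_cube {δ : ℝ} (h0 : 0 ≤ δ) (h1 : δ ≤ 1) (a : Fin 3) : yN i₀ i₁ δ a ∈ cube d := by
  intro j
  rcases fin3_cases a with rfl | rfl | rfl
  · simpa [yN] using ee_abs_le i₀ j
  · have : (yN i₀ i₁ δ 1) j = δ * (ee i₁) j := by simp [yN]
    rw [this, abs_mul, abs_of_nonneg h0]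
    have := ee_abs_le i₁ j
    have h2 : 0 ≤ |(ee i₁) j| := abs_nonneg _
    nlinarith
  · simpa [yN] using ee_abs_le i₀ j

/-- Push-forward rewritten with real weights. -/
lemma sum_dirac_compl_zero (y : Fin 3 → EE d) (m : Fin 3 → ℝ) (hy : ∀ a, y a ∈ cube d) :
    (∑ a, ENNReal.ofReal (m a) • Measure.dirac (y a)) (cube d)ᶜ = 0 := by
  rw [Measure.finset_sum_apply]
  refine Finset.sum_eq_zero fun a _ => ?_
  simp only [Measure.smul_apply, smul_eq_mul]
  rw [Measure.dirac_apply' _ measurableSet_cube.compl]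
  simp [hy a]

/-- The main construction. -/
theorem main (hd : 2 ≤ d) (α : ℝ) (hα : 1 / 3 < α) (C : ℝ≥0) :
    ∃ μ ν : Measure (EE d),
      IsProbabilityOn (cube d) μ ∧ IsProbabilityOn (cube d) ν ∧ IsThreeAtomic μ ∧ IsThreeAtomic ν ∧
      (∃ T, IsOptimalMap (rhoC d) μ T) ∧ (∃ T, IsOptimalMap (rhoC d) ν T) ∧
      ∀ Tμ Tν : EE d → EE d, IsOptimalMap (rhoC d) μ Tμ → IsOptimalMap (rhoC d) ν Tν →
        ∃ π : Measure (EE d × EE d), IsPairCoupling μ ν π ∧
          (C : ℝ≥0∞) * quadCost π ^ α < ∫⁻ x, ‖Tμ x - Tν x‖ₑ ^ 2 ∂(rhoC d) := by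
  classical
  let i₀ : Fin d := ⟨0, by omega⟩
  let i₁ : Fin d := ⟨1, by omega⟩
  have h01 : i₀ ≠ i₁ := by
    intro h
    have := congrArg Fin.val h
    simp [i₀, i₁] at this
  obtain ⟨ε, hεpos, hε1, hsmall⟩ := exists_eps α hα C
  set δ : ℝ := ε / 2 with hδ
  have hδpos : 0 < δ := by rw [hδ]; linarith
  have hδle : δ ≤ 1 := by rw [hδ]; linarith
  set yn := yN i₀ i₁ δ with hyn
  set cn := cN ε with hcn
  have hyn_inj : Function.Injective yn := yN_inj h01 δ
  obtain ⟨Tn, hTnm, hTnc⟩ := exists_lagMap yn cn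
  -- the masses of `ν`
  set ρ := rhoC d with hρ
  set m : Fin 3 → ℝ := fun a => (ρ (Tn ⁻¹' {yn a})).toReal with hm
  have hMn : ∀ a, ρ (Tn ⁻¹' {yn a}) = ENNReal.ofReal (m a) := fun a => by
    rw [hm, ENNReal.ofReal_toReal (measure_ne_top _ _)]
  have hm_nonneg : ∀ a, 0 ≤ m a := fun a => ENNReal.toReal_nonneg
  have hsum : m 0 + m 1 + m 2 = 1 := by
    have h := sum_masses ρ hyn_inj hTnm hTnc
    rw [Fin.sum_univ_three] at h
    have h2 := congrArg ENNReal.toReal h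
    rw [ENNReal.toReal_add (by simp [measure_ne_top]) (measure_ne_top _ _),
      ENNReal.toReal_add (measure_ne_top _ _) (measure_ne_top _ _)] at h2
    simpa [hm] using h2
  -- characterisation of the index
  have hTnidx : ∀ x a, Tn x = yn a → x ∈ lagCell yn cn a := by
    intro x a hx
    obtain ⟨b, hb, hbc⟩ := hTnc x
    have : a = b := hyn_inj (hx.symm.trans hb)
    rw [this]; exact hbc
  -- lower bounds for the masses of `ν`
  have hm2pos : 0 < m 2 := by
    have hsub : {x : EE d | x i₀ ∈ Ioi (ε + δ)} ≤ᵐ[ρ] Tn ⁻¹' {yn 2} := by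
      filter_upwards [ae_mem_cube] with x hx
      intro (hx0 : x i₀ ∈ Ioi (ε + δ))
      simp only [mem_Ioi] at hx0
      obtain ⟨a, ha, hac⟩ := hTnc x
      have hx1 := coord_le_one hx i₁
      rcases fin3_cases a with rfl | rfl | rfl
      · have := (N0 hac).2; exfalso; linarith
      · have := (N1 hac).2; exfalso; nlinarith [hx1.2]
      · exact ha
    have h1 := measure_mono_ae hsub
    rw [rhoC_one i₀ _ measurableSet_Ioi, m1_Ioi (by linarith) (by linarith), hMn] at h1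
    have h2 := (ENNReal.ofReal_le_ofReal_iff (hm_nonneg 2)).1 h1
    linarith
  have hm0pos : 0 < m 0 := by
    have hsub : {x : EE d | x i₀ ∈ Iio (-(ε + δ))} ≤ᵐ[ρ] Tn ⁻¹' {yn 0} := by
      filter_upwards [ae_mem_cube] with x hx
      intro (hx0 : x i₀ ∈ Iio (-(ε + δ)))
      simp only [mem_Iio] at hx0
      obtain ⟨a, ha, hac⟩ := hTnc x
      have hx1 := coord_le_one hx i₁
      rcases fin3_cases a with rfl | rfl | rfl
      · exact ha
      · have := (N1 hac).1; exfalso; nlinarith [hx1.2]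
      · have := (N2 hac).1; exfalso; linarith
    have h1 := measure_mono_ae hsub
    rw [rhoC_one i₀ _ measurableSet_Iio, m1_Iio (by linarith) (by linarith), hMn] at h1
    have h2 := (ENNReal.ofReal_le_ofReal_iff (hm_nonneg 0)).1 h1
    linarith
  have hm1pos : 0 < m 1 := by
    have hsub : {x : EE d | x i₀ ∈ Ioo (-(ε - δ)) (ε - δ)} ≤ᵐ[ρ] Tn ⁻¹' {yn 1} := by
      filter_upwards [ae_mem_cube] with x hx
      intro (hx0 : x i₀ ∈ Ioo (-(ε - δ)) (ε - δ))
      simp only [mem_Ioo] at hx0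
      obtain ⟨a, ha, hac⟩ := hTnc x
      have hx1 := coord_le_one hx i₁
      rcases fin3_cases a with rfl | rfl | rfl
      · have := (N0 hac).1; exfalso; nlinarith [hx1.1, hx0.1]
      · exact ha
      · have := (N2 hac).2; exfalso; nlinarith [hx1.1, hx0.2]
    have h1 := measure_mono_ae hsub
    rw [rhoC_one i₀ _ measurableSet_Ioo, m1_Ioo (by linarith) (by linarith) (by linarith), hMn] at h1
    have h2 := (ENNReal.ofReal_le_ofReal_iff (hm_nonneg 1)).1 h1
    linarith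
  -- upper bound for the middle mass
  have hm1le : m 1 ≤ ε + δ := by
    have hsub : Tn ⁻¹' {yn 1} ≤ᵐ[ρ] {x : EE d | x i₀ ∈ Icc (-(ε + δ)) (ε + δ)} := by
      filter_upwards [ae_mem_cube] with x hx hxT
      have hc := hTnidx x 1 hxT
      have hx1 := coord_le_one hx i₁
      have h3 := N1 hc
      show x i₀ ∈ Icc (-(ε + δ)) (ε + δ)
      constructor
      · nlinarith [h3.1, hx1.2]
      · nlinarith [h3.2, hx1.2]
    have h1 := measure_mono_ae hsub
    rw [rhoC_one i₀ _ measurableSet_Icc, m1_Icc (by linarith) (by linarith) (by linarith), hMn] at h1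
    have h2 := (ENNReal.ofReal_le_ofReal_iff (by linarith)).1 h1
    linarith
  -- thresholds for `μ`
  set sa : ℝ := 1 - 2 * m 0 with hsa
  set sb : ℝ := 1 - 2 * m 2 with hsb
  have hsab : 0 ≤ sa + sb := by rw [hsa, hsb]; linarith
  have hsa1 : -1 ≤ sa ∧ sa ≤ 1 := by
    rw [hsa]; constructor <;> linarith
  have hsb1 : -1 ≤ sb ∧ sb ≤ 1 := by
    rw [hsb]; constructor <;> linarith
  obtain ⟨Tm, hTmm, hTmc⟩ := exists_lagMap (yM i₀) (cM sa sb)
  have hym_inj : Function.Injective (yM i₀) := yM_inj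
  have hTmidx : ∀ x a, Tm x = yM i₀ a → x ∈ lagCell (yM i₀) (cM sa sb) a := by
    intro x a hx
    obtain ⟨b, hb, hbc⟩ := hTmc x
    have : a = b := hym_inj (hx.symm.trans hb)
    rw [this]; exact hbc
  have hMm2 : ρ (Tm ⁻¹' {yM i₀ 2}) = ENNReal.ofReal (m 2) := by
    have heq : (1 - sb) / 2 = m 2 := by rw [hsb]; ring
    apply le_antisymm
    · have hsub : Tm ⁻¹' {yM i₀ 2} ⊆ {x : EE d | x i₀ ∈ Ici sb} := by
        intro x hxT
        have := (M2 (hTmidx x 2 hxT)).2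
        show sb ≤ x i₀
        linarith
      have h1 := measure_mono (μ := ρ) hsub
      rwa [rhoC_one i₀ _ measurableSet_Ici, m1_Ici hsb1.1 hsb1.2, heq] at h1
    · have hsub : {x : EE d | x i₀ ∈ Ioi sb} ⊆ Tm ⁻¹' {yM i₀ 2} := by
        intro x (hx0 : sb < x i₀)
        obtain ⟨a, ha, hac⟩ := hTmc x
        rcases fin3_cases a with rfl | rfl | rfl
        · have := (M0 hac).2; exfalso; linarith
        · have := (M1 hac).2; exfalso; linarith
        · exact ha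
      have h1 := measure_mono (μ := ρ) hsub
      rwa [rhoC_one i₀ _ measurableSet_Ioi, m1_Ioi hsb1.1 hsb1.2, heq] at h1
  have hMm0 : ρ (Tm ⁻¹' {yM i₀ 0}) = ENNReal.ofReal (m 0) := by
    have heq : (-sa + 1) / 2 = m 0 := by rw [hsa]; ring
    apply le_antisymm
    · have hsub : Tm ⁻¹' {yM i₀ 0} ⊆ {x : EE d | x i₀ ∈ Iic (-sa)} := by
        intro x hxT
        have := (M0 (hTmidx x 0 hxT)).1
        show x i₀ ≤ -sa
        linarith
      have h1 := measure_mono (μ := ρ) hsub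
      rwa [rhoC_one i₀ _ measurableSet_Iic, m1_Iic (by linarith [hsa1.2]) (by linarith [hsa1.1]), heq]
        at h1
    · have hsub : {x : EE d | x i₀ ∈ Iio (-sa)} ⊆ Tm ⁻¹' {yM i₀ 0} := by
        intro x (hx0 : x i₀ < -sa)
        obtain ⟨a, ha, hac⟩ := hTmc x
        rcases fin3_cases a with rfl | rfl | rfl
        · exact ha
        · have := (M1 hac).1; exfalso; linarith
        · have := (M2 hac).1; exfalso; linarith
      have h1 := measure_mono (μ := ρ) hsub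
      rwa [rhoC_one i₀ _ measurableSet_Iio, m1_Iio (by linarith [hsa1.2]) (by linarith [hsa1.1]), heq]
        at h1
  have hMm1 : ρ (Tm ⁻¹' {yM i₀ 1}) = ENNReal.ofReal (m 1) := by
    have h := sum_masses ρ hym_inj hTmm hTmc
    rw [Fin.sum_univ_three, hMm0, hMm2] at h
    have h2 := congrArg ENNReal.toReal h
    rw [ENNReal.toReal_add (by simp [measure_ne_top]) (by simp),
      ENNReal.toReal_add (by simp) (measure_ne_top _ _), ENNReal.toReal_ofReal (hm_nonneg 0),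
      ENNReal.toReal_ofReal (hm_nonneg 2)] at h2
    have h3 : (ρ (Tm ⁻¹' {yM i₀ 1})).toReal = m 1 := by
      simp only [ENNReal.toReal_one] at h2
      linarith
    rw [← h3, ENNReal.ofReal_toReal (measure_ne_top _ _)]
  -- the measures
  set μ : Measure (EE d) := ∑ a, ENNReal.ofReal (m a) • Measure.dirac (yM i₀ a) with hμdef
  set ν : Measure (EE d) := ∑ a, ENNReal.ofReal (m a) • Measure.dirac (yn a) with hνdef
  have hmapM : ρ.map Tm = μ := by
    rw [map_eq_sum ρ hym_inj hTmm hTmc, hμdef, Fin.sum_univ_three, Fin.sum_univ_three, hMm0, hMm1,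
      hMm2]
  have hmapN : ρ.map Tn = ν := by
    rw [map_eq_sum ρ hyn_inj hTnm hTnc, hνdef, Fin.sum_univ_three, Fin.sum_univ_three, hMn, hMn, hMn]
  have hprobM : IsProbabilityMeasure μ := by
    rw [← hmapM]; exact Measure.isProbabilityMeasure_map hTmm.aemeasurable
  have hprobN : IsProbabilityMeasure ν := by
    rw [← hmapN]; exact Measure.isProbabilityMeasure_map hTnm.aemeasurable
  have hm_pos : ∀ a, 0 < m a := fun a => by
    rcases fin3_cases a with rfl | rfl | rfl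
    · exact hm0pos
    · exact hm1pos
    · exact hm2pos
  have hoptM : IsOptimalMap ρ μ Tm := ⟨hTmm, hmapM, fun S hS hSm =>
    (lag_compare ρ hym_inj hTmm hS hTmc (hSm.trans hmapM.symm)).1⟩
  have hoptN : IsOptimalMap ρ ν Tn := ⟨hTnm, hmapN, fun S hS hSm =>
    (lag_compare ρ hyn_inj hTnm hS hTnc (hSm.trans hmapN.symm)).1⟩
  have hcM : ∫⁻ x, ‖x - Tm x‖ₑ ^ 2 ∂ρ ≠ ⊤ := by
    refine cost_ne_top (∑ a, ‖yM i₀ a‖) fun x => ?_
    obtain ⟨a, ha, -⟩ := hTmc x
    rw [ha]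
    exact Finset.single_le_sum (f := fun a => ‖yM i₀ a‖) (fun _ _ => norm_nonneg _) (Finset.mem_univ a)
  have hcN : ∫⁻ x, ‖x - Tn x‖ₑ ^ 2 ∂ρ ≠ ⊤ := by
    refine cost_ne_top (∑ a, ‖yn a‖) fun x => ?_
    obtain ⟨a, ha, -⟩ := hTnc x
    rw [ha]
    exact Finset.single_le_sum (f := fun a => ‖yn a‖) (fun _ _ => norm_nonneg _) (Finset.mem_univ a)
  refine ⟨μ, ν, ⟨hprobM, sum_dirac_compl_zero _ _ yM_mem_cube⟩,
    ⟨hprobN, sum_dirac_compl_zero _ _ (yN_mem_cube hδpos.le hδle)⟩,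
    ⟨yM i₀, hym_inj, m, hm_pos, rfl⟩, ⟨yn, hyn_inj, m, hm_pos, rfl⟩, ⟨Tm, hoptM⟩, ⟨Tn, hoptN⟩, ?_⟩
  intro Tμ Tν hμ hν
  have ae1 := (lag_compare ρ hym_inj hTmm hμ.1 hTmc (hμ.2.1.trans hmapM.symm)).2 hcM
    (hμ.2.2 Tm hTmm hmapM)
  have ae2 := (lag_compare ρ hyn_inj hTnm hν.1 hTnc (hν.2.1.trans hmapN.symm)).2 hcN
    (hν.2.2 Tn hTnm hmapN)
  -- the coupling
  let π : Measure (EE d × EE d) :=
    ENNReal.ofReal (m 0) • Measure.dirac (yM i₀ 0, yn 0) +
    ENNReal.ofReal (m 1) • Measure.dirac (yM i₀ 1, yn 1) +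
    ENNReal.ofReal (m 2) • Measure.dirac (yM i₀ 2, yn 2)
  have hπ : IsPairCoupling μ ν π := by
    constructor
    · simp only [π, hμdef, Fin.sum_univ_three]
      rw [Measure.map_add _ _ measurable_fst, Measure.map_add _ _ measurable_fst,
        Measure.map_smul, Measure.map_smul, Measure.map_smul,
        Measure.map_dirac' (measurable_fst : Measurable (Prod.fst : EE d × EE d → EE d)),
        Measure.map_dirac' (measurable_fst : Measurable (Prod.fst : EE d × EE d → EE d)),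
        Measure.map_dirac' (measurable_fst : Measurable (Prod.fst : EE d × EE d → EE d))]
    · simp only [π, hνdef, Fin.sum_univ_three]
      rw [Measure.map_add _ _ measurable_snd, Measure.map_add _ _ measurable_snd,
        Measure.map_smul, Measure.map_smul, Measure.map_smul,
        Measure.map_dirac' (measurable_snd : Measurable (Prod.snd : EE d × EE d → EE d)),
        Measure.map_dirac' (measurable_snd : Measurable (Prod.snd : EE d × EE d → EE d)),
        Measure.map_dirac' (measurable_snd : Measurable (Prod.snd : EE d × EE d → EE d))]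
  refine ⟨π, hπ, ?_⟩
  -- its cost
  have hfm : Measurable fun p : EE d × EE d => ‖p.1 - p.2‖ₑ ^ 2 :=
    ((measurable_fst.sub measurable_snd).enorm).pow_const 2
  have h00 : yM i₀ 0 = yn 0 := by simp [yM, hyn, yN]
  have h22 : yM i₀ 2 = yn 2 := by simp [yM, hyn, yN]
  have h11 : ‖yM i₀ 1 - yn 1‖ₑ ^ 2 = ENNReal.ofReal (δ ^ 2) := by
    rw [← enorm_pow_two_helper]
    congr 1
    have : yM i₀ 1 - yn 1 = -(δ • ee i₁) := by simp [yM, hyn, yN]
    rw [this, norm_neg, norm_smul, Real.norm_eq_abs, abs_of_pos hδpos]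
    simp [ee]
  have hcost : quadCost π = ENNReal.ofReal (m 1) * ENNReal.ofReal (δ ^ 2) := by
    unfold quadCost
    simp only [π]
    rw [lintegral_add_measure, lintegral_add_measure, lintegral_smul_measure,
      lintegral_smul_measure, lintegral_smul_measure, lintegral_dirac' _ hfm,
      lintegral_dirac' _ hfm, lintegral_dirac' _ hfm]
    simp only [h00, h22, sub_self, enorm_zero, ne_eq, OfNat.ofNat_ne_zero, not_false_eq_true,
      zero_pow, smul_eq_mul, mul_zero, add_zero, zero_add, h11]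
  have hcost2 : quadCost π ≤ ENNReal.ofReal (3 * ε ^ 3 / 8) := by
    rw [hcost, ← ENNReal.ofReal_mul (hm_nonneg 1)]
    apply ENNReal.ofReal_le_ofReal
    have : m 1 * δ ^ 2 ≤ (ε + δ) * δ ^ 2 := mul_le_mul_of_nonneg_right hm1le (sq_nonneg _)
    have h2 : (ε + δ) * δ ^ 2 = 3 * ε ^ 3 / 8 := by rw [hδ]; ring
    linarith
  have hαpos : 0 < α := by linarith
  have hleft : (C : ℝ≥0∞) * quadCost π ^ α < ENNReal.ofReal (δ / 16) := by
    calc (C : ℝ≥0∞) * quadCost π ^ α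
        ≤ (C : ℝ≥0∞) * ENNReal.ofReal (3 * ε ^ 3 / 8) ^ α := by
          gcongr
      _ = ENNReal.ofReal ((C : ℝ) * (3 * ε ^ 3 / 8) ^ α) := by
          rw [ENNReal.ofReal_rpow_of_pos (by positivity), ENNReal.ofReal_mul (by positivity),
            ENNReal.ofReal_coe_nnreal]
      _ < ENNReal.ofReal (δ / 16) := by
          apply (ENNReal.ofReal_lt_ofReal_iff (by positivity)).2
          rw [hδ]; exact hsmall
  refine lt_of_lt_of_le hleft ?_
  -- the lower bound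
  have hlow : ∀ (A B : Set ℝ), MeasurableSet A → MeasurableSet B →
      m1 A * m1 B = ENNReal.ofReal (δ / 16) →
      (∀ x, x ∈ cube d → x i₀ ∈ A → x i₁ ∈ B →
        ∀ a' a'', x ∈ lagCell (yM i₀) (cM sa sb) a' → x ∈ lagCell yn cn a'' →
          1 ≤ |(yM i₀ a' - yn a'') i₀|) →
      ENNReal.ofReal (δ / 16) ≤ ∫⁻ x, ‖Tμ x - Tν x‖ₑ ^ 2 ∂ρ := by
    intro A B hA hB hAB hbox
    have hBm : MeasurableSet {x : EE d | x i₀ ∈ A ∧ x i₁ ∈ B} := by
      have h1 : Measurable (fun x : EE d => x i₀) := by fun_prop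
      have h2 : Measurable (fun x : EE d => x i₁) := by fun_prop
      exact (h1 hA).inter (h2 hB)
    rw [← hAB, ← rhoC_two h01 A B hA hB, ← lintegral_indicator_one hBm]
    refine lintegral_mono_ae ?_
    filter_upwards [ae1, ae2, ae_mem_cube] with x h1 h2 h3
    by_cases hx : x ∈ {x : EE d | x i₀ ∈ A ∧ x i₁ ∈ B}
    · rw [indicator_of_mem hx]
      obtain ⟨a', ha', hca'⟩ := h1
      obtain ⟨a'', ha'', hca''⟩ := h2
      rw [ha', ha'']
      exact one_le_enorm_sq i₀ (hbox x h3 hx.1 hx.2 a' a'' hca' hca'')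
    · rw [indicator_of_notMem hx]; exact zero_le
  have hε0 : 0 < ε := hεpos
  have hδε : δ = ε / 2 := hδ
  by_cases hcase : sb ≤ ε
  · -- first box
    refine hlow (Ioo ε (ε + δ / 2)) (Ioo (1 / 2) 1) measurableSet_Ioo measurableSet_Ioo ?_ ?_
    · rw [m1_Ioo (by linarith) (by linarith) (by linarith), m1_Ioo (by norm_num) le_rfl (by norm_num),
        ← ENNReal.ofReal_mul (by linarith)]
      congr 1; ring
    · intro x _ hx0 hx1 a' a'' hca' hca''
      obtain ⟨h0a, h0b⟩ := hx0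
      obtain ⟨h1a, h1b⟩ := hx1
      have hδx : δ / 2 < δ * x i₁ := by nlinarith
      have ha'' : a'' = 1 := by
        rcases fin3_cases a'' with rfl | rfl | rfl
        · have := (N0 hca'').1; exfalso; nlinarith
        · rfl
        · have := (N2 hca'').2; exfalso; nlinarith
      subst ha''
      have hval : yn 1 i₀ = 0 := yN_coord1 h01 δ
      have hsub : ∀ v w : EE d, (v - w) i₀ = v i₀ - w i₀ := fun v w => by simp
      rw [hsub, hval]
      rcases fin3_cases a' with rfl | rfl | rfl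
      · rw [yM_coord0]; norm_num
      · have := (M1 hca').2; exfalso; linarith
      · rw [yM_coord2]; norm_num
  · replace hcase : ε < sb := not_le.1 hcase
    refine hlow (Ioo (ε - δ / 2) ε) (Ioo (-1) (-(1 / 2))) measurableSet_Ioo measurableSet_Ioo ?_ ?_
    · rw [m1_Ioo (by linarith) (by linarith) (by linarith), m1_Ioo le_rfl (by norm_num) (by norm_num),
        ← ENNReal.ofReal_mul (by linarith)]
      congr 1; ring
    · intro x _ hx0 hx1 a' a'' hca' hca''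
      obtain ⟨h0a, h0b⟩ := hx0
      obtain ⟨h1a, h1b⟩ := hx1
      have hδx : δ * x i₁ < -(δ / 2) := by nlinarith
      have ha'' : a'' = 2 := by
        rcases fin3_cases a'' with rfl | rfl | rfl
        · have := (N0 hca'').2; exfalso; linarith
        · have := (N1 hca'').2; exfalso; linarith
        · rfl
      subst ha''
      have hval : yn 2 i₀ = 1 := yN_coord2 δ
      have hsub : ∀ v w : EE d, (v - w) i₀ = v i₀ - w i₀ := fun v w => by simp
      rw [hsub, hval]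
      rcases fin3_cases a' with rfl | rfl | rfl
      · rw [yM_coord0]; norm_num
      · rw [yM_coord1]; norm_num
      · have := (M2 hca').2; exfalso; linarith

end Construction

end Crest.Agent.OTS.S0110Aux
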