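import Crest.Agent.Lib.OTS.SmallMeshAux

/-!
# The key estimate for small mesh (task T3)
See the math write-up in the findings of row 82.
-/

open MeasureTheory Set
open scoped ENNReal RealInnerProductSpace

namespace Crest.Agent.OTS

variable {d : ℕ} {K : Set (EE d)}

open SMAux in
/-- The key estimate: for a matched family of small mesh between `ρ` and `(1+εg)ρ`,
`Qval ≤ C₁ ε² ‖g‖² + C₂ δ²`. -/
theorem qval_le_of_mesh (hK : Body K) :
    ∃ C₁ C₂ δ₀ : ℝ, 0 ≤ C₁ ∧ 0 ≤ C₂ ∧ 0 < δ₀ ∧ ∀ (ε : ℝ) (g : EE d → ℝ), Admissible K ε g →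
      ∀ δ : ℝ, 0 < δ → δ ≤ δ₀ → ∀ (ι : Type) [Fintype ι] (F : MFam (rho K) (tilt K ε g) ι),
        (∀ j, F.A j ⊆ K) → (∀ j, F.B j ⊆ K) → (∑ j, rho K (F.A j)) = 1 →
        (∀ j, ∀ x ∈ F.A j, ∀ x' ∈ F.A j, ‖x - x'‖ ≤ δ) →
        (∀ j, ∀ x ∈ F.B j, ∀ x' ∈ F.B j, ‖x - x'‖ ≤ δ) →
        Qval F ≤ C₁ * ε ^ 2 * (∫ x, g x ^ 2 ∂(rho K)) + C₂ * δ ^ 2 := by
  -- the centre and the radius
  obtain ⟨x₀, hx₀⟩ := hK.interior_nonempty
  obtain ⟨R, hR⟩ := hK.compact.isBounded.subset_closedBall x₀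
  set D : ℝ := |R| + 1 with hDdef
  have hD0 : 0 < D := by positivity
  have hD : ∀ x ∈ K, ‖x - x₀‖ ≤ D := by
    intro x hx
    have := hR hx
    rw [mem_closedBall_iff_norm] at this
    have h2 := le_abs_self R
    linarith
  set κ : ℝ := 1 / (300 * D ^ 2) with hκdef
  have hκ0 : 0 < κ := by positivity
  have hκ : κ * D ^ 2 = 1 / 300 := by
    rw [hκdef]; field_simp
  refine ⟨3456 / κ, 1160, D, by positivity, by norm_num, hD0, ?_⟩
  intro ε g h δ hδ0 hδD ι _ F hAK hBK hsum hmA hmB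
  have := hK.isProb
  have := tilt_isProb hK h
  set Kv := (volume K).toReal with hKv
  have hKvpos : 0 < Kv := volK_pos hK
  have cE := continuous_E κ x₀
  have hKm := hK.measurableSet
  have hEK : IntegrableOn (E κ x₀) K := cE.continuousOn.integrableOn_compact hK.compact
  choose v τ hv0 hca hcb hcc hcd hce hcf using fun j =>
    per_cell hK h x₀ hD0 hD hκ0 hκ hδ0 hδD (F.hA j).1 (F.hB j).1 (hAK j) (hBK j) (F.mass j)
      (hmA j) (hmB j)
  set u : ι → ℝ := fun j => ∫ x in F.A j, E κ x₀ x with hu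
  set u' : ι → ℝ := fun j => ∫ x in F.B j, E κ x₀ x with hu'
  set w : ι → ℝ := fun j => ∫ x in midSet (F.A j) (F.B j), E κ x₀ x with hw
  set Z := ∫ x in K, E κ x₀ x with hZ
  have hZle : Z ≤ Kv := setIntegral_E_le κ hκ0.le x₀ hK.compact
  have hZ0 : 0 ≤ Z := setIntegral_nonneg hKm fun x _ => (E_pos _ _ _).le
  have hu0 : ∀ j, 0 ≤ u j := fun j =>
    setIntegral_nonneg (F.hA j).1.measurableSet fun x _ => (E_pos _ _ _).le
  have hu'0 : ∀ j, 0 ≤ u' j := fun j =>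
    setIntegral_nonneg (F.hB j).1.measurableSet fun x _ => (E_pos _ _ _).le
  have hsu : ∑ j, u j = Z :=
    sum_setIntegral_eq (fun j => (F.hA j).1.measurableSet)
      (fun i j hij => aedisj_A (F.sep i j hij)) hAK (cover_A hK rfl F hsum) hEK
  have hsu' : ∑ j, u' j = Z :=
    sum_setIntegral_eq (fun j => (F.hB j).1.measurableSet)
      (fun i j hij => aedisj_B (F.sep i j hij)) hBK (cover_B hK h F hsum) hEK
  have hmidK : ∀ j, midSet (F.A j) (F.B j) ⊆ K := by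
    rintro j _ ⟨⟨p, q⟩, ⟨hp, hq⟩, rfl⟩
    have := hK.convex (hAK j hp) (hBK j hq) (by norm_num : (0 : ℝ) ≤ 1 / 2)
      (by norm_num : (0 : ℝ) ≤ 1 / 2) (by norm_num)
    simpa [smul_add] using this
  have hsw : ∑ j, w j ≤ Z :=
    sum_setIntegral_le (fun j => (isCompact_midSet (F.hA j).1 (F.hB j).1).measurableSet)
      (fun i j hij => aedisj_mid (F.sep i j hij)) hKm hmidK hEK fun x _ => (E_pos _ _ _).le
  set η := κ * D * δ with hη
  have key := assemble u u' w v τ Z κ D δ η hκ0 hκ hη hu0 hu'0 hsu hsu' hsw hca hcb hcc hv0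
  set X := ∑ j, u' j * v j ^ 2 with hX
  set T := ∑ j, u' j * τ j ^ 2 with hT
  set Q := ∫ x, g x ^ 2 ∂(rho K) with hQ
  have hQ0 : 0 ≤ Q := integral_nonneg fun x => sq_nonneg _
  have hQK : ∫ x in K, g x ^ 2 = Kv * Q := by
    rw [hQ, integral_rho_eq hK, ← hKv, mul_inv_cancel_left₀ hKvpos.ne']
  have hT : T ≤ ε ^ 2 * (Kv * Q) := by
    calc T ≤ ∑ j, ε ^ 2 * ∫ x in F.B j, g x ^ 2 := Finset.sum_le_sum fun j _ => hcd j
      _ = ε ^ 2 * ∑ j, ∫ x in F.B j, g x ^ 2 := by rw [Finset.mul_sum]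
      _ ≤ ε ^ 2 * ∫ x in K, g x ^ 2 := by
          refine mul_le_mul_of_nonneg_left ?_ (sq_nonneg _)
          exact sum_setIntegral_le (fun j => (F.hB j).1.measurableSet)
            (fun i j hij => aedisj_B (F.sep i j hij)) hKm hBK (integrableOn_g_sq hK h)
            fun x _ => sq_nonneg _
      _ = ε ^ 2 * (Kv * Q) := by rw [hQK]
  -- the sum of the masses
  have hmsum : ∑ j, (rho K (F.A j)).toReal = 1 := by
    rw [← ENNReal.toReal_sum (fun j _ => measure_ne_top _ _), hsum]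
    simp
  have hm0 : ∀ j, 0 ≤ (rho K (F.A j)).toReal := fun j => ENNReal.toReal_nonneg
  have hX0 : 0 ≤ X := Finset.sum_nonneg fun j _ => mul_nonneg (hu'0 j) (sq_nonneg _)
  -- first bound of Qval
  have hQval : Qval F ≤ 6 * X / Kv + 8 * δ ^ 2 := by
    calc Qval F ≤ ∑ j, (rho K (F.A j)).toReal * (v j + 2 * δ) ^ 2 :=
          Finset.sum_le_sum fun j _ => hce j
      _ ≤ ∑ j, (rho K (F.A j)).toReal * (2 * v j ^ 2 + 8 * δ ^ 2) := by
          refine Finset.sum_le_sum fun j _ => mul_le_mul_of_nonneg_left ?_ (hm0 j)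
          nlinarith [sq_nonneg (v j - 2 * δ)]
      _ = 2 * ∑ j, (rho K (F.A j)).toReal * v j ^ 2 +
            8 * δ ^ 2 * ∑ j, (rho K (F.A j)).toReal := by
          rw [Finset.mul_sum, Finset.mul_sum, ← Finset.sum_add_distrib]
          refine Finset.sum_congr rfl fun j _ => ?_
          ring
      _ ≤ 6 * X / Kv + 8 * δ ^ 2 := by
          rw [hmsum, mul_one]
          have : ∑ j, (rho K (F.A j)).toReal * v j ^ 2 ≤ 3 * X / Kv := by
            rw [hX, Finset.mul_sum, Finset.sum_div]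
            refine Finset.sum_le_sum fun j _ => ?_
            calc (rho K (F.A j)).toReal * v j ^ 2 ≤ (3 * u' j / Kv) * v j ^ 2 :=
                  mul_le_mul_of_nonneg_right (hcf j) (sq_nonneg _)
              _ = 3 * (u' j * v j ^ 2) / Kv := by ring
          have h2 : 6 * X / Kv = 2 * (3 * X / Kv) := by ring
          rw [h2]
          linarith
  -- bound of X
  have hexp : (1 / 3 : ℝ) ≤ Real.exp (-1) := by
    have h1 : Real.exp 1 < 3 := by
      have := Real.exp_one_lt_d9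
      linarith
    rw [Real.exp_neg, one_div]
    exact inv_anti₀ (Real.exp_pos 1) h1.le
  have hη2 : η ^ 2 = κ * δ ^ 2 / 300 := by
    rw [hη, mul_pow, mul_pow, pow_two κ]
    have : κ * κ * D ^ 2 * δ ^ 2 = κ * (κ * D ^ 2) * δ ^ 2 := by ring
    rw [this, hκ]
    ring
  have hX1 : κ / 96 * X ≤ 6 * (ε ^ 2 * (Kv * Q)) + 6 * η ^ 2 * Kv + κ * δ ^ 2 * Kv := by
    have h1 : κ / 96 * X ≤ κ * Real.exp (-1) / 32 * X := by
      refine mul_le_mul_of_nonneg_right ?_ hX0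
      nlinarith
    have h2 : 6 * η ^ 2 * Z ≤ 6 * η ^ 2 * Kv :=
      mul_le_mul_of_nonneg_left hZle (by positivity)
    have h3 : κ * δ ^ 2 * Z ≤ κ * δ ^ 2 * Kv :=
      mul_le_mul_of_nonneg_left hZle (by positivity)
    linarith
  have hX2 : 6 * X / Kv ≤ 3456 / κ * ε ^ 2 * Q + 1152 * δ ^ 2 := by
    rw [div_le_iff₀ hKvpos]
    have h1 : X ≤ (96 / κ) * (6 * (ε ^ 2 * (Kv * Q)) + 6 * η ^ 2 * Kv + κ * δ ^ 2 * Kv) := by
      have : X = (96 / κ) * (κ / 96 * X) := by field_simp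
      rw [this]
      exact mul_le_mul_of_nonneg_left hX1 (by positivity)
    have h2 : (96 / κ) * (6 * (ε ^ 2 * (Kv * Q)) + 6 * η ^ 2 * Kv + κ * δ ^ 2 * Kv) =
        Kv * (576 / κ * ε ^ 2 * Q + 96 / κ * (6 * η ^ 2 + κ * δ ^ 2)) := by
      field_simp
      ring
    have h3 : 96 / κ * (6 * η ^ 2 + κ * δ ^ 2) ≤ 192 * δ ^ 2 := by
      rw [hη2]
      have : 96 / κ * (6 * (κ * δ ^ 2 / 300) + κ * δ ^ 2) = 96 * (306 / 300) * δ ^ 2 := by
        field_simp
        ring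
      rw [this]
      nlinarith [sq_nonneg δ]
    calc 6 * X ≤ 6 * (Kv * (576 / κ * ε ^ 2 * Q + 192 * δ ^ 2)) := by
          have h4 : X ≤ Kv * (576 / κ * ε ^ 2 * Q + 192 * δ ^ 2) := by
            refine h1.trans ?_
            rw [h2]
            refine mul_le_mul_of_nonneg_left ?_ hKvpos.le
            linarith
          linarith
      _ = (3456 / κ * ε ^ 2 * Q + 1152 * δ ^ 2) * Kv := by
          field_simp
          ring
  calc Qval F ≤ 6 * X / Kv + 8 * δ ^ 2 := hQval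
    _ ≤ 3456 / κ * ε ^ 2 * Q + 1160 * δ ^ 2 := by linarith

end Crest.Agent.OTS
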