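import Crest.Agent.Lib.OTS.PL
import Crest.Agent.Lib.OTS.Cut
import Crest.Agent.Lib.OTS.Tilt

/-!
# Auxiliary lemmas for `qval_le_of_mesh` (task T3, helper22)
-/

open MeasureTheory Set
open scoped ENNReal RealInnerProductSpace

namespace Crest.Agent.OTS

namespace SMAux

variable {d : ℕ}

/-- Gaussian weight `exp(-V)`, `V = κ/2 ‖x - x₀‖²`. -/
noncomputable def E (κ : ℝ) (x₀ x : EE d) : ℝ := Real.exp (-(κ / 2 * ‖x - x₀‖ ^ 2))

lemma E_pos (κ : ℝ) (x₀ x : EE d) : 0 < E κ x₀ x := Real.exp_pos _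

lemma continuous_E (κ : ℝ) (x₀ : EE d) : Continuous (E κ x₀) := by
  unfold E; fun_prop

/-- midpoint set -/
def midSet (A B : Set (EE d)) : Set (EE d) :=
  (fun p : EE d × EE d => (1 / 2 : ℝ) • (p.1 + p.2)) '' (A ×ˢ B)

lemma isCompact_midSet {A B : Set (EE d)} (hA : IsCompact A) (hB : IsCompact B) :
    IsCompact (midSet A B) :=
  (hA.prod hB).image (by fun_prop)

lemma mem_midSet {A B : Set (EE d)} {x y : EE d} (hx : x ∈ A) (hy : y ∈ B) :
    (1 / 2 : ℝ) • (x + y) ∈ midSet A B := ⟨(x, y), ⟨hx, hy⟩, rfl⟩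

lemma para (x x' x₀ : EE d) :
    ‖x - x₀‖ ^ 2 + ‖x' - x₀‖ ^ 2 = 2 * ‖(1 / 2 : ℝ) • (x + x') - x₀‖ ^ 2 + ‖x - x'‖ ^ 2 / 2 := by
  have h1 : (1 / 2 : ℝ) • (x + x') - x₀ = (1 / 2 : ℝ) • ((x - x₀) + (x' - x₀)) := by
    simp only [smul_add, smul_sub]
    have : x₀ = (1 / 2 : ℝ) • x₀ + (1 / 2 : ℝ) • x₀ := by
      rw [← add_smul]; norm_num
    nth_rewrite 1 [this]
    abel
  have h2 : x - x' = (x - x₀) - (x' - x₀) := by abel
  rw [h1, h2, norm_smul]
  set p := x - x₀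
  set q := x' - x₀
  have h3 := norm_add_sq_real p q
  have h4 := norm_sub_sq_real p q
  have h5 : ‖(1 / 2 : ℝ)‖ = 1 / 2 := by norm_num
  rw [h5, mul_pow, h3, h4]
  ring

lemma lintegral_indicator_ofReal {φ : EE d → ℝ} (hφ : Continuous φ) (h0 : ∀ x, 0 ≤ φ x)
    {A : Set (EE d)} (hA : IsCompact A) :
    ∫⁻ x, A.indicator (fun x => ENNReal.ofReal (φ x)) x = ENNReal.ofReal (∫ x in A, φ x) := by
  rw [lintegral_indicator hA.measurableSet,
    ofReal_integral_eq_lintegral_ofReal (hφ.continuousOn.integrableOn_compact hA)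
      (Filter.Eventually.of_forall h0)]

/-- The cell Prékopa–Leindler inequality. -/
lemma cellPL (κ : ℝ) (hκ : 0 ≤ κ) (x₀ : EE d) {A B : Set (EE d)} (hA : IsCompact A)
    (hB : IsCompact B) (v : EE d) :
    (∫ x in A, E κ x₀ x * Real.exp (κ / 2 * ⟪x, v⟫)) *
        (∫ x in B, E κ x₀ x * Real.exp (-(κ / 2 * ⟪x, v⟫))) ≤
      Real.exp (κ * ‖v‖ ^ 2 / 4) * (∫ x in midSet A B, E κ x₀ x) ^ 2 := by
  set F : EE d → ℝ := fun x => E κ x₀ x * Real.exp (κ / 2 * ⟪x, v⟫) with hF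
  set G : EE d → ℝ := fun x => E κ x₀ x * Real.exp (-(κ / 2 * ⟪x, v⟫)) with hG
  set H : EE d → ℝ := fun x => E κ x₀ x * Real.exp (κ * ‖v‖ ^ 2 / 8) with hH
  have cE := continuous_E κ x₀
  have cF : Continuous F := by rw [hF]; fun_prop
  have cG : Continuous G := by rw [hG]; fun_prop
  have cH : Continuous H := by rw [hH]; fun_prop
  have pF : ∀ x, 0 ≤ F x := fun x => (mul_pos (E_pos _ _ _) (Real.exp_pos _)).le
  have pG : ∀ x, 0 ≤ G x := fun x => (mul_pos (E_pos _ _ _) (Real.exp_pos _)).le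
  have pH : ∀ x, 0 ≤ H x := fun x => (mul_pos (E_pos _ _ _) (Real.exp_pos _)).le
  have hS := isCompact_midSet hA hB
  have key := pl_midpoint (d := d)
    (A.indicator fun x => ENNReal.ofReal (F x)) (B.indicator fun x => ENNReal.ofReal (G x))
    ((midSet A B).indicator fun x => ENNReal.ofReal (H x))
    (cF.measurable.ennreal_ofReal.indicator hA.measurableSet)
    (cG.measurable.ennreal_ofReal.indicator hB.measurableSet)
    (cH.measurable.ennreal_ofReal.indicator hS.measurableSet)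
    (by
      intro x y
      by_cases hx : x ∈ A
      swap
      · simp [hx]
      by_cases hy : y ∈ B
      swap
      · simp [hy]
      have hm := mem_midSet hx hy
      rw [indicator_of_mem hx, indicator_of_mem hy, indicator_of_mem hm,
        ← ENNReal.ofReal_mul (pF x), ← ENNReal.ofReal_pow (pH _)]
      apply ENNReal.ofReal_le_ofReal
      simp only [hF, hG, hH, E]
      rw [← Real.exp_add, ← Real.exp_add, mul_pow, ← Real.exp_nat_mul, ← Real.exp_nat_mul,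
        ← Real.exp_add, ← Real.exp_add]
      simp only [Real.exp_le_exp]
      have hp := para x y x₀
      have h6 : 2 * ⟪x - y, v⟫ ≤ ‖x - y‖ ^ 2 + ‖v‖ ^ 2 := by
        have := norm_sub_sq_real (x - y) v
        nlinarith [sq_nonneg ‖x - y - v‖]
      have h7 : ⟪x - y, v⟫ = ⟪x, v⟫ - ⟪y, v⟫ := inner_sub_left _ _ _
      rw [h7] at h6
      push_cast
      nlinarith [mul_le_mul_of_nonneg_left h6 hκ, mul_comm κ (‖x - x₀‖ ^ 2)])
  rw [lintegral_indicator_ofReal cF pF hA, lintegral_indicator_ofReal cG pG hB,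
    lintegral_indicator_ofReal cH pH hS] at key
  have i1 : 0 ≤ ∫ x in A, F x := setIntegral_nonneg hA.measurableSet fun x _ => pF x
  have i2 : 0 ≤ ∫ x in B, G x := setIntegral_nonneg hB.measurableSet fun x _ => pG x
  have i3 : 0 ≤ ∫ x in midSet A B, H x := setIntegral_nonneg hS.measurableSet fun x _ => pH x
  rw [← ENNReal.ofReal_mul i1, ← ENNReal.ofReal_pow i3,
    ENNReal.ofReal_le_ofReal_iff (pow_nonneg i3 2)] at key
  refine key.trans (le_of_eq ?_)
  have : ∫ x in midSet A B, H x = (∫ x in midSet A B, E κ x₀ x) * Real.exp (κ * ‖v‖ ^ 2 / 8) := by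
    simp only [hH]
    rw [integral_mul_const]
  rw [this, mul_pow, ← Real.exp_nat_mul]
  have : ((2 : ℕ) : ℝ) * (κ * ‖v‖ ^ 2 / 8) = κ * ‖v‖ ^ 2 / 4 := by push_cast; ring
  rw [this, mul_comm]

/-- Mesh version of the cell inequality. -/
lemma cellPL_mesh (κ : ℝ) (hκ : 0 ≤ κ) (x₀ : EE d) {A B : Set (EE d)} (hA : IsCompact A)
    (hB : IsCompact B) {δ : ℝ} (hAd : ∀ x ∈ A, ∀ x' ∈ A, ‖x - x'‖ ≤ δ)
    (hBd : ∀ x ∈ B, ∀ x' ∈ B, ‖x - x'‖ ≤ δ) {a a' : EE d} (ha : a ∈ A) (ha' : a' ∈ B) :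
    (∫ x in A, E κ x₀ x) * (∫ x in B, E κ x₀ x) *
        Real.exp (κ * ‖a - a'‖ ^ 2 / 4 - κ * ‖a - a'‖ * δ) ≤
      (∫ x in midSet A B, E κ x₀ x) ^ 2 := by
  set v := a - a' with hv
  have cE := continuous_E κ x₀
  have hP := cellPL κ hκ x₀ hA hB v
  have h1 : Real.exp (κ / 2 * ⟪a, v⟫ - κ / 2 * (δ * ‖v‖)) * (∫ x in A, E κ x₀ x) ≤
      ∫ x in A, E κ x₀ x * Real.exp (κ / 2 * ⟪x, v⟫) := by
    rw [← integral_const_mul]
    refine setIntegral_mono_on ((cE.const_mul _).continuousOn.integrableOn_compact hA)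
      ((cE.mul (by fun_prop)).continuousOn.integrableOn_compact hA) hA.measurableSet ?_
    intro x hx
    rw [mul_comm]
    refine mul_le_mul_of_nonneg_left ?_ (E_pos _ _ _).le
    apply Real.exp_le_exp.2
    have h2 : ⟪a, v⟫ - ⟪x, v⟫ ≤ δ * ‖v‖ := by
      have h3 : ⟪a, v⟫ - ⟪x, v⟫ = ⟪a - x, v⟫ := (inner_sub_left _ _ _).symm
      rw [h3]
      exact (real_inner_le_norm _ _).trans
        (mul_le_mul_of_nonneg_right (hAd a ha x hx) (norm_nonneg _))
    nlinarith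
  have h1' : Real.exp (-(κ / 2 * ⟪a', v⟫) - κ / 2 * (δ * ‖v‖)) * (∫ x in B, E κ x₀ x) ≤
      ∫ x in B, E κ x₀ x * Real.exp (-(κ / 2 * ⟪x, v⟫)) := by
    rw [← integral_const_mul]
    refine setIntegral_mono_on ((cE.const_mul _).continuousOn.integrableOn_compact hB)
      ((cE.mul (by fun_prop)).continuousOn.integrableOn_compact hB) hB.measurableSet ?_
    intro x hx
    rw [mul_comm]
    refine mul_le_mul_of_nonneg_left ?_ (E_pos _ _ _).le
    apply Real.exp_le_exp.2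
    have h2 : ⟪x, v⟫ - ⟪a', v⟫ ≤ δ * ‖v‖ := by
      have h3 : ⟪x, v⟫ - ⟪a', v⟫ = ⟪x - a', v⟫ := (inner_sub_left _ _ _).symm
      rw [h3]
      exact (real_inner_le_norm _ _).trans
        (mul_le_mul_of_nonneg_right (hBd x hx a' ha') (norm_nonneg _))
    nlinarith
  have iA : 0 ≤ ∫ x in A, E κ x₀ x := setIntegral_nonneg hA.measurableSet fun x _ => (E_pos _ _ _).le
  have iB : 0 ≤ ∫ x in B, E κ x₀ x := setIntegral_nonneg hB.measurableSet fun x _ => (E_pos _ _ _).le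
  have hprod := mul_le_mul h1 h1' (mul_nonneg (Real.exp_pos _).le iB)
    (le_trans (mul_nonneg (Real.exp_pos _).le iA) h1)
  have hprod2 := hprod.trans hP
  -- rearrange
  have hexp : Real.exp (κ / 2 * ⟪a, v⟫ - κ / 2 * (δ * ‖v‖)) *
      Real.exp (-(κ / 2 * ⟪a', v⟫) - κ / 2 * (δ * ‖v‖)) =
      Real.exp (κ * ‖v‖ ^ 2 / 4) * Real.exp (κ * ‖v‖ ^ 2 / 4 - κ * ‖v‖ * δ) := by
    rw [← Real.exp_add, ← Real.exp_add]
    congr 1
    have h5 : ⟪a, v⟫ - ⟪a', v⟫ = ‖v‖ ^ 2 := by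
      rw [← inner_sub_left, ← hv, real_inner_self_eq_norm_sq]
    have : κ / 2 * ⟪a, v⟫ - κ / 2 * (δ * ‖v‖) + (-(κ / 2 * ⟪a', v⟫) - κ / 2 * (δ * ‖v‖)) =
        κ / 2 * (⟪a, v⟫ - ⟪a', v⟫) - κ * ‖v‖ * δ := by ring
    rw [this, h5]
    ring
  have hpos : 0 < Real.exp (κ * ‖v‖ ^ 2 / 4) := Real.exp_pos _
  have hfinal : Real.exp (κ * ‖v‖ ^ 2 / 4) *
      ((∫ x in A, E κ x₀ x) * (∫ x in B, E κ x₀ x) * Real.exp (κ * ‖v‖ ^ 2 / 4 - κ * ‖v‖ * δ)) ≤
      Real.exp (κ * ‖v‖ ^ 2 / 4) * (∫ x in midSet A B, E κ x₀ x) ^ 2 := by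
    calc _ = (Real.exp (κ / 2 * ⟪a, v⟫ - κ / 2 * (δ * ‖v‖)) * (∫ x in A, E κ x₀ x)) *
          (Real.exp (-(κ / 2 * ⟪a', v⟫) - κ / 2 * (δ * ‖v‖)) * (∫ x in B, E κ x₀ x)) := by
          rw [mul_mul_mul_comm, hexp]; ring
      _ ≤ _ := hprod2
  exact le_of_mul_le_mul_left hfinal hpos

/-- Square root version. -/
lemma cell_sqrt (κ : ℝ) (hκ : 0 ≤ κ) (x₀ : EE d) {A B : Set (EE d)} (hA : IsCompact A)
    (hB : IsCompact B) {δ : ℝ} (hAd : ∀ x ∈ A, ∀ x' ∈ A, ‖x - x'‖ ≤ δ)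
    (hBd : ∀ x ∈ B, ∀ x' ∈ B, ‖x - x'‖ ≤ δ) {a a' : EE d} (ha : a ∈ A) (ha' : a' ∈ B) :
    Real.sqrt (∫ x in A, E κ x₀ x) * Real.sqrt (∫ x in B, E κ x₀ x) *
        (1 + κ * ‖a - a'‖ ^ 2 / 16 - κ * δ ^ 2) ≤ ∫ x in midSet A B, E κ x₀ x := by
  have h := cellPL_mesh κ hκ x₀ hA hB hAd hBd ha ha'
  set u := ∫ x in A, E κ x₀ x
  set u' := ∫ x in B, E κ x₀ x
  set w := ∫ x in midSet A B, E κ x₀ x
  set v := ‖a - a'‖
  have hu : 0 ≤ u := setIntegral_nonneg hA.measurableSet fun x _ => (E_pos _ _ _).le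
  have hu' : 0 ≤ u' := setIntegral_nonneg hB.measurableSet fun x _ => (E_pos _ _ _).le
  have hw : 0 ≤ w := setIntegral_nonneg (isCompact_midSet hA hB).measurableSet
    fun x _ => (E_pos _ _ _).le
  set s := Real.sqrt u * Real.sqrt u' with hs
  have hs0 : 0 ≤ s := by positivity
  have hs2 : s ^ 2 = u * u' := by
    rw [hs, mul_pow, Real.sq_sqrt hu, Real.sq_sqrt hu']
  set t := κ * v ^ 2 / 8 - κ * v * δ / 2 with ht
  have h2 : (s * Real.exp t) ^ 2 ≤ w ^ 2 := by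
    rw [mul_pow, hs2, ← Real.exp_nat_mul]
    have : ((2 : ℕ) : ℝ) * t = κ * v ^ 2 / 4 - κ * v * δ := by push_cast; rw [ht]; ring
    rwa [this]
  have h3 : s * Real.exp t ≤ w :=
    abs_le_of_sq_le_sq' h2 hw |>.2
  have h4 : 1 + κ * v ^ 2 / 16 - κ * δ ^ 2 ≤ Real.exp t := by
    have h5 : κ * v ^ 2 / 16 - κ * δ ^ 2 ≤ t := by
      rw [ht]
      nlinarith [mul_nonneg hκ (sq_nonneg (v / 4 - δ))]
    have h6 := Real.add_one_le_exp (κ * v ^ 2 / 16 - κ * δ ^ 2)
    have h7 := Real.exp_le_exp.2 h5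
    linarith
  exact (mul_le_mul_of_nonneg_left h4 hs0).trans h3


section measure

variable {K : Set (EE d)}

lemma aedisj_A {A A' B B' : Set (EE d)} (h : Sep A A' B B') : AEDisjoint volume A A' := by
  obtain ⟨n, hn, s, s', h1, h2, _, _⟩ := h
  refine measure_mono_null ?_ (volume_hyperplane hn s)
  rintro x ⟨hx, hx'⟩
  exact le_antisymm (h1 x hx) (h2 x hx')

lemma aedisj_B {A A' B B' : Set (EE d)} (h : Sep A A' B B') : AEDisjoint volume B B' := by
  obtain ⟨n, hn, s, s', _, _, h1, h2⟩ := h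
  refine measure_mono_null ?_ (volume_hyperplane hn s')
  rintro x ⟨hx, hx'⟩
  exact le_antisymm (h1 x hx) (h2 x hx')

lemma aedisj_mid {A A' B B' : Set (EE d)} (h : Sep A A' B B') :
    AEDisjoint volume (midSet A B) (midSet A' B') := by
  obtain ⟨n, hn, s, s', h1, h2, h3, h4⟩ := h
  refine measure_mono_null ?_ (volume_hyperplane hn ((s + s') / 2))
  rintro x ⟨⟨⟨p, q⟩, ⟨hp, hq⟩, rfl⟩, ⟨⟨p', q'⟩, ⟨hp', hq'⟩, hx'⟩⟩
  have e1 : ∀ u w : EE d, ⟪(1 / 2 : ℝ) • (u + w), n⟫ = (⟪u, n⟫ + ⟪w, n⟫) / 2 := by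
    intro u w
    rw [inner_smul_left, inner_add_left]
    simp
    ring
  simp only at hx' ⊢
  apply le_antisymm
  · rw [e1]
    have := h1 p hp
    have := h3 q hq
    linarith
  · rw [← hx', e1]
    have := h2 p' hp'
    have := h4 q' hq'
    linarith

lemma sum_setIntegral {ι : Type} [Fintype ι] {S : ι → Set (EE d)} (hm : ∀ j, MeasurableSet (S j))
    (hd : ∀ i j, i ≠ j → AEDisjoint volume (S i) (S j)) {φ : EE d → ℝ}
    (hφ : IntegrableOn φ (⋃ j, S j)) :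
    ∑ j, ∫ x in S j, φ x = ∫ x in ⋃ j, S j, φ x := by
  rw [integral_iUnion_ae (fun i => (hm i).nullMeasurableSet) (fun i j hij => hd i j hij) hφ,
    tsum_fintype]

lemma sum_setIntegral_le {ι : Type} [Fintype ι] {S : ι → Set (EE d)} (hm : ∀ j, MeasurableSet (S j))
    (hd : ∀ i j, i ≠ j → AEDisjoint volume (S i) (S j)) (hK : MeasurableSet K)
    (hSK : ∀ j, S j ⊆ K) {φ : EE d → ℝ} (hφ : IntegrableOn φ K) (h0 : ∀ x ∈ K, 0 ≤ φ x) :
    ∑ j, ∫ x in S j, φ x ≤ ∫ x in K, φ x := by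
  have hU : (⋃ j, S j) ⊆ K := iUnion_subset hSK
  rw [sum_setIntegral hm hd (hφ.mono_set hU)]
  refine setIntegral_mono_set hφ ?_ (Filter.Eventually.of_forall hU)
  exact (ae_restrict_iff' hK).2 (Filter.Eventually.of_forall h0)

lemma sum_setIntegral_eq {ι : Type} [Fintype ι] {S : ι → Set (EE d)} (hm : ∀ j, MeasurableSet (S j))
    (hd : ∀ i j, i ≠ j → AEDisjoint volume (S i) (S j))
    (hSK : ∀ j, S j ⊆ K) (hc : volume (K \ ⋃ j, S j) = 0) {φ : EE d → ℝ} (hφ : IntegrableOn φ K) :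
    ∑ j, ∫ x in S j, φ x = ∫ x in K, φ x := by
  have hU : (⋃ j, S j) ⊆ K := iUnion_subset hSK
  rw [sum_setIntegral hm hd (hφ.mono_set hU)]
  refine setIntegral_congr_set ?_
  rw [ae_eq_set]
  refine ⟨?_, hc⟩
  rw [sdiff_eq_empty.2 hU]
  simp

lemma setIntegral_rho (hK : Body K) {B : Set (EE d)} (hB : MeasurableSet B) (hBK : B ⊆ K)
    {F : Type*} [NormedAddCommGroup F] [NormedSpace ℝ F] (ψ : EE d → F) :
    ∫ x in B, ψ x ∂(rho K) = ((volume K).toReal)⁻¹ • ∫ x in B, ψ x := by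
  have : (rho K).restrict B = (volume K)⁻¹ • (volume.restrict B) := by
    simp only [rho, Crest.AnalysisR.OT.uniformProbOn]
    rw [Measure.restrict_smul, Measure.restrict_restrict hB, inter_eq_left.2 hBK]
  rw [this, integral_smul_measure, ENNReal.toReal_inv]

lemma integral_rho_eq (hK : Body K) (ψ : EE d → ℝ) :
    ∫ x, ψ x ∂(rho K) = ((volume K).toReal)⁻¹ * ∫ x in K, ψ x := by
  simp only [rho, Crest.AnalysisR.OT.uniformProbOn]
  rw [integral_smul_measure, ENNReal.toReal_inv, smul_eq_mul]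

lemma rho_real (hK : Body K) {A : Set (EE d)} (hAm : MeasurableSet A) (hAK : A ⊆ K) :
    (rho K A).toReal = ((volume K).toReal)⁻¹ * (volume A).toReal := by
  rw [rho_apply hK A hAm, inter_eq_left.2 hAK, ENNReal.toReal_mul, ENNReal.toReal_inv]

lemma volK_pos (hK : Body K) : 0 < (volume K).toReal :=
  ENNReal.toReal_pos hK.volume_pos.ne' hK.volume_ne_top

lemma integrableOn_g (hK : Body K) {ε : ℝ} {g : EE d → ℝ} (h : Admissible K ε g) :
    IntegrableOn g K := by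
  obtain ⟨C, hC⟩ := h.bdd
  refine Measure.integrableOn_of_bounded (M := C) hK.volume_ne_top h.meas.aestronglyMeasurable ?_
  exact (ae_restrict_iff' hK.measurableSet).2 (Filter.Eventually.of_forall fun x hx => by
    simpa using hC x hx)

lemma integrableOn_g_sq (hK : Body K) {ε : ℝ} {g : EE d → ℝ} (h : Admissible K ε g) :
    IntegrableOn (fun x => g x ^ 2) K := by
  obtain ⟨C, hC⟩ := h.bdd
  refine Measure.integrableOn_of_bounded (M := C ^ 2) hK.volume_ne_top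
    (h.meas.pow_const 2).aestronglyMeasurable ?_
  refine (ae_restrict_iff' hK.measurableSet).2 (Filter.Eventually.of_forall fun x hx => ?_)
  have := hC x hx
  rw [Real.norm_eq_abs, abs_pow]
  exact pow_le_pow_left₀ (abs_nonneg _) this 2

lemma tilt_real (hK : Body K) {ε : ℝ} {g : EE d → ℝ} (h : Admissible K ε g) {B : Set (EE d)}
    (hBm : MeasurableSet B) (hBK : B ⊆ K) :
    (tilt K ε g B).toReal =
      ((volume K).toReal)⁻¹ * ((volume B).toReal + ε * ∫ x in B, g x) := by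
  have h1 := integral_tilt hK h (B.indicator fun _ => (1 : ℝ))
  have := tilt_isProb hK h
  rw [integral_indicator_const _ hBm] at h1
  simp only [smul_eq_mul, mul_one] at h1
  have h2 : ∫ x, (1 + ε * g x) * B.indicator (fun _ => (1 : ℝ)) x ∂(rho K) =
      ∫ x in B, (1 + ε * g x) ∂(rho K) := by
    rw [← integral_indicator hBm]
    refine integral_congr_ae (Filter.Eventually.of_forall fun x => ?_)
    by_cases hx : x ∈ B <;> simp [hx]
  have hvol : (volume B) ≠ ⊤ := ne_top_of_le_ne_top hK.volume_ne_top (measure_mono hBK)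
  have hgB : IntegrableOn g B := (integrableOn_g hK h).mono_set hBK
  rw [h2, setIntegral_rho hK hBm hBK, integral_add, integral_const_mul] at h1
  · rw [measureReal_def] at h1
    rw [h1]
    simp [smul_eq_mul, measureReal_def]
  · exact integrableOn_const hvol
  · exact hgB.const_mul _

end measure


section reallemmas

lemma abs_log_one_add_le {τ : ℝ} (hτ : |τ| ≤ 1 / 2) : |Real.log (1 + τ)| ≤ 2 * |τ| := by
  have h1 := abs_le.1 hτ
  have hpos : 0 < 1 + τ := by linarith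
  have hup := Real.log_le_sub_one_of_pos hpos
  have hlo := Real.one_sub_inv_le_log_of_pos hpos
  rw [abs_le]
  constructor
  · have h2 : -(2 * |τ|) ≤ 1 - (1 + τ)⁻¹ := by
      have h3 : 1 - (1 + τ)⁻¹ = τ / (1 + τ) := by field_simp; ring
      rw [h3, le_div_iff₀ hpos]
      have h4 : -|τ| ≤ τ := neg_abs_le τ
      nlinarith [abs_nonneg τ]
    linarith
  · have := le_abs_self τ
    have := abs_nonneg τ
    linarith

/-- Local comparison of two positive numbers. -/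
lemma local_bound {α β u u' τ Va Va' η w : ℝ} (hβ : 0 < β) (hα : α = β * (1 + τ)) (hτ : |τ| ≤ 1 / 2)
    (h1 : α * Real.exp (-Va - η) ≤ u) (h2 : u ≤ α * Real.exp (-Va + η))
    (h3 : β * Real.exp (-Va' - η) ≤ u') (h4 : u' ≤ β * Real.exp (-Va' + η))
    (hV : |Va - Va'| ≤ w) (hall : 2 * |τ| + w + 2 * η ≤ 2) :
    u' * Real.exp (-1) ≤ Real.sqrt u * Real.sqrt u' ∧
      (Real.sqrt u - Real.sqrt u') ^ 2 ≤ u' * (2 * |τ| + w + 2 * η) ^ 2 := by
  have hτ' := abs_le.1 hτ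
  have h1τ : 0 < 1 + τ := by linarith
  have hαpos : 0 < α := by rw [hα]; positivity
  have hupos : 0 < u := lt_of_lt_of_le (by positivity) h1
  have hu'pos : 0 < u' := lt_of_lt_of_le (by positivity) h3
  have la1 : Real.log α = Real.log β + Real.log (1 + τ) := by
    rw [hα, Real.log_mul hβ.ne' h1τ.ne']
  have lu1 : Real.log α + (-Va - η) ≤ Real.log u := by
    have := Real.log_le_log (by positivity) h1
    rwa [Real.log_mul hαpos.ne' (Real.exp_pos _).ne', Real.log_exp] at this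
  have lu2 : Real.log u ≤ Real.log α + (-Va + η) := by
    have := Real.log_le_log hupos h2
    rwa [Real.log_mul hαpos.ne' (Real.exp_pos _).ne', Real.log_exp] at this
  have lu3 : Real.log β + (-Va' - η) ≤ Real.log u' := by
    have := Real.log_le_log (by positivity) h3
    rwa [Real.log_mul hβ.ne' (Real.exp_pos _).ne', Real.log_exp] at this
  have lu4 : Real.log u' ≤ Real.log β + (-Va' + η) := by
    have := Real.log_le_log hu'pos h4
    rwa [Real.log_mul hβ.ne' (Real.exp_pos _).ne', Real.log_exp] at this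
  set l := Real.log u - Real.log u' with hl
  have hL := abs_log_one_add_le hτ
  have hV' := abs_le.1 hV
  have hL' := abs_le.1 hL
  have hlabs : |l| ≤ 2 * |τ| + w + 2 * η := by
    rw [abs_le]
    constructor <;> (rw [hl]; linarith [hL'.1, hL'.2, hV'.1, hV'.2])
  have hl2 : |l / 2| ≤ 1 := by
    rw [abs_div, abs_of_pos (by norm_num : (0 : ℝ) < 2), div_le_one (by norm_num)]
    linarith
  have hueq : u = u' * Real.exp l := by
    rw [hl, Real.exp_sub, Real.exp_log hupos, Real.exp_log hu'pos]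
    field_simp
  have hsq : Real.sqrt u = Real.sqrt u' * Real.exp (l / 2) := by
    rw [hueq, Real.sqrt_mul hu'pos.le, Real.exp_half]
  have hsq' : Real.sqrt u' * Real.sqrt u' = u' := Real.mul_self_sqrt hu'pos.le
  constructor
  · rw [hsq, mul_right_comm, hsq']
    refine mul_le_mul_of_nonneg_left ?_ hu'pos.le
    apply Real.exp_le_exp.2
    have := (abs_le.1 hl2).1
    linarith
  · rw [hsq]
    have e1 : (Real.sqrt u' * Real.exp (l / 2) - Real.sqrt u') ^ 2 =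
        u' * (Real.exp (l / 2) - 1) ^ 2 := by
      calc _ = (Real.sqrt u' * Real.sqrt u') * (Real.exp (l / 2) - 1) ^ 2 := by ring
        _ = _ := by rw [hsq']
    rw [e1]
    refine mul_le_mul_of_nonneg_left ?_ hu'pos.le
    have h5 := Real.abs_exp_sub_one_le hl2
    have h6 : |Real.exp (l / 2) - 1| ≤ |l| := by
      refine h5.trans (le_of_eq ?_)
      rw [abs_div, abs_of_pos (by norm_num : (0 : ℝ) < 2)]
      ring
    have h7 : |Real.exp (l / 2) - 1| ≤ 2 * |τ| + w + 2 * η := h6.trans hlabs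
    calc (Real.exp (l / 2) - 1) ^ 2 = |Real.exp (l / 2) - 1| ^ 2 := (sq_abs _).symm
      _ ≤ _ := pow_le_pow_left₀ (abs_nonneg _) h7 2

/-- The assembly of the sums. -/
lemma assemble {ι : Type} [Fintype ι] (u u' w v τ : ι → ℝ) (Z κ D δ η : ℝ)
    (hκ : 0 < κ) (hκD : κ * D ^ 2 = 1 / 300) (hη : η = κ * D * δ)
    (hu : ∀ j, 0 ≤ u j) (hu' : ∀ j, 0 ≤ u' j)
    (hsu : ∑ j, u j = Z) (hsu' : ∑ j, u' j = Z) (hsw : ∑ j, w j ≤ Z)
    (ha : ∀ j, Real.sqrt (u j) * Real.sqrt (u' j) * (1 + κ * v j ^ 2 / 16 - κ * δ ^ 2) ≤ w j)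
    (hb : ∀ j, u' j * Real.exp (-1) ≤ Real.sqrt (u j) * Real.sqrt (u' j))
    (hc : ∀ j, (Real.sqrt (u j) - Real.sqrt (u' j)) ^ 2 ≤
      u' j * (2 * |τ j| + κ * D * v j + 2 * η) ^ 2) (hv : ∀ j, 0 ≤ v j) :
    κ * Real.exp (-1) / 32 * ∑ j, u' j * v j ^ 2 ≤
      6 * ∑ j, u' j * τ j ^ 2 + 6 * η ^ 2 * Z + κ * δ ^ 2 * Z := by
  set s : ι → ℝ := fun j => Real.sqrt (u j) * Real.sqrt (u' j) with hs
  have hs0 : ∀ j, 0 ≤ s j := fun j => by simp only [hs]; positivity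
  have e1 : ∑ j, (Real.sqrt (u j) - Real.sqrt (u' j)) ^ 2 = 2 * Z - 2 * ∑ j, s j := by
    have : ∀ j, (Real.sqrt (u j) - Real.sqrt (u' j)) ^ 2 = u j + u' j - 2 * s j := by
      intro j
      have h1 := Real.sq_sqrt (hu j)
      have h2 := Real.sq_sqrt (hu' j)
      simp only [hs]
      nlinarith
    simp only [this, Finset.sum_sub_distrib, Finset.sum_add_distrib, hsu, hsu', ← Finset.mul_sum]
    ring
  have e2 : ∑ j, s j ≤ Z := by
    have : 0 ≤ ∑ j, (Real.sqrt (u j) - Real.sqrt (u' j)) ^ 2 :=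
      Finset.sum_nonneg fun j _ => sq_nonneg _
    rw [e1] at this
    linarith
  have e3 : ∑ j, s j * (1 + κ * v j ^ 2 / 16 - κ * δ ^ 2) ≤ Z :=
    (Finset.sum_le_sum fun j _ => ha j).trans hsw
  have e4 : ∑ j, s j * (1 + κ * v j ^ 2 / 16 - κ * δ ^ 2) =
      ∑ j, s j + κ / 16 * ∑ j, s j * v j ^ 2 - κ * δ ^ 2 * ∑ j, s j := by
    rw [Finset.mul_sum, Finset.mul_sum, ← Finset.sum_add_distrib, ← Finset.sum_sub_distrib]
    refine Finset.sum_congr rfl fun j _ => ?_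
    ring
  have hδZ : κ * δ ^ 2 * ∑ j, s j ≤ κ * δ ^ 2 * Z :=
    mul_le_mul_of_nonneg_left e2 (by positivity)
  have e5 : κ / 16 * ∑ j, s j * v j ^ 2 ≤ (1 / 2) * ∑ j, (Real.sqrt (u j) - Real.sqrt (u' j)) ^ 2
      + κ * δ ^ 2 * Z := by
    rw [e1]
    rw [e4] at e3
    linarith
  set X := ∑ j, u' j * v j ^ 2 with hX
  set T := ∑ j, u' j * τ j ^ 2 with hT
  have e6 : Real.exp (-1) * X ≤ ∑ j, s j * v j ^ 2 := by
    rw [hX, Finset.mul_sum]
    refine Finset.sum_le_sum fun j _ => ?_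
    have := mul_le_mul_of_nonneg_right (hb j) (sq_nonneg (v j))
    calc Real.exp (-1) * (u' j * v j ^ 2) = u' j * Real.exp (-1) * v j ^ 2 := by ring
      _ ≤ _ := this
  have e7 : ∑ j, (Real.sqrt (u j) - Real.sqrt (u' j)) ^ 2 ≤
      3 * (4 * T + κ ^ 2 * D ^ 2 * X + 4 * η ^ 2 * Z) := by
    calc ∑ j, (Real.sqrt (u j) - Real.sqrt (u' j)) ^ 2
        ≤ ∑ j, u' j * (3 * (4 * τ j ^ 2 + κ ^ 2 * D ^ 2 * v j ^ 2 + 4 * η ^ 2)) := by
          refine Finset.sum_le_sum fun j _ => (hc j).trans ?_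
          refine mul_le_mul_of_nonneg_left ?_ (hu' j)
          have h1 : |τ j| ^ 2 = τ j ^ 2 := sq_abs _
          nlinarith [sq_nonneg (2 * |τ j| - κ * D * v j), sq_nonneg (2 * |τ j| - 2 * η),
            sq_nonneg (κ * D * v j - 2 * η)]
      _ = 3 * (4 * T + κ ^ 2 * D ^ 2 * X + 4 * η ^ 2 * Z) := by
          rw [hX, hT, ← hsu']
          simp only [Finset.mul_sum, ← Finset.sum_add_distrib]
          refine Finset.sum_congr rfl fun j _ => ?_
          ring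
  have hexp : Real.exp (-1) ≥ 1 / 3 := by
    have h1 : Real.exp 1 < 3 := by
      have := Real.exp_one_lt_d9
      linarith
    rw [Real.exp_neg, ge_iff_le, one_div]
    exact inv_anti₀ (Real.exp_pos 1) h1.le
  have hκ2 : κ ^ 2 * D ^ 2 = κ * (1 / 300) := by rw [← hκD]; ring
  rw [hκ2] at e7
  have hXnn : 0 ≤ X := Finset.sum_nonneg fun j _ => mul_nonneg (hu' j) (sq_nonneg _)
  have e8 : κ / 16 * (Real.exp (-1) * X) ≤ κ / 16 * ∑ j, s j * v j ^ 2 :=
    mul_le_mul_of_nonneg_left e6 (by positivity)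
  have e9 : κ / 200 * X ≤ κ * Real.exp (-1) / 32 * X := by
    refine mul_le_mul_of_nonneg_right ?_ hXnn
    nlinarith
  nlinarith

end reallemmas


section cells

variable {K : Set (EE d)}

lemma V_diff {x₀ : EE d} {D κ : ℝ} (hκ : 0 ≤ κ) (hD : ∀ x ∈ K, ‖x - x₀‖ ≤ D) {x y : EE d}
    (hx : x ∈ K) (hy : y ∈ K) :
    |κ / 2 * ‖x - x₀‖ ^ 2 - κ / 2 * ‖y - x₀‖ ^ 2| ≤ κ * D * ‖x - y‖ := by
  have h1 : |‖x - x₀‖ - ‖y - x₀‖| ≤ ‖x - y‖ := by
    have := abs_norm_sub_norm_le (x - x₀) (y - x₀)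
    simpa using this
  have hx' := hD x hx
  have hy' := hD y hy
  have e : κ / 2 * ‖x - x₀‖ ^ 2 - κ / 2 * ‖y - x₀‖ ^ 2 =
      κ / 2 * ((‖x - x₀‖ - ‖y - x₀‖) * (‖x - x₀‖ + ‖y - x₀‖)) := by ring
  rw [e, abs_mul, abs_mul, abs_of_nonneg (by positivity : 0 ≤ κ / 2),
    abs_of_nonneg (by positivity : 0 ≤ ‖x - x₀‖ + ‖y - x₀‖)]
  have h2 : |‖x - x₀‖ - ‖y - x₀‖| * (‖x - x₀‖ + ‖y - x₀‖) ≤ ‖x - y‖ * (2 * D) :=
    mul_le_mul h1 (by linarith) (by positivity) (norm_nonneg _)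
  calc κ / 2 * (|‖x - x₀‖ - ‖y - x₀‖| * (‖x - x₀‖ + ‖y - x₀‖)) ≤ κ / 2 * (‖x - y‖ * (2 * D)) :=
        mul_le_mul_of_nonneg_left h2 (by positivity)
    _ = κ * D * ‖x - y‖ := by ring

/-- Bounds of a set integral of `E` by the value at a point. -/
lemma E_bounds {x₀ : EE d} {D κ δ : ℝ} (hκ : 0 ≤ κ) (hD : ∀ x ∈ K, ‖x - x₀‖ ≤ D) {A : Set (EE d)}
    (hA : IsCompact A) (hAK : A ⊆ K) (hAd : ∀ x ∈ A, ∀ x' ∈ A, ‖x - x'‖ ≤ δ) (hD0 : 0 ≤ D)
    {a : EE d} (ha : a ∈ A) :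
    (volume A).toReal * Real.exp (-(κ / 2 * ‖a - x₀‖ ^ 2) - κ * D * δ) ≤ ∫ x in A, E κ x₀ x ∧
    ∫ x in A, E κ x₀ x ≤ (volume A).toReal * Real.exp (-(κ / 2 * ‖a - x₀‖ ^ 2) + κ * D * δ) := by
  have cE := continuous_E κ x₀
  have hfin : volume A ≠ ⊤ := hA.measure_lt_top.ne
  have key : ∀ x ∈ A, |κ / 2 * ‖x - x₀‖ ^ 2 - κ / 2 * ‖a - x₀‖ ^ 2| ≤ κ * D * δ := by
    intro x hx
    refine (V_diff hκ hD (hAK hx) (hAK ha)).trans ?_
    exact mul_le_mul_of_nonneg_left (hAd x hx a ha) (by positivity)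
  constructor
  · have : ∫ _x in A, Real.exp (-(κ / 2 * ‖a - x₀‖ ^ 2) - κ * D * δ) ≤ ∫ x in A, E κ x₀ x := by
      refine setIntegral_mono_on (integrableOn_const hfin)
        (cE.continuousOn.integrableOn_compact hA) hA.measurableSet ?_
      intro x hx
      apply Real.exp_le_exp.2
      have := (abs_le.1 (key x hx)).2
      linarith
    rwa [setIntegral_const, smul_eq_mul, measureReal_def] at this
  · have : ∫ x in A, E κ x₀ x ≤ ∫ _x in A, Real.exp (-(κ / 2 * ‖a - x₀‖ ^ 2) + κ * D * δ) := by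
      refine setIntegral_mono_on (cE.continuousOn.integrableOn_compact hA)
        (integrableOn_const hfin) hA.measurableSet ?_
      intro x hx
      apply Real.exp_le_exp.2
      have := (abs_le.1 (key x hx)).1
      linarith
    rwa [setIntegral_const, smul_eq_mul, measureReal_def] at this

lemma bary {μ : Measure (EE d)} [IsFiniteMeasure μ] {S : Set (EE d)} (hS : IsCompact S) {δ : ℝ}
    (hSd : ∀ x ∈ S, ∀ x' ∈ S, ‖x - x'‖ ≤ δ) {a : EE d} (ha : a ∈ S) :
    ‖(∫ x in S, x ∂μ) - μ.real S • a‖ ≤ δ * μ.real S := by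
  have h1 : IntegrableOn (fun x : EE d => x) S μ :=
    continuous_id.continuousOn.integrableOn_compact hS
  have h2 : (∫ x in S, x ∂μ) - μ.real S • a = ∫ x in S, (x - a) ∂μ := by
    rw [integral_sub h1 (integrableOn_const (measure_ne_top _ _)), setIntegral_const]
  rw [h2]
  exact norm_setIntegral_le_of_norm_le_const (measure_lt_top _ _) fun x hx => hSd x hx a ha

lemma E_le_one (κ : ℝ) (hκ : 0 ≤ κ) (x₀ x : EE d) : E κ x₀ x ≤ 1 := by
  unfold E
  rw [Real.exp_le_one_iff]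
  have : 0 ≤ κ / 2 * ‖x - x₀‖ ^ 2 := by positivity
  linarith

lemma setIntegral_E_le (κ : ℝ) (hκ : 0 ≤ κ) (x₀ : EE d) {A : Set (EE d)} (hA : IsCompact A) :
    ∫ x in A, E κ x₀ x ≤ (volume A).toReal := by
  have cE := continuous_E κ x₀
  have : ∫ x in A, E κ x₀ x ≤ ∫ _x in A, (1 : ℝ) := by
    refine setIntegral_mono_on (cE.continuousOn.integrableOn_compact hA)
      (integrableOn_const hA.measure_lt_top.ne) hA.measurableSet ?_
    intro x _
    exact E_le_one κ hκ x₀ x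
  rwa [setIntegral_const, smul_eq_mul, mul_one, measureReal_def] at this

lemma per_cell (hK : Body K) {ε : ℝ} {g : EE d → ℝ} (h : Admissible K ε g) (x₀ : EE d)
    {D κ δ : ℝ} (hD0 : 0 < D) (hD : ∀ x ∈ K, ‖x - x₀‖ ≤ D) (hκ0 : 0 < κ) (hκ : κ * D ^ 2 = 1 / 300)
    (hδ0 : 0 < δ) (hδD : δ ≤ D) {A B : Set (EE d)} (hA : IsCompact A) (hB : IsCompact B)
    (hAK : A ⊆ K) (hBK : B ⊆ K) (hmass : rho K A = tilt K ε g B)
    (hAd : ∀ x ∈ A, ∀ x' ∈ A, ‖x - x'‖ ≤ δ) (hBd : ∀ x ∈ B, ∀ x' ∈ B, ‖x - x'‖ ≤ δ) :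
    ∃ v τ : ℝ, 0 ≤ v ∧
      Real.sqrt (∫ x in A, E κ x₀ x) * Real.sqrt (∫ x in B, E κ x₀ x) *
        (1 + κ * v ^ 2 / 16 - κ * δ ^ 2) ≤ ∫ x in midSet A B, E κ x₀ x ∧
      (∫ x in B, E κ x₀ x) * Real.exp (-1) ≤
        Real.sqrt (∫ x in A, E κ x₀ x) * Real.sqrt (∫ x in B, E κ x₀ x) ∧
      (Real.sqrt (∫ x in A, E κ x₀ x) - Real.sqrt (∫ x in B, E κ x₀ x)) ^ 2 ≤
        (∫ x in B, E κ x₀ x) * (2 * |τ| + κ * D * v + 2 * (κ * D * δ)) ^ 2 ∧
      (∫ x in B, E κ x₀ x) * τ ^ 2 ≤ ε ^ 2 * ∫ x in B, g x ^ 2 ∧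
      ((rho K A).toReal)⁻¹ * ‖(∫ x in A, x ∂(rho K)) - ∫ x in B, x ∂(tilt K ε g)‖ ^ 2 ≤
        (rho K A).toReal * (v + 2 * δ) ^ 2 ∧
      (rho K A).toReal ≤ 3 * (∫ x in B, E κ x₀ x) / (volume K).toReal := by
  have hκnn := hκ0.le
  have cE := continuous_E κ x₀
  have := hK.isProb
  have := tilt_isProb hK h
  set Kv := (volume K).toReal with hKv
  have hKvpos : 0 < Kv := volK_pos hK
  set α := (volume A).toReal with hα
  set β := (volume B).toReal with hβ
  set G := ∫ x in B, g x with hG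
  set m := (rho K A).toReal with hm
  have hAfin : volume A ≠ ⊤ := hA.measure_lt_top.ne
  have hBfin : volume B ≠ ⊤ := hB.measure_lt_top.ne
  have hαnn : 0 ≤ α := ENNReal.toReal_nonneg
  have hβnn : 0 ≤ β := ENNReal.toReal_nonneg
  have e1 : m = Kv⁻¹ * α := rho_real hK hA.measurableSet hAK
  have e2 : m = Kv⁻¹ * (β + ε * G) := by
    rw [hm, hmass]; exact tilt_real hK h hB.measurableSet hBK
  have e3 : α = β + ε * G := by
    have : Kv⁻¹ * α = Kv⁻¹ * (β + ε * G) := by rw [← e1, e2]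
    exact mul_left_cancel₀ (inv_ne_zero hKvpos.ne') this
  have hgB : IntegrableOn g B := (integrableOn_g hK h).mono_set hBK
  have e4 : |ε * G| ≤ 1 / 2 * β := by
    have : ‖∫ x in B, ε * g x‖ ≤ 1 / 2 * volume.real B :=
      norm_setIntegral_le_of_norm_le_const hB.measure_lt_top fun x hx => by
        simpa using h.small x (hBK hx)
    rw [integral_const_mul, Real.norm_eq_abs, measureReal_def] at this
    exact this
  have e4' := abs_le.1 e4
  have hu0 : 0 ≤ ∫ x in A, E κ x₀ x := setIntegral_nonneg hA.measurableSet fun x _ => (E_pos _ _ _).le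
  have hu'0 : 0 ≤ ∫ x in B, E κ x₀ x := setIntegral_nonneg hB.measurableSet fun x _ => (E_pos _ _ _).le
  have hw0 : 0 ≤ ∫ x in midSet A B, E κ x₀ x :=
    setIntegral_nonneg (isCompact_midSet hA hB).measurableSet fun x _ => (E_pos _ _ _).le
  have hQ0 : 0 ≤ ∫ x in B, g x ^ 2 := setIntegral_nonneg hB.measurableSet fun x _ => sq_nonneg _
  rcases hαnn.eq_or_lt with hα0 | hαpos
  · -- null case
    have hβ0 : β = 0 := by
      have : β ≤ 0 := by linarith [e4'.1, e4'.2]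
      linarith
    have hAnull : volume A = 0 := by
      rcases (ENNReal.toReal_eq_zero_iff _).1 hα0.symm with h0 | h0
      · exact h0
      · exact absurd h0 hAfin
    have hBnull : volume B = 0 := by
      rcases (ENNReal.toReal_eq_zero_iff _).1 hβ0 with h0 | h0
      · exact h0
      · exact absurd h0 hBfin
    have hu : ∫ x in A, E κ x₀ x = 0 := setIntegral_measure_zero _ hAnull
    have hu' : ∫ x in B, E κ x₀ x = 0 := setIntegral_measure_zero _ hBnull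
    have hm0 : m = 0 := by rw [e1, ← hα0]; simp
    refine ⟨0, 0, le_rfl, ?_, ?_, ?_, ?_, ?_, ?_⟩
    · rw [hu]; simpa using hw0
    · rw [hu, hu']; simp
    · rw [hu, hu']; simp
    · rw [hu']; simp only [zero_mul]; positivity
    · rw [hm0]; simp
    · rw [hm0, hu']; simp
  -- main case
  have hβpos : 0 < β := by
    have : α ≤ 3 / 2 * β := by linarith [e4'.2]
    linarith
  have hAne : A.Nonempty := by
    apply nonempty_of_measure_ne_zero (μ := volume)
    intro h0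
    rw [hα, h0] at hαpos
    simp at hαpos
  have hBne : B.Nonempty := by
    apply nonempty_of_measure_ne_zero (μ := volume)
    intro h0
    rw [hβ, h0] at hβpos
    simp at hβpos
  obtain ⟨a, ha⟩ := hAne
  obtain ⟨a', ha'⟩ := hBne
  set τ := ε * G / β with hτdef
  have hτ : |τ| ≤ 1 / 2 := by
    rw [hτdef, abs_div, abs_of_pos hβpos, div_le_iff₀ hβpos]
    exact e4
  have hατ : α = β * (1 + τ) := by
    rw [hτdef, e3]
    field_simp
  set v := ‖a - a'‖ with hv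
  have hv2 : v ≤ 2 * D := by
    have h1 : a - a' = (a - x₀) - (a' - x₀) := by abel
    rw [hv, h1]
    refine (norm_sub_le _ _).trans ?_
    linarith [hD a (hAK ha), hD a' (hBK ha')]
  have hv0 : 0 ≤ v := norm_nonneg _
  set η := κ * D * δ with hη
  have hηle : η ≤ 1 / 300 := by
    have : κ * D * δ ≤ κ * D * D := mul_le_mul_of_nonneg_left hδD (by positivity)
    rw [hη]
    nlinarith
  have hη0 : 0 ≤ η := by rw [hη]; positivity
  have hvle : κ * D * v ≤ 2 / 300 := by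
    have : κ * D * v ≤ κ * D * (2 * D) := mul_le_mul_of_nonneg_left hv2 (by positivity)
    nlinarith
  obtain ⟨b1, b2⟩ := E_bounds (κ := κ) (δ := δ) hκnn hD hA hAK hAd hD0.le ha
  obtain ⟨b3, b4⟩ := E_bounds (κ := κ) (δ := δ) hκnn hD hB hBK hBd hD0.le ha'
  have hτ2 : 2 * |τ| ≤ 1 := by linarith
  obtain ⟨l1, l2⟩ := local_bound (τ := τ) (η := η) (w := κ * D * v) hβpos hατ hτ b1 b2 b3 b4
    (by simpa [hv] using V_diff hκnn hD (hAK ha) (hBK ha')) (by linarith)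
  refine ⟨v, τ, hv0, ?_, l1, l2, ?_, ?_, ?_⟩
  · exact cell_sqrt κ hκnn x₀ hA hB hAd hBd ha ha'
  · -- Cauchy-Schwarz
    have hle : (∫ x in B, E κ x₀ x) ≤ β := setIntegral_E_le κ hκnn x₀ hB
    set Q := ∫ x in B, g x ^ 2 with hQ
    have hCS : G ^ 2 ≤ β * Q := by
      set c := G / β with hc
      have hsq : IntegrableOn (fun x => g x ^ 2) B := (integrableOn_g_sq hK h).mono_set hBK
      have hnn : 0 ≤ ∫ x in B, (g x - c) ^ 2 :=
        setIntegral_nonneg hB.measurableSet fun x _ => sq_nonneg _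
      have hexp : ∫ x in B, (g x - c) ^ 2 = Q - 2 * c * G + c ^ 2 * β := by
        have : ∀ x, (g x - c) ^ 2 = g x ^ 2 - 2 * c * g x + c ^ 2 := fun x => by ring
        simp only [this]
        have i1 : IntegrableOn (fun x => g x ^ 2 - 2 * c * g x) B := hsq.sub (hgB.const_mul _)
        have i2 : ∫ x in B, (g x ^ 2 - 2 * c * g x + c ^ 2) =
            (∫ x in B, (g x ^ 2 - 2 * c * g x)) + ∫ _x in B, c ^ 2 :=
          integral_add i1 (integrableOn_const hBfin)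
        have i3 : ∫ x in B, (g x ^ 2 - 2 * c * g x) =
            (∫ x in B, g x ^ 2) - ∫ x in B, 2 * c * g x :=
          integral_sub hsq (hgB.const_mul _)
        rw [i2, i3, integral_const_mul, setIntegral_const, smul_eq_mul, measureReal_def]
        ring
      rw [hexp] at hnn
      have hcG : c * β = G := by rw [hc]; field_simp
      have : G ^ 2 = β * (2 * c * G - c ^ 2 * β) := by
        rw [← hcG]; ring
      rw [this]
      exact mul_le_mul_of_nonneg_left (by linarith) hβpos.le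
    calc (∫ x in B, E κ x₀ x) * τ ^ 2 ≤ β * τ ^ 2 :=
          mul_le_mul_of_nonneg_right hle (sq_nonneg _)
      _ = ε ^ 2 * G ^ 2 / β := by rw [hτdef]; field_simp
      _ ≤ ε ^ 2 * (β * Q) / β := by gcongr
      _ = ε ^ 2 * Q := by field_simp
  · -- Qval term
    have hmpos : 0 < m := by rw [e1]; positivity
    have hσ : (tilt K ε g).real B = m := by
      rw [measureReal_def, hm, hmass]
    have hρ : (rho K).real A = m := by rw [measureReal_def]
    have b5 := bary (μ := rho K) hA hAd ha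
    have b6 := bary (μ := tilt K ε g) hB hBd ha'
    rw [hρ] at b5
    rw [hσ] at b6
    have hnorm : ‖(∫ x in A, x ∂(rho K)) - ∫ x in B, x ∂(tilt K ε g)‖ ≤ m * (v + 2 * δ) := by
      have e5 : (∫ x in A, x ∂(rho K)) - ∫ x in B, x ∂(tilt K ε g) =
          ((∫ x in A, x ∂(rho K)) - m • a) - ((∫ x in B, x ∂(tilt K ε g)) - m • a') +
            m • (a - a') := by
        rw [smul_sub]; abel
      rw [e5]
      refine (norm_add_le _ _).trans ?_
      have e6 : ‖m • (a - a')‖ = m * v := by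
        rw [norm_smul, Real.norm_eq_abs, abs_of_pos hmpos]
      rw [e6]
      have := norm_sub_le ((∫ x in A, x ∂(rho K)) - m • a) ((∫ x in B, x ∂(tilt K ε g)) - m • a')
      nlinarith
    calc m⁻¹ * ‖(∫ x in A, x ∂(rho K)) - ∫ x in B, x ∂(tilt K ε g)‖ ^ 2
        ≤ m⁻¹ * (m * (v + 2 * δ)) ^ 2 := by
          gcongr
      _ = m * (v + 2 * δ) ^ 2 := by field_simp
  · -- mass bound
    have hVa' : κ / 2 * ‖a' - x₀‖ ^ 2 ≤ 1 / 600 := by
      have h1 := hD a' (hBK ha')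
      have h2 : ‖a' - x₀‖ ^ 2 ≤ D ^ 2 := pow_le_pow_left₀ (norm_nonneg _) h1 2
      nlinarith
    have hexp : 1 / 2 ≤ Real.exp (-(κ / 2 * ‖a' - x₀‖ ^ 2) - κ * D * δ) := by
      have := Real.add_one_le_exp (-(κ / 2 * ‖a' - x₀‖ ^ 2) - κ * D * δ)
      rw [← hη] at this ⊢
      linarith
    have hβle : β ≤ 2 * ∫ x in B, E κ x₀ x := by
      have : β * (1 / 2) ≤ β * Real.exp (-(κ / 2 * ‖a' - x₀‖ ^ 2) - κ * D * δ) :=
        mul_le_mul_of_nonneg_left hexp hβpos.le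
      linarith
    have hαle : α ≤ 3 * ∫ x in B, E κ x₀ x := by
      have : α ≤ 3 / 2 * β := by linarith [e4'.2]
      linarith
    rw [e1, div_eq_inv_mul]
    exact mul_le_mul_of_nonneg_left hαle (inv_nonneg.2 hKvpos.le)

end cells

section cover

variable {K : Set (EE d)}

lemma cover_A (hK : Body K) {ρ' σ : Measure (EE d)} (hρ' : ρ' = rho K) {ι : Type} [Fintype ι]
    (F : MFam ρ' σ ι) (hsum : ∑ j, ρ' (F.A j) = 1) :
    volume (K \ ⋃ j, F.A j) = 0 := by
  subst hρ'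
  have := hK.isProb
  have hm : ∀ j, MeasurableSet (F.A j) := fun j => (F.hA j).1.measurableSet
  have hd : Pairwise (Function.onFun (AEDisjoint (rho K)) F.A) := fun i j hij =>
    rho_absCont (aedisj_A (F.sep i j hij))
  have h1 : rho K (⋃ j, F.A j) = 1 := by
    rw [measure_iUnion₀ hd (fun j => (hm j).nullMeasurableSet), tsum_fintype, hsum]
  have hU : MeasurableSet (⋃ j, F.A j) := MeasurableSet.iUnion hm
  have h2 := (prob_compl_eq_zero_iff hU).2 h1
  rw [rho_apply hK _ hU.compl] at h2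
  have h3 : volume ((⋃ j, F.A j)ᶜ ∩ K) = 0 := by
    rcases mul_eq_zero.1 h2 with h0 | h0
    · exact absurd h0 (ENNReal.inv_ne_zero.2 hK.volume_ne_top)
    · exact h0
  rwa [sdiff_eq, inter_comm]

lemma rho_absCont_tilt (hK : Body K) {ε : ℝ} {g : EE d → ℝ} (h : Admissible K ε g) :
    rho K ≪ tilt K ε g := by
  have hm : Measurable fun x => ENNReal.ofReal (1 + ε * g x) :=
    ((measurable_const.add (measurable_const.mul h.meas))).ennreal_ofReal
  refine withDensity_absolutelyContinuous' hm.aemeasurable ?_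
  filter_upwards [hK.ae_mem] with x hx
  have := (h.density_pos hx).1
  simp only [ne_eq, ENNReal.ofReal_eq_zero, not_le]
  linarith

lemma cover_B (hK : Body K) {ε : ℝ} {g : EE d → ℝ} (h : Admissible K ε g) {ρ' : Measure (EE d)}
    {ι : Type} [Fintype ι] (F : MFam ρ' (tilt K ε g) ι) (hsum : ∑ j, ρ' (F.A j) = 1) :
    volume (K \ ⋃ j, F.B j) = 0 := by
  have := hK.isProb
  have := tilt_isProb hK h
  have hm : ∀ j, MeasurableSet (F.B j) := fun j => (F.hB j).1.measurableSet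
  have hd : Pairwise (Function.onFun (AEDisjoint (tilt K ε g)) F.B) := fun i j hij =>
    tilt_absCont ε g (aedisj_B (F.sep i j hij))
  have h1 : tilt K ε g (⋃ j, F.B j) = 1 := by
    rw [measure_iUnion₀ hd (fun j => (hm j).nullMeasurableSet), tsum_fintype]
    simp only [← F.mass]
    exact hsum
  have hU : MeasurableSet (⋃ j, F.B j) := MeasurableSet.iUnion hm
  have h2 := (prob_compl_eq_zero_iff hU).2 h1
  have h2' := rho_absCont_tilt hK h h2
  rw [rho_apply hK _ hU.compl] at h2'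
  have h3 : volume ((⋃ j, F.B j)ᶜ ∩ K) = 0 := by
    rcases mul_eq_zero.1 h2' with h0 | h0
    · exact absurd h0 (ENNReal.inv_ne_zero.2 hK.volume_ne_top)
    · exact h0
  rwa [sdiff_eq, inter_comm]

end cover

end SMAux

end Crest.Agent.OTS
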