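import Crest.Agent.Lib.OTS.VarDual
import Crest.Agent.Lib.OTS.SDOT

/-!
# Telescoping along a polygonal path of atoms (part of task T5)
-/

open MeasureTheory Set Finset
open scoped ENNReal RealInnerProductSpace

namespace Crest.Agent.OTS

variable {d : ℕ} {K : Set (EE d)} {I : Type} [Fintype I]

/-- Weighted Cauchy–Schwarz. -/
lemma cs_weighted {m : I → ℝ} (hm : ∀ a, 0 < m a) (p q : I → EE d) :
    |∑ a, ⟪p a, q a⟫| ≤ Real.sqrt (∑ a, (m a)⁻¹ * ‖p a‖ ^ 2) * Real.sqrt (∑ a, m a * ‖q a‖ ^ 2) := by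
  have h1 : |∑ a, ⟪p a, q a⟫| ≤ ∑ a, (Real.sqrt ((m a)⁻¹) * ‖p a‖) * (Real.sqrt (m a) * ‖q a‖) := by
    refine (Finset.abs_sum_le_sum_abs _ _).trans (Finset.sum_le_sum fun a _ => ?_)
    have h2 : Real.sqrt ((m a)⁻¹) * Real.sqrt (m a) = 1 := by
      rw [← Real.sqrt_mul (inv_nonneg.2 (hm a).le), inv_mul_cancel₀ (hm a).ne', Real.sqrt_one]
    calc |⟪p a, q a⟫| ≤ ‖p a‖ * ‖q a‖ := abs_real_inner_le_norm _ _
      _ = (Real.sqrt ((m a)⁻¹) * Real.sqrt (m a)) * (‖p a‖ * ‖q a‖) := by rw [h2, one_mul]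
      _ = _ := by ring
  refine h1.trans ?_
  have h3 := Real.sum_mul_le_sqrt_mul_sqrt Finset.univ (fun a => Real.sqrt ((m a)⁻¹) * ‖p a‖)
    (fun a => Real.sqrt (m a) * ‖q a‖)
  have e1 : ∀ a, (Real.sqrt ((m a)⁻¹) * ‖p a‖) ^ 2 = (m a)⁻¹ * ‖p a‖ ^ 2 := fun a => by
    rw [mul_pow, Real.sq_sqrt (inv_nonneg.2 (hm a).le)]
  have e2 : ∀ a, (Real.sqrt (m a) * ‖q a‖) ^ 2 = m a * ‖q a‖ ^ 2 := fun a => by
    rw [mul_pow, Real.sq_sqrt (hm a).le]
  simp only [e1, e2] at h3
  exact h3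

/-- The abstract telescoping inequality. -/
lemma chain_abstract {N : ℕ} (Y s s' : ℕ → I → EE d) (A A' : ℕ → ℝ)
    (hA : ∀ k ≤ N, A k = ∑ a, ⟪s k a, Y k a⟫) (hA' : ∀ k ≤ N, A' k = ∑ a, ⟪s' k a, Y k a⟫)
    (h1 : ∀ k < N, ∑ a, ⟪s (k + 1) a, Y k a⟫ ≤ A k)
    (h2 : ∀ k < N, ∑ a, ⟪s' k a, Y (k + 1) a⟫ ≤ A' (k + 1)) :
    (A' 0 - A 0) - (A' N - A N) ≤
      ∑ k ∈ range N, ∑ a, ⟪s (k + 1) a - s' k a, Y (k + 1) a - Y k a⟫ := by
  have := Finset.sum_range_sub' (fun k => A' k - A k) N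
  rw [← this]
  refine Finset.sum_le_sum fun k hk => ?_
  have hk' : k < N := Finset.mem_range.1 hk
  have e : ∑ a, ⟪s (k + 1) a - s' k a, Y (k + 1) a - Y k a⟫ =
      (∑ a, ⟪s (k + 1) a, Y (k + 1) a⟫) - (∑ a, ⟪s (k + 1) a, Y k a⟫) -
        (∑ a, ⟪s' k a, Y (k + 1) a⟫) + (∑ a, ⟪s' k a, Y k a⟫) := by
    rw [← Finset.sum_sub_distrib, ← Finset.sum_sub_distrib, ← Finset.sum_add_distrib]
    refine Finset.sum_congr rfl fun a _ => ?_
    simp only [inner_sub_left, inner_sub_right]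
    ring
  rw [e, ← hA (k + 1) hk', ← hA' k hk'.le]
  have := h1 k hk'
  have := h2 k hk'
  linarith

/-- Perturbing by an injective family gives an injective family for most parameters. -/
lemma exists_tau_injective (x : I → EE d) {y : I → EE d} (hy : Function.Injective y) {t : ℝ}
    (ht : 0 < t) : ∃ τ, 0 < τ ∧ τ < t ∧ Function.Injective fun a => x a + τ • y a := by
  classical
  -- for each pair at most one bad parameter
  let bad : I × I → Set ℝ := fun p => {τ | p.1 ≠ p.2 ∧ x p.1 + τ • y p.1 = x p.2 + τ • y p.2}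
  have hbad : ∀ p, (bad p).Finite := fun p => by
    refine Set.Subsingleton.finite ?_
    rintro τ₁ ⟨hne, h₁⟩ τ₂ ⟨-, h₂⟩
    have hsub : (τ₁ - τ₂) • (y p.1 - y p.2) = 0 := by
      have h3 : (τ₁ • y p.1 - τ₁ • y p.2) = x p.2 - x p.1 := by
        rw [sub_eq_sub_iff_add_eq_add, add_comm (τ₁ • y p.1), h₁, add_comm]
      have h4 : (τ₂ • y p.1 - τ₂ • y p.2) = x p.2 - x p.1 := by
        rw [sub_eq_sub_iff_add_eq_add, add_comm (τ₂ • y p.1), h₂, add_comm]
      have h5 : τ₁ • y p.1 - τ₁ • y p.2 - (τ₂ • y p.1 - τ₂ • y p.2) = 0 := by rw [h3, h4, sub_self]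
      rw [← h5]; module
    rcases smul_eq_zero.1 hsub with h | h
    · linarith
    · exact absurd (hy (sub_eq_zero.1 h)) hne
  have hfin : (⋃ p, bad p).Finite := Set.finite_iUnion hbad
  obtain ⟨τ, hτ, hnot⟩ := (Set.Ioo_infinite ht).exists_notMem_finite hfin
  refine ⟨τ, hτ.1, hτ.2, ?_⟩
  intro a b hab
  by_contra hne
  exact hnot (Set.mem_iUnion.2 ⟨(a, b), hne, hab⟩)

section chain

variable [Nonempty I]

/-- The chain estimate: the functional `y ↦ a(σ, y) - a(ρ, y)` is Lipschitz in the weighted `ℓ²`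
norm with constant `√P`, as soon as the barycentric bound `P` holds at every injective atom family. -/
theorem chain_bound (hK : Body K) {σ : Measure (EE d)} [IsProbabilityMeasure σ] (hσ : σ ≪ volume)
    (hσK : σ Kᶜ = 0) {m : I → ℝ} (hm : ∀ a, 0 < m a) (hm1 : ∑ a, m a = 1) {P : ℝ}
    (hGT : ∀ y : I → EE d, Function.Injective y → ∀ c c' : I → ℝ,
      (∀ a, rho K (lagCell y c a) = ENNReal.ofReal (m a)) →
      (∀ a, σ (lagCell y c' a) = ENNReal.ofReal (m a)) →
      ∑ a, (m a)⁻¹ * ‖sMom (rho K) y c a - sMom σ y c' a‖ ^ 2 ≤ P)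
    {y z : I → EE d} (hy : Function.Injective y) (hz : Function.Injective z) {c c' c₀ c₁ : I → ℝ}
    (hc : ∀ a, rho K (lagCell y c a) = ENNReal.ofReal (m a))
    (hc' : ∀ a, rho K (lagCell z c' a) = ENNReal.ofReal (m a))
    (hc₀ : ∀ a, σ (lagCell y c₀ a) = ENNReal.ofReal (m a))
    (hc₁ : ∀ a, σ (lagCell z c₁ a) = ENNReal.ofReal (m a)) :
    (Fval σ m y c₀ - Fval (rho K) m y c) - (Fval σ m z c₁ - Fval (rho K) m z c') ≤
      Real.sqrt P * Real.sqrt (∑ a, m a * ‖y a - z a‖ ^ 2) := by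
  have hρ := hK.isProb
  have hρac : rho K ≪ volume := rho_absCont
  have hρK := hK.rho_compl
  obtain ⟨D, hD⟩ : ∃ D, ∀ x ∈ K, ‖x‖ ≤ D := hK.compact.exists_bound_of_continuousOn
    continuous_id.continuousOn
  have hD0 : 0 ≤ D := by
    obtain ⟨x, hx⟩ := hK.interior_nonempty
    exact (norm_nonneg _).trans (hD x (interior_subset hx))
  set W := ∑ a, m a * ‖y a - z a‖ ^ 2 with hW
  set Wy := ∑ a, m a * ‖y a‖ ^ 2 with hWy
  set BΔ := ∑ a, 2 * D * m a * ‖z a - y a‖ with hBΔ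
  set By := ∑ a, 2 * D * m a * ‖y a‖ with hBy
  have hBΔ0 : 0 ≤ BΔ := Finset.sum_nonneg fun a _ => by have := hm a; positivity
  have hBy0 : 0 ≤ By := Finset.sum_nonneg fun a _ => by have := hm a; positivity
  set K₀ := Real.sqrt P * Real.sqrt Wy + BΔ + By with hK₀
  -- it suffices to prove the bound with an error `K₀ / N`
  have key : ∀ N : ℕ, 0 < N →
      (Fval σ m y c₀ - Fval (rho K) m y c) - (Fval σ m z c₁ - Fval (rho K) m z c') ≤
        Real.sqrt P * Real.sqrt W + K₀ / N := by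
    intro N hN
    have hN' : (0 : ℝ) < N := by exact_mod_cast hN
    set t : ℝ := 1 / (N : ℝ) ^ 2 with ht
    have ht0 : 0 < t := by positivity
    -- the path
    let path : ℕ → ℝ → I → EE d := fun k τ a =>
      (1 - (k : ℝ) / N) • y a + ((k : ℝ) / N) • z a + τ • y a
    have hpath0 : path 0 0 = y := by
      ext1 a; simp [path]
    have hpathN : path N 0 = z := by
      ext1 a
      have : (N : ℝ) / N = 1 := div_self hN'.ne'
      simp [path, this]
    have hτ : ∀ k : ℕ, ∃ τ : ℝ, 0 ≤ τ ∧ τ ≤ t ∧ (k = 0 → τ = 0) ∧ (k = N → τ = 0) ∧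
        Function.Injective (path k τ) := by
      intro k
      by_cases h0 : k = 0
      · subst h0
        exact ⟨0, le_rfl, ht0.le, fun _ => rfl, fun h => rfl, by rwa [hpath0]⟩
      by_cases h1 : k = N
      · subst h1
        exact ⟨0, le_rfl, ht0.le, fun _ => rfl, fun h => rfl, by rwa [hpathN]⟩
      obtain ⟨τ, h1τ, h2τ, h3τ⟩ := exists_tau_injective
        (fun a => (1 - (k : ℝ) / N) • y a + ((k : ℝ) / N) • z a) hy ht0
      exact ⟨τ, h1τ.le, h2τ.le, fun h => absurd h h0, fun h => absurd h h1, h3τ⟩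
    choose τ hτ0 hτt hτz hτN hτinj using hτ
    let Y : ℕ → I → EE d := fun k => path k (τ k)
    have hY0 : Y 0 = y := by simp only [Y, hτz 0 rfl]; exact hpath0
    have hYN : Y N = z := by simp only [Y, hτN N rfl]; exact hpathN
    have hYinj : ∀ k, Function.Injective (Y k) := fun k => hτinj k
    have hN0 : (0 : ℕ) ≠ N := hN.ne
    -- weights for `ρ`
    have hC : ∀ k : ℕ, ∃ C : I → ℝ, (∀ a, rho K (lagCell (Y k) C a) = ENNReal.ofReal (m a)) ∧
        (k = 0 → C = c) ∧ (k = N → C = c') := by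
      intro k
      by_cases h0 : k = 0
      · subst h0
        refine ⟨c, by rw [hY0]; exact hc, fun _ => rfl, fun h => absurd h hN0⟩
      by_cases h1 : k = N
      · subst h1
        refine ⟨c', by rw [hYN]; exact hc', fun h => absurd h h0, fun _ => rfl⟩
      obtain ⟨C, hC⟩ := exists_lagWeights hK.compact (rho K) hρac hρK m hm hm1 (Y k) (hYinj k)
      exact ⟨C, hC, fun h => absurd h h0, fun h => absurd h h1⟩
    choose C hCm hC0 hCN using hC
    have hC' : ∀ k : ℕ, ∃ C : I → ℝ, (∀ a, σ (lagCell (Y k) C a) = ENNReal.ofReal (m a)) ∧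
        (k = 0 → C = c₀) ∧ (k = N → C = c₁) := by
      intro k
      by_cases h0 : k = 0
      · subst h0
        refine ⟨c₀, by rw [hY0]; exact hc₀, fun _ => rfl, fun h => absurd h hN0⟩
      by_cases h1 : k = N
      · subst h1
        refine ⟨c₁, by rw [hYN]; exact hc₁, fun h => absurd h h0, fun _ => rfl⟩
      obtain ⟨C, hC⟩ := exists_lagWeights hK.compact σ hσ hσK m hm hm1 (Y k) (hYinj k)
      exact ⟨C, hC, fun h => absurd h h0, fun h => absurd h h1⟩
    choose Ct hCtm hCt0 hCtN using hC'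
    let s : ℕ → I → EE d := fun k a => sMom (rho K) (Y k) (C k) a
    let s' : ℕ → I → EE d := fun k a => sMom σ (Y k) (Ct k) a
    let A : ℕ → ℝ := fun k => Fval (rho K) m (Y k) (C k)
    let A' : ℕ → ℝ := fun k => Fval σ m (Y k) (Ct k)
    have hA0 : A 0 = Fval (rho K) m y c := by simp only [A, hY0, hC0 0 rfl]
    have hAN : A N = Fval (rho K) m z c' := by simp only [A, hYN, hCN N rfl]
    have hA'0 : A' 0 = Fval σ m y c₀ := by simp only [A', hY0, hCt0 0 rfl]
    have hA'N : A' N = Fval σ m z c₁ := by simp only [A', hYN, hCtN N rfl]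
    have hchain := chain_abstract (N := N) Y s s' A A'
      (fun k _ => Fval_eq hρac hK.compact hρK hm (hYinj k) (hCm k))
      (fun k _ => Fval_eq hσ hK.compact hσK hm (hYinj k) (hCtm k))
      (fun k _ => weak_dual hρac hK.compact hρK hm (hYinj (k + 1)) (hCm (k + 1)) (Y k) (C k))
      (fun k _ => weak_dual hσ hK.compact hσK hm (hYinj k) (hCtm k) (Y (k + 1)) (Ct (k + 1)))
    rw [hA0, hAN, hA'0, hA'N] at hchain
    refine hchain.trans ?_
    -- the increments
    have hinc : ∀ k a, Y (k + 1) a - Y k a =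
        (1 / (N : ℝ)) • (z a - y a) + (τ (k + 1) - τ k) • y a := by
      intro k a
      simp only [Y, path]
      push_cast
      have : ((k : ℝ) + 1) / N = (k : ℝ) / N + 1 / N := by ring
      rw [this]
      module
    have hτdiff : ∀ k, |τ (k + 1) - τ k| ≤ t := by
      intro k
      rw [abs_le]
      constructor <;> linarith [hτ0 k, hτ0 (k + 1), hτt k, hτt (k + 1)]
    have hP0 : 0 ≤ Real.sqrt P := Real.sqrt_nonneg _
    have hWsymm : ∑ a, m a * ‖z a - y a‖ ^ 2 = W := by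
      rw [hW]; refine Finset.sum_congr rfl fun a _ => ?_; rw [norm_sub_rev]
    -- first part
    have part1 : ∀ k, ∑ a, ⟪s k a - s' k a, Y (k + 1) a - Y k a⟫ ≤
        (1 / (N : ℝ)) * (Real.sqrt P * Real.sqrt W) + t * (Real.sqrt P * Real.sqrt Wy) := by
      intro k
      have hPk : Real.sqrt (∑ a, (m a)⁻¹ * ‖s k a - s' k a‖ ^ 2) ≤ Real.sqrt P :=
        Real.sqrt_le_sqrt (hGT (Y k) (hYinj k) (C k) (Ct k) (hCm k) (hCtm k))
      have e : ∑ a, ⟪s k a - s' k a, Y (k + 1) a - Y k a⟫ =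
          (1 / (N : ℝ)) * ∑ a, ⟪s k a - s' k a, z a - y a⟫ +
            (τ (k + 1) - τ k) * ∑ a, ⟪s k a - s' k a, y a⟫ := by
        rw [Finset.mul_sum, Finset.mul_sum, ← Finset.sum_add_distrib]
        refine Finset.sum_congr rfl fun a _ => ?_
        rw [hinc, inner_add_right, inner_smul_right, inner_smul_right]
      rw [e]
      have h1 := cs_weighted hm (fun a => s k a - s' k a) (fun a => z a - y a)
      have h2 := cs_weighted hm (fun a => s k a - s' k a) y
      rw [hWsymm] at h1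
      have h1' : ∑ a, ⟪s k a - s' k a, z a - y a⟫ ≤ Real.sqrt P * Real.sqrt W :=
        (le_abs_self _).trans (h1.trans (mul_le_mul_of_nonneg_right hPk (Real.sqrt_nonneg _)))
      have h2' : |∑ a, ⟪s k a - s' k a, y a⟫| ≤ Real.sqrt P * Real.sqrt Wy :=
        h2.trans (mul_le_mul_of_nonneg_right hPk (Real.sqrt_nonneg _))
      have h3 : (τ (k + 1) - τ k) * ∑ a, ⟪s k a - s' k a, y a⟫ ≤
          t * (Real.sqrt P * Real.sqrt Wy) := by
        calc (τ (k + 1) - τ k) * ∑ a, ⟪s k a - s' k a, y a⟫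
            ≤ |τ (k + 1) - τ k| * |∑ a, ⟪s k a - s' k a, y a⟫| := by
              rw [← abs_mul]; exact le_abs_self _
          _ ≤ t * (Real.sqrt P * Real.sqrt Wy) :=
              mul_le_mul (hτdiff k) h2' (abs_nonneg _) ht0.le
      have h4 : (1 / (N : ℝ)) * ∑ a, ⟪s k a - s' k a, z a - y a⟫ ≤
          (1 / (N : ℝ)) * (Real.sqrt P * Real.sqrt W) :=
        mul_le_mul_of_nonneg_left h1' (by positivity)
      linarith
    -- moments are bounded
    have hsb : ∀ k a, ‖s k a‖ ≤ D * m a := fun k a =>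
      norm_sMom_le hK.compact hρK hm (hCm k) hD a
    -- second part
    have part2a : ∑ k ∈ range N, ∑ a, ⟪s (k + 1) a - s k a, z a - y a⟫ ≤ BΔ := by
      rw [Finset.sum_comm]
      have : ∀ a, ∑ k ∈ range N, ⟪s (k + 1) a - s k a, z a - y a⟫ = ⟪s N a - s 0 a, z a - y a⟫ := by
        intro a
        rw [← sum_inner, Finset.sum_range_sub (fun k => s k a)]
      simp only [this]
      refine Finset.sum_le_sum fun a _ => ?_
      calc ⟪s N a - s 0 a, z a - y a⟫ ≤ ‖s N a - s 0 a‖ * ‖z a - y a‖ := real_inner_le_norm _ _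
        _ ≤ (D * m a + D * m a) * ‖z a - y a‖ :=
            mul_le_mul_of_nonneg_right ((norm_sub_le _ _).trans (add_le_add (hsb _ _) (hsb _ _)))
              (norm_nonneg _)
        _ = 2 * D * m a * ‖z a - y a‖ := by ring
    have part2b : ∀ k, |∑ a, ⟪s (k + 1) a - s k a, y a⟫| ≤ By := by
      intro k
      refine (Finset.abs_sum_le_sum_abs _ _).trans (Finset.sum_le_sum fun a _ => ?_)
      calc |⟪s (k + 1) a - s k a, y a⟫| ≤ ‖s (k + 1) a - s k a‖ * ‖y a‖ :=
            abs_real_inner_le_norm _ _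
        _ ≤ (D * m a + D * m a) * ‖y a‖ :=
            mul_le_mul_of_nonneg_right ((norm_sub_le _ _).trans (add_le_add (hsb _ _) (hsb _ _)))
              (norm_nonneg _)
        _ = 2 * D * m a * ‖y a‖ := by ring
    have hsplit : ∀ k, ∑ a, ⟪s (k + 1) a - s' k a, Y (k + 1) a - Y k a⟫ =
        ∑ a, ⟪s k a - s' k a, Y (k + 1) a - Y k a⟫ +
          ((1 / (N : ℝ)) * ∑ a, ⟪s (k + 1) a - s k a, z a - y a⟫ +
            (τ (k + 1) - τ k) * ∑ a, ⟪s (k + 1) a - s k a, y a⟫) := by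
      intro k
      rw [Finset.mul_sum, Finset.mul_sum, ← Finset.sum_add_distrib, ← Finset.sum_add_distrib]
      refine Finset.sum_congr rfl fun a _ => ?_
      have : s (k + 1) a - s' k a = (s k a - s' k a) + (s (k + 1) a - s k a) := by abel
      rw [this, inner_add_left, hinc k a, inner_add_right (s (k + 1) a - s k a), inner_smul_right,
        inner_smul_right]
    simp only [hsplit]
    rw [Finset.sum_add_distrib, Finset.sum_add_distrib]
    have b1 : ∑ k ∈ range N, ∑ a, ⟪s k a - s' k a, Y (k + 1) a - Y k a⟫ ≤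
        Real.sqrt P * Real.sqrt W + (N : ℝ) * (t * (Real.sqrt P * Real.sqrt Wy)) := by
      calc ∑ k ∈ range N, ∑ a, ⟪s k a - s' k a, Y (k + 1) a - Y k a⟫
          ≤ ∑ _k ∈ range N, ((1 / (N : ℝ)) * (Real.sqrt P * Real.sqrt W) +
              t * (Real.sqrt P * Real.sqrt Wy)) := Finset.sum_le_sum fun k _ => part1 k
        _ = _ := by
            rw [Finset.sum_const, Finset.card_range, nsmul_eq_mul, mul_add]
            congr 1
            field_simp
    have b2 : ∑ k ∈ range N, (1 / (N : ℝ)) * ∑ a, ⟪s (k + 1) a - s k a, z a - y a⟫ ≤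
        (1 / (N : ℝ)) * BΔ := by
      rw [← Finset.mul_sum]
      exact mul_le_mul_of_nonneg_left part2a (by positivity)
    have b3 : ∑ k ∈ range N, (τ (k + 1) - τ k) * ∑ a, ⟪s (k + 1) a - s k a, y a⟫ ≤
        (N : ℝ) * (t * By) := by
      calc ∑ k ∈ range N, (τ (k + 1) - τ k) * ∑ a, ⟪s (k + 1) a - s k a, y a⟫
          ≤ ∑ _k ∈ range N, t * By := by
            refine Finset.sum_le_sum fun k _ => ?_
            calc (τ (k + 1) - τ k) * ∑ a, ⟪s (k + 1) a - s k a, y a⟫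
                ≤ |τ (k + 1) - τ k| * |∑ a, ⟪s (k + 1) a - s k a, y a⟫| := by
                  rw [← abs_mul]; exact le_abs_self _
              _ ≤ t * By := mul_le_mul (hτdiff k) (part2b k) (abs_nonneg _) ht0.le
        _ = _ := by rw [Finset.sum_const, Finset.card_range, nsmul_eq_mul]
    have hNt : (N : ℝ) * t = 1 / N := by
      rw [ht]; field_simp
    have hK₀' : K₀ / N = (N : ℝ) * (t * (Real.sqrt P * Real.sqrt Wy)) + (1 / (N : ℝ)) * BΔ +
        (N : ℝ) * (t * By) := by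
      have h1 : (N : ℝ) * (t * (Real.sqrt P * Real.sqrt Wy)) = (1 / N) * (Real.sqrt P * Real.sqrt Wy) := by
        rw [← mul_assoc, hNt]
      have h2 : (N : ℝ) * (t * By) = (1 / N) * By := by rw [← mul_assoc, hNt]
      rw [h1, h2, hK₀]; ring
    rw [hK₀']
    linarith
  -- conclude
  refine le_of_forall_pos_le_add fun η hη => ?_
  obtain ⟨N, hN⟩ := exists_nat_gt (K₀ / η)
  have hK₀0 : 0 ≤ K₀ := by
    rw [hK₀]; positivity
  have hNpos : (0 : ℝ) < N := lt_of_le_of_lt (div_nonneg hK₀0 hη.le) hN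
  have hN0 : 0 < N := by exact_mod_cast hNpos
  refine (key N hN0).trans ?_
  have : K₀ / N ≤ η := by
    rw [div_le_iff₀ hNpos]
    rw [div_lt_iff₀ hη] at hN
    linarith
  linarith

end chain

end Crest.Agent.OTS
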