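import Crest.Agent.Lib.OTS.GT
import Crest.Agent.Lib.OTS.VarChain

/-!
# The variance inequality for finitely many atoms (task T5)

`Var_ρ (lagPot y c - lagPot z c') ≤ C ∑ m a ‖y a - z a‖²`.
-/

open MeasureTheory Set Filter
open scoped ENNReal RealInnerProductSpace Topology

namespace Crest.Agent.OTS

variable {d : ℕ} {K : Set (EE d)} {I : Type} [Fintype I] [Nonempty I]

/-- The dual functional for a tilted measure. -/
lemma Fval_tilt (hK : Body K) {ε : ℝ} {g : EE d → ℝ} (h : Admissible K ε g) (hg : Continuous g)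
    (m : I → ℝ) (y : I → EE d) (c : I → ℝ) :
    Fval (tilt K ε g) m y c = Fval (rho K) m y c + ε * ∫ x, lagPot y c x * g x ∂(rho K) := by
  have hρ := hK.isProb
  unfold Fval
  rw [integral_tilt hK h]
  have h1 : Integrable (lagPot y c) (rho K) :=
    integrable_of_continuous hK.compact hK.rho_compl (continuous_lagPot y c)
  have h2 : Integrable (fun x => lagPot y c x * g x) (rho K) :=
    integrable_of_continuous hK.compact hK.rho_compl ((continuous_lagPot y c).mul hg)
  have e : ∀ x, (1 + ε * g x) • lagPot y c x = lagPot y c x + ε * (lagPot y c x * g x) := fun x => by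
    rw [smul_eq_mul]; ring
  simp only [e]
  rw [integral_add h1 (h2.const_mul ε), integral_const_mul]
  ring

/-- Shifting the weights does not change the cells. -/
lemma lagCell_shift (y : I → EE d) (c : I → ℝ) (t : ℝ) (a : I) :
    lagCell y (fun b => c b - t) a = lagCell y c a := by
  ext x
  simp only [lagCell, mem_setOf_eq]
  refine forall_congr' fun b => ?_
  constructor <;> intro h <;> linarith

lemma lagPot_shift (y : I → EE d) (c : I → ℝ) (t : ℝ) (x : EE d) :
    lagPot y (fun b => c b - t) x = lagPot y c x + t := by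
  obtain ⟨a, ha⟩ := exists_lagPot_eq y c x
  obtain ⟨b, hb⟩ := exists_lagPot_eq y (fun b => c b - t) x
  apply le_antisymm
  · rw [hb]
    have := le_lagPot y c b x
    linarith
  · rw [ha]
    have : ⟪x, y a⟫ - (c a - t) ≤ lagPot y (fun b => c b - t) x := le_lagPot y (fun b => c b - t) a x
    linarith

/-- The potentials are `1`-Lipschitz in the weights (sup norm). -/
lemma abs_lagPot_sub_le (y : I → EE d) (c c' : I → ℝ) (x : EE d) :
    |lagPot y c x - lagPot y c' x| ≤ ‖c - c'‖ := by
  have hb : ∀ a, |c a - c' a| ≤ ‖c - c'‖ := fun a => by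
    have := norm_le_pi_norm (c - c') a
    simpa using this
  rw [abs_le]
  obtain ⟨a, ha⟩ := exists_lagPot_eq y c x
  obtain ⟨b, hb'⟩ := exists_lagPot_eq y c' x
  constructor
  · have h1 := le_lagPot y c b x
    have h2 := (abs_le.1 (hb b)).2
    rw [hb'] at *
    linarith
  · have h1 := le_lagPot y c' a x
    have h2 := (abs_le.1 (hb a)).1
    rw [ha]
    linarith

/-- Uniqueness of the potential up to constants. -/
theorem lagPot_diff_const (hK : Body K) {m : I → ℝ} (hm : ∀ a, 0 < m a) {y : I → EE d}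
    (hy : Function.Injective y) {c c' : I → ℝ}
    (hc : ∀ a, rho K (lagCell y c a) = ENNReal.ofReal (m a))
    (hc' : Fval (rho K) m y c' ≤ Fval (rho K) m y c) :
    ∃ t₀ : ℝ, ∀ᵐ x ∂(rho K), lagPot y c x - lagPot y c' x = t₀ := by
  have hρ := hK.isProb
  have hρac : rho K ≪ volume := rho_absCont
  have hρK := hK.rho_compl
  let mid : I → ℝ := fun a => (c a + c' a) / 2
  have hle := Fval_le hρac hK.compact hρK hm hy hc mid
  -- the integrand of the convexity defect
  let D : EE d → ℝ := fun x => (lagPot y c x + lagPot y c' x) / 2 - lagPot y mid x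
  have hDc : Continuous D :=
    (((continuous_lagPot y c).add (continuous_lagPot y c')).div_const 2).sub (continuous_lagPot y mid)
  have hD0 : 0 ≤ D := by
    intro x
    obtain ⟨a, ha⟩ := exists_lagPot_eq y mid x
    have h1 := le_lagPot y c a x
    have h2 := le_lagPot y c' a x
    simp only [D, ha, mid, Pi.zero_apply]
    linarith
  have hDint : Integrable D (rho K) := integrable_of_continuous hK.compact hρK hDc
  have hc1 : Integrable (lagPot y c) (rho K) := integrable_lagPot hK.compact hρK y c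
  have hc2 : Integrable (lagPot y c') (rho K) := integrable_lagPot hK.compact hρK y c'
  have hc3 : Integrable (lagPot y mid) (rho K) := integrable_lagPot hK.compact hρK y mid
  have hDval : ∫ x, D x ∂(rho K) = (Fval (rho K) m y c + Fval (rho K) m y c') / 2 -
      Fval (rho K) m y mid := by
    unfold Fval
    simp only [D]
    have hadd : Integrable (fun x => (lagPot y c x + lagPot y c' x) / 2) (rho K) :=
      (hc1.add hc2).div_const 2
    rw [integral_sub hadd hc3, integral_div, integral_add hc1 hc2]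
    have : ∑ a, m a * mid a = (∑ a, m a * c a + ∑ a, m a * c' a) / 2 := by
      rw [← Finset.sum_add_distrib, Finset.sum_div]
      refine Finset.sum_congr rfl fun a _ => ?_
      simp only [mid]; ring
    rw [this]; ring
  have hDzero : ∫ x, D x ∂(rho K) = 0 := by
    apply le_antisymm
    · rw [hDval]; linarith
    · exact integral_nonneg hD0
  have hae := (integral_eq_zero_iff_of_nonneg hD0 hDint).1 hDzero
  -- values in a finite set, almost everywhere
  let V : Set ℝ := range fun a => c' a - c a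
  have hVf : V.Finite := finite_range _
  let h : EE d → ℝ := fun x => lagPot y c x - lagPot y c' x
  have hcont : Continuous h := (continuous_lagPot y c).sub (continuous_lagPot y c')
  have hVae : ∀ᵐ x ∂(rho K), h x ∈ V := by
    filter_upwards [hae] with x hx
    obtain ⟨a, ha⟩ := exists_lagPot_eq y mid x
    have h1 := le_lagPot y c a x
    have h2 := le_lagPot y c' a x
    simp only [D, Pi.zero_apply] at hx
    rw [ha] at hx
    simp only [mid] at hx
    refine ⟨a, ?_⟩
    simp only [h]
    linarith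
  -- on the interior everywhere
  have hint : MapsTo h (interior K) V := by
    intro x hx
    by_contra hxV
    have hVc : IsClosed V := hVf.isClosed
    let W : Set (EE d) := interior K ∩ h ⁻¹' Vᶜ
    have hWo : IsOpen W := isOpen_interior.inter (hVc.isOpen_compl.preimage hcont)
    have hWne : W.Nonempty := ⟨x, hx, hxV⟩
    have hWpos : 0 < volume W := hWo.measure_pos volume hWne
    have hWρ : rho K W = 0 := by
      have : W ⊆ {x | ¬ h x ∈ V} := fun u hu => hu.2
      exact measure_mono_null this (ae_iff.1 hVae)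
    rw [rho_apply hK W hWo.measurableSet] at hWρ
    have hWK : W ∩ K = W := inter_eq_left.2 (fun u hu => interior_subset hu.1)
    rw [hWK] at hWρ
    have hinv : (volume K)⁻¹ ≠ 0 := ENNReal.inv_ne_zero.2 hK.volume_ne_top
    rcases mul_eq_zero.1 hWρ with h0 | h0
    · exact hinv h0
    · exact hWpos.ne' h0
  obtain ⟨x₀, hx₀⟩ := hK.interior_nonempty
  obtain ⟨t₀, -, ht₀⟩ := hK.convex.interior.isPreconnected.eqOn_const_of_mapsTo hVf.isDiscrete
    hcont.continuousOn hint ⟨h x₀, hint hx₀⟩
  refine ⟨t₀, ?_⟩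
  -- the interior has full measure
  have hfull : ∀ᵐ x ∂(rho K), x ∈ interior K := by
    rw [ae_iff]
    have hsub : {x | x ∉ interior K} ∩ K ⊆ frontier K := by
      rintro x ⟨hx1, hx2⟩
      rw [frontier, hK.compact.isClosed.closure_eq]
      exact ⟨hx2, hx1⟩
    have hmeas : MeasurableSet {x | x ∉ interior K} :=
      isOpen_interior.measurableSet.compl
    rw [rho_apply hK _ hmeas]
    have h0 : volume ({x | x ∉ interior K} ∩ K) = 0 :=
      measure_mono_null hsub (hK.convex.addHaar_frontier volume)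
    rw [h0, mul_zero]
  filter_upwards [hfull] with x hx using ht₀ hx

/-- The limiting step: along vanishing tilts the potentials converge, tested against `g`. -/
theorem limit_J (hK : Body K) {m : I → ℝ} (hm : ∀ a, 0 < m a) {y : I → EE d}
    (hy : Function.Injective y) {c : I → ℝ}
    (hc : ∀ a, rho K (lagCell y c a) = ENNReal.ofReal (m a))
    {g : EE d → ℝ} (hg : Continuous g) (hmean : ∫ x, g x ∂(rho K) = 0)
    {ε₁ : ℝ} (hε₁ : 0 < ε₁) (hadm : ∀ ε, 0 < ε → ε ≤ ε₁ → Admissible K ε g)
    (cc : ℝ → I → ℝ)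
    (hcc : ∀ ε, 0 < ε → ε ≤ ε₁ → ∀ a, tilt K ε g (lagCell y (cc ε) a) = ENNReal.ofReal (m a))
    {η : ℝ} (hη : 0 < η) :
    ∃ ε, 0 < ε ∧ ε ≤ ε₁ ∧
      (∫ x, lagPot y c x * g x ∂(rho K)) - η ≤ ∫ x, lagPot y (cc ε) x * g x ∂(rho K) := by
  have hρ := hK.isProb
  have hρac : rho K ≪ volume := rho_absCont
  have hρK := hK.rho_compl
  obtain ⟨a₀⟩ := (inferInstance : Nonempty I)
  obtain ⟨D, hD⟩ : ∃ D, ∀ x ∈ K, ‖x‖ ≤ D := hK.compact.exists_bound_of_continuousOn
    continuous_id.continuousOn
  have hD0 : 0 ≤ D := by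
    obtain ⟨x, hx⟩ := hK.interior_nonempty
    exact (norm_nonneg _).trans (hD x (interior_subset hx))
  -- a bound for the atoms
  have hfin : (Set.range y).Finite := finite_range _
  obtain ⟨Ry, hRy⟩ : ∃ R, ∀ a, ‖y a‖ ≤ R :=
    ⟨∑ a, ‖y a‖, fun a => Finset.single_le_sum (f := fun a => ‖y a‖)
      (fun _ _ => norm_nonneg _) (Finset.mem_univ a)⟩
  have hRy0 : 0 ≤ Ry := (norm_nonneg _).trans (hRy a₀)
  set M : ℝ := 2 * D * Ry with hM
  have hM0 : 0 ≤ M := by positivity
  -- the sequence
  let εn : ℕ → ℝ := fun n => ε₁ / (n + 1)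
  have hεn0 : ∀ n, 0 < εn n := fun n => by positivity
  have hεn1 : ∀ n, εn n ≤ ε₁ := fun n => by
    simp only [εn]
    rw [div_le_iff₀ (by positivity)]
    have : (0 : ℝ) ≤ n := Nat.cast_nonneg n
    nlinarith
  have hεnlim : Tendsto εn atTop (𝓝 0) :=
    tendsto_const_nhds.div_atTop (tendsto_atTop_add_const_right _ _ tendsto_natCast_atTop_atTop)
  -- normalised weights
  let cn : ℕ → I → ℝ := fun n b => cc (εn n) b - cc (εn n) a₀
  have hcellsn : ∀ n a, lagCell y (cn n) a = lagCell y (cc (εn n)) a := fun n a =>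
    lagCell_shift y (cc (εn n)) _ a
  have hcnmass : ∀ n a, tilt K (εn n) g (lagCell y (cn n) a) = ENNReal.ofReal (m a) := fun n a => by
    rw [hcellsn]; exact hcc _ (hεn0 n) (hεn1 n) a
  -- each cell meets `K`
  have hnonempty : ∀ n a, ∃ x ∈ K, x ∈ lagCell y (cn n) a := by
    intro n a
    by_contra hne
    push Not at hne
    have hsub : lagCell y (cn n) a ⊆ Kᶜ := fun x hx hxK => hne x hxK hx
    have h0 : tilt K (εn n) g (lagCell y (cn n) a) = 0 :=
      measure_mono_null hsub (tilt_compl hK _ _)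
    rw [hcnmass, ENNReal.ofReal_eq_zero] at h0
    linarith [hm a]
  have hbound : ∀ n, cn n ∈ Metric.closedBall (0 : I → ℝ) M := by
    intro n
    rw [mem_closedBall_zero_iff, pi_norm_le_iff_of_nonneg hM0]
    intro b
    have hb0 : cn n a₀ = 0 := by simp [cn]
    obtain ⟨x₁, hx₁K, hx₁⟩ := hnonempty n b
    obtain ⟨x₂, hx₂K, hx₂⟩ := hnonempty n a₀
    have h1 := hx₁ a₀
    have h2 := hx₂ b
    rw [hb0] at h1 h2
    have i1 : |⟪x₁, y b - y a₀⟫| ≤ D * (Ry + Ry) :=
      (abs_real_inner_le_norm _ _).trans (mul_le_mul (hD _ hx₁K)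
        ((norm_sub_le _ _).trans (add_le_add (hRy _) (hRy _))) (norm_nonneg _) hD0)
    have i2 : |⟪x₂, y b - y a₀⟫| ≤ D * (Ry + Ry) :=
      (abs_real_inner_le_norm _ _).trans (mul_le_mul (hD _ hx₂K)
        ((norm_sub_le _ _).trans (add_le_add (hRy _) (hRy _))) (norm_nonneg _) hD0)
    rw [inner_sub_right] at i1 i2
    rw [Real.norm_eq_abs, abs_le]
    have := abs_le.1 i1
    have := abs_le.1 i2
    constructor <;> nlinarith
  -- extract a convergent subsequence
  obtain ⟨cs, -, φ, hφ, hlim⟩ := (isCompact_closedBall (0 : I → ℝ) M).tendsto_subseq hbound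
  -- `J` and `F` along the sequence
  let J : (I → ℝ) → ℝ := fun b => ∫ x, lagPot y b x * g x ∂(rho K)
  have hgint : Integrable g (rho K) := integrable_of_continuous hK.compact hρK hg
  have hJint : ∀ b, Integrable (fun x => lagPot y b x * g x) (rho K) := fun b =>
    integrable_of_continuous hK.compact hρK ((continuous_lagPot y b).mul hg)
  set Gn := ∫ x, |g x| ∂(rho K) with hGn
  have hGn0 : 0 ≤ Gn := integral_nonneg fun _ => abs_nonneg _
  have hJlip : ∀ b b', |J b - J b'| ≤ ‖b - b'‖ * Gn := by
    intro b b'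
    simp only [J]
    rw [← integral_sub (hJint b) (hJint b')]
    refine (abs_integral_le_integral_abs).trans ?_
    rw [hGn, ← integral_const_mul]
    refine integral_mono ((hJint b).sub (hJint b')).abs (hgint.abs.const_mul _) fun x => ?_
    simp only
    rw [← sub_mul, abs_mul]
    exact mul_le_mul_of_nonneg_right (abs_lagPot_sub_le y b b' x) (abs_nonneg _)
  have hJcont : Continuous J := by
    refine continuous_iff_continuousAt.2 fun b => ?_
    rw [Metric.continuousAt_iff]
    intro ε hε
    refine ⟨ε / (Gn + 1), by positivity, fun b' hb' => ?_⟩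
    rw [dist_eq_norm] at hb' ⊢
    rw [Real.norm_eq_abs]
    refine (hJlip b' b).trans_lt ?_
    have h1 : ‖b' - b‖ * (Gn + 1) < ε := by
      rwa [lt_div_iff₀ (by positivity)] at hb'
    nlinarith [norm_nonneg (b' - b)]
  have hFcont : Continuous fun b => Fval (rho K) m y b := by
    unfold Fval
    refine Continuous.add ?_ (by fun_prop)
    refine continuous_iff_continuousAt.2 fun b => ?_
    rw [Metric.continuousAt_iff]
    intro ε hε
    refine ⟨ε, hε, fun b' hb' => ?_⟩
    rw [dist_eq_norm] at hb' ⊢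
    rw [Real.norm_eq_abs, ← integral_sub (integrable_lagPot hK.compact hρK y b')
      (integrable_lagPot hK.compact hρK y b)]
    refine (abs_integral_le_integral_abs).trans_lt (lt_of_le_of_lt ?_ hb')
    have : ∫ x, |lagPot y b' x - lagPot y b x| ∂(rho K) ≤ ∫ _x, ‖b' - b‖ ∂(rho K) :=
      integral_mono ((integrable_lagPot hK.compact hρK y b').sub
        (integrable_lagPot hK.compact hρK y b)).abs (integrable_const _)
        (fun x => abs_lagPot_sub_le y b' b x)
    simpa using this
  -- the sequence is almost minimising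
  have hbdJ : ∃ B, ∀ n, |J (cn n)| ≤ B := by
    refine ⟨|J 0| + M * Gn, fun n => ?_⟩
    have h1 := hJlip (cn n) 0
    have h2 : ‖cn n - 0‖ ≤ M := by simpa using hbound n
    have h3 : ‖cn n - 0‖ * Gn ≤ M * Gn := mul_le_mul_of_nonneg_right h2 hGn0
    have h4 : |J (cn n)| - |J 0| ≤ |J (cn n) - J 0| := abs_sub_abs_le_abs_sub _ _
    linarith
  obtain ⟨B, hB⟩ := hbdJ
  have hB0 : 0 ≤ B := (abs_nonneg _).trans (hB 0)
  have hF : ∀ n, Fval (rho K) m y (cn n) ≤ Fval (rho K) m y c + εn n * (|J c| + B) := by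
    intro n
    have hadmn := hadm _ (hεn0 n) (hεn1 n)
    have hprob := tilt_isProb hK hadmn
    have h1 := Fval_le (tilt_absCont (εn n) g) hK.compact (tilt_compl hK (εn n) g) hm hy
      (hcnmass n) c
    rw [Fval_tilt hK hadmn hg, Fval_tilt hK hadmn hg] at h1
    have h2 : -(εn n * B) ≤ εn n * J (cn n) := by
      have := (abs_le.1 (hB n)).1
      nlinarith [hεn0 n]
    have h3 : εn n * J c ≤ εn n * |J c| :=
      mul_le_mul_of_nonneg_left (le_abs_self _) (hεn0 n).le
    have e1 : ∫ x, lagPot y (cn n) x * g x ∂(rho K) = J (cn n) := rfl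
    have e2 : ∫ x, lagPot y c x * g x ∂(rho K) = J c := rfl
    rw [e1, e2] at h1
    nlinarith
  -- the limit is a minimiser
  have hFlim : Fval (rho K) m y cs ≤ Fval (rho K) m y c := by
    have l1 : Tendsto (fun n => Fval (rho K) m y (cn (φ n))) atTop
        (𝓝 (Fval (rho K) m y cs)) := hFcont.continuousAt.tendsto.comp hlim
    have l2 : Tendsto (fun n => Fval (rho K) m y c + εn (φ n) * (|J c| + B)) atTop
        (𝓝 (Fval (rho K) m y c + 0 * (|J c| + B))) :=
      tendsto_const_nhds.add ((hεnlim.comp hφ.tendsto_atTop).mul_const _)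
    have := le_of_tendsto_of_tendsto' l1 l2 (fun n => hF (φ n))
    simpa using this
  obtain ⟨t₀, ht₀⟩ := lagPot_diff_const hK hm hy hc hFlim
  have hJeq : J cs = J c := by
    have : J c - J cs = 0 := by
      simp only [J]
      rw [← integral_sub (hJint c) (hJint cs)]
      have : ∫ x, (lagPot y c x * g x - lagPot y cs x * g x) ∂(rho K) =
          ∫ x, t₀ * g x ∂(rho K) := by
        refine integral_congr_ae ?_
        filter_upwards [ht₀] with x hx
        rw [← sub_mul, hx]
      rw [this, integral_const_mul, hmean, mul_zero]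
    linarith
  -- conclusion
  have l3 : Tendsto (fun n => J (cn (φ n))) atTop (𝓝 (J cs)) :=
    hJcont.continuousAt.tendsto.comp hlim
  have hev := (tendsto_order.1 l3).1 (J c - η) (by rw [hJeq]; linarith)
  obtain ⟨n, hn⟩ := hev.exists
  refine ⟨εn (φ n), hεn0 _, hεn1 _, ?_⟩
  have e : ∫ x, lagPot y (cc (εn (φ n))) x * g x ∂(rho K) = J (cn (φ n)) := by
    simp only [J, cn]
    have : ∀ x, lagPot y (fun b => cc (εn (φ n)) b - cc (εn (φ n)) a₀) x * g x =
        lagPot y (cc (εn (φ n))) x * g x + cc (εn (φ n)) a₀ * g x := fun x => by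
      rw [lagPot_shift]; ring
    simp only [this]
    rw [integral_add (hJint _) (hgint.const_mul _), integral_const_mul, hmean]
    ring
  rw [e]
  exact hn.le

/-- The variance inequality. -/
theorem atomic_var (hK : Body K) :
    ∃ C : ℝ, 0 ≤ C ∧ ∀ (I : Type) [Fintype I] [Nonempty I] (m : I → ℝ), (∀ a, 0 < m a) →
      ∑ a, m a = 1 → ∀ (y z : I → EE d), Function.Injective y → Function.Injective z →
      ∀ c c' : I → ℝ, (∀ a, rho K (lagCell y c a) = ENNReal.ofReal (m a)) →
        (∀ a, rho K (lagCell z c' a) = ENNReal.ofReal (m a)) →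
        ∫ x, (lagPot y c x - lagPot z c' x -
            ∫ u, (lagPot y c u - lagPot z c' u) ∂(rho K)) ^ 2 ∂(rho K) ≤
          C * ∑ a, m a * ‖y a - z a‖ ^ 2 := by
  obtain ⟨C₀, hC₀, hGT⟩ := gt_main hK
  refine ⟨C₀, hC₀, ?_⟩
  intro I _ _ m hm hm1 y z hy hz c c' hc hc'
  have hρ := hK.isProb
  have hρac : rho K ≪ volume := rho_absCont
  have hρK := hK.rho_compl
  set f : EE d → ℝ := fun x => lagPot y c x - lagPot z c' x with hf
  have hfc : Continuous f := (continuous_lagPot y c).sub (continuous_lagPot z c')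
  set fbar := ∫ u, f u ∂(rho K) with hfbar
  set g : EE d → ℝ := fun x => f x - fbar with hgdef
  have hg : Continuous g := hfc.sub continuous_const
  have hfint : Integrable f (rho K) := integrable_of_continuous hK.compact hρK hfc
  have hgint : Integrable g (rho K) := integrable_of_continuous hK.compact hρK hg
  have hmean : ∫ x, g x ∂(rho K) = 0 := by
    simp only [hgdef]
    rw [integral_sub hfint (integrable_const _), integral_const]
    simp [hfbar]
  set G := ∫ x, g x ^ 2 ∂(rho K) with hG
  have hG0 : 0 ≤ G := integral_nonneg fun _ => sq_nonneg _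
  set W := ∑ a, m a * ‖y a - z a‖ ^ 2 with hW
  have hW0 : 0 ≤ W := Finset.sum_nonneg fun a _ => mul_nonneg (hm a).le (sq_nonneg _)
  obtain ⟨B, hB⟩ := hK.compact.exists_bound_of_continuousOn hg.continuousOn
  -- admissible scale
  set ε₁ : ℝ := 1 / (2 * (|B| + 1)) with hε₁
  have hε₁0 : 0 < ε₁ := by positivity
  have hadm : ∀ ε, 0 < ε → ε ≤ ε₁ → Admissible K ε g := by
    intro ε hε hεle
    refine ⟨hg.measurable, ⟨B, fun x hx => ?_⟩, fun x hx => ?_, hmean⟩
    · simpa using hB x hx
    · have h1 : |g x| ≤ |B| + 1 := by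
        have := hB x hx
        rw [Real.norm_eq_abs] at this
        linarith [le_abs_self B]
      rw [abs_mul, abs_of_pos hε]
      calc ε * |g x| ≤ ε₁ * (|B| + 1) :=
            mul_le_mul hεle h1 (abs_nonneg _) hε₁0.le
        _ = 1 / 2 := by
            rw [hε₁]; field_simp
  -- weights for the tilted measures
  have hcc0 : ∀ (w : I → EE d), Function.Injective w → ∀ ε : ℝ,
      ∃ b : I → ℝ, 0 < ε → ε ≤ ε₁ → ∀ a, tilt K ε g (lagCell w b a) = ENNReal.ofReal (m a) := by
    intro w hw ε
    by_cases hε : 0 < ε ∧ ε ≤ ε₁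
    · have := tilt_isProb hK (hadm ε hε.1 hε.2)
      obtain ⟨b, hb⟩ := exists_lagWeights hK.compact (tilt K ε g) (tilt_absCont ε g)
        (tilt_compl hK ε g) m hm hm1 w hw
      exact ⟨b, fun _ _ => hb⟩
    · exact ⟨0, fun h1 h2 => absurd ⟨h1, h2⟩ hε⟩
  choose cc hcc using hcc0 y hy
  choose cc₁ hcc₁ using hcc0 z hz
  -- the main inequality for each ε
  have hmain : ∀ ε, 0 < ε → ε ≤ ε₁ →
      (∫ x, lagPot y (cc ε) x * g x ∂(rho K)) - ∫ x, lagPot z c' x * g x ∂(rho K) ≤
        Real.sqrt (C₀ * G) * Real.sqrt W := by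
    intro ε hε hεle
    have hadmε := hadm ε hε hεle
    have hprob := tilt_isProb hK hadmε
    have hac := tilt_absCont (K := K) ε g
    have hcompl := tilt_compl hK ε g
    have hchain : (Fval (tilt K ε g) m y (cc ε) - Fval (rho K) m y c) -
        (Fval (tilt K ε g) m z (cc₁ ε) - Fval (rho K) m z c') ≤
        Real.sqrt (C₀ * ε ^ 2 * G) * Real.sqrt W :=
      chain_bound hK hac hcompl hm hm1 (P := C₀ * ε ^ 2 * G)
      (fun w hw b b' hb hb' => hGT ε g hadmε I m hm hm1 w hw b b' hb hb')
      hy hz hc hc' (hcc ε hε hεle) (hcc₁ ε hε hεle)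
    have h1 : Fval (tilt K ε g) m z (cc₁ ε) ≤ Fval (tilt K ε g) m z c' :=
      Fval_le hac hK.compact hcompl hm hz (hcc₁ ε hε hεle) c'
    have h2 : Fval (rho K) m y c ≤ Fval (rho K) m y (cc ε) :=
      Fval_le hρac hK.compact hρK hm hy hc (cc ε)
    rw [Fval_tilt hK hadmε hg m z c'] at h1
    rw [Fval_tilt hK hadmε hg m y (cc ε)] at hchain
    have hsq : Real.sqrt (C₀ * ε ^ 2 * G) = ε * Real.sqrt (C₀ * G) := by
      have : C₀ * ε ^ 2 * G = ε ^ 2 * (C₀ * G) := by ring
      rw [this, Real.sqrt_mul (sq_nonneg ε), Real.sqrt_sq hε.le]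
    rw [hsq] at hchain
    have h3 : ε * ((∫ x, lagPot y (cc ε) x * g x ∂(rho K)) - ∫ x, lagPot z c' x * g x ∂(rho K)) ≤
        ε * (Real.sqrt (C₀ * G) * Real.sqrt W) := by
      linarith
    exact le_of_mul_le_mul_left h3 hε
  -- passing to the limit
  have hlim : G ≤ Real.sqrt (C₀ * G) * Real.sqrt W := by
    refine le_of_forall_pos_le_add fun η hη => ?_
    obtain ⟨ε, hε, hεle, hε'⟩ := limit_J hK hm hy hc hg hmean hε₁0 hadm cc
      (fun ε h1 h2 => hcc ε h1 h2) hη
    have h1 := hmain ε hε hεle
    have e : G = (∫ x, lagPot y c x * g x ∂(rho K)) - ∫ x, lagPot z c' x * g x ∂(rho K) := by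
      have i1 : Integrable (fun x => lagPot y c x * g x) (rho K) :=
        integrable_of_continuous hK.compact hρK ((continuous_lagPot y c).mul hg)
      have i2 : Integrable (fun x => lagPot z c' x * g x) (rho K) :=
        integrable_of_continuous hK.compact hρK ((continuous_lagPot z c').mul hg)
      rw [← integral_sub i1 i2, hG]
      have : ∀ x, lagPot y c x * g x - lagPot z c' x * g x = g x ^ 2 + fbar * g x := fun x => by
        simp only [hgdef, hf]; ring
      simp only [this]
      rw [integral_add ?_ (hgint.const_mul _), integral_const_mul, hmean, mul_zero, add_zero]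
      exact integrable_of_continuous hK.compact hρK (hg.pow 2)
    linarith
  -- conclusion
  rcases hG0.eq_or_lt with h0 | hpos
  · rw [← h0]; exact mul_nonneg hC₀ hW0
  · have h1 : G ^ 2 ≤ C₀ * G * W := by
      have := mul_self_le_mul_self hG0 hlim
      have e : Real.sqrt (C₀ * G) * Real.sqrt W * (Real.sqrt (C₀ * G) * Real.sqrt W) =
          (C₀ * G) * W := by
        rw [← Real.sqrt_mul (by positivity), Real.mul_self_sqrt (by positivity)]
      rw [e] at this
      nlinarith
    have h2 : G * G ≤ (C₀ * W) * G := by nlinarith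
    exact le_of_mul_le_mul_right h2 hpos

end Crest.Agent.OTS
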