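import Crest.Agent.Lib.OTS.Defs

/-!
# Weak duality for Laguerre cells (part of task T5)
-/

open MeasureTheory Set
open scoped ENNReal RealInnerProductSpace

namespace Crest.Agent.OTS

variable {d : ℕ} {K : Set (EE d)} {I : Type} [Fintype I]

/-- Continuous functions are integrable for a finite measure carried by a compact set. -/
lemma integrable_of_continuous {σ : Measure (EE d)} [IsFiniteMeasure σ] (hKc : IsCompact K)
    (hσK : σ Kᶜ = 0) {F : Type*} [NormedAddCommGroup F] {h : EE d → F}
    (hh : Continuous h) : Integrable h σ := by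
  obtain ⟨B, hB⟩ := hKc.exists_bound_of_continuousOn hh.continuousOn
  refine Integrable.of_bound hh.aestronglyMeasurable B ?_
  have : ∀ᵐ x ∂σ, x ∈ K := by rw [ae_iff]; exact hσK
  filter_upwards [this] with x hx using hB x hx

/-- The dual functional. -/
noncomputable def Fval [Nonempty I] (σ : Measure (EE d)) (m : I → ℝ) (y : I → EE d) (c : I → ℝ) : ℝ :=
  ∫ x, lagPot y c x ∂σ + ∑ a, m a * c a

/-- First moment of a cell. -/
noncomputable def sMom (σ : Measure (EE d)) (y : I → EE d) (c : I → ℝ) (a : I) : EE d :=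
  ∫ x in lagCell y c a, x ∂σ

/-- Splitting an integral over the cells. -/
lemma integral_eq_sum_cells [Nonempty I] {σ : Measure (EE d)} (hσ : σ ≪ volume)
    {y : I → EE d} (hy : Function.Injective y) (c : I → ℝ) {F : Type*} [NormedAddCommGroup F]
    [NormedSpace ℝ F] [CompleteSpace F] {h : EE d → F} (hh : Integrable h σ) :
    ∫ x, h x ∂σ = ∑ a, ∫ x in lagCell y c a, h x ∂σ := by
  have hU : (⋃ a, lagCell y c a) = univ := by
    ext x; simpa using exists_mem_lagCell y c x
  have hd : Pairwise (Function.onFun (AEDisjoint σ) fun a => lagCell y c a) := by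
    intro a b hab
    exact hσ (volume_lagCell_inter y c (fun h => hab (hy h)))
  have := integral_iUnion_ae (μ := σ) (f := h) (s := fun a => lagCell y c a)
    (fun a => (measurableSet_lagCell y c a).nullMeasurableSet) hd
    (by rw [hU]; exact hh.integrableOn)
  rw [hU, Measure.restrict_univ, tsum_fintype] at this
  exact this

variable [Nonempty I]

lemma integrable_id_of_K {σ : Measure (EE d)} [IsFiniteMeasure σ] (hKc : IsCompact K)
    (hσK : σ Kᶜ = 0) : Integrable (fun x : EE d => x) σ :=
  integrable_of_continuous hKc hσK continuous_id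

lemma integrable_lagPot {σ : Measure (EE d)} [IsFiniteMeasure σ] (hKc : IsCompact K)
    (hσK : σ Kᶜ = 0) (y : I → EE d) (c : I → ℝ) : Integrable (lagPot y c) σ :=
  integrable_of_continuous hKc hσK (continuous_lagPot y c)

/-- Integral of an affine function on a cell. -/
lemma setIntegral_affine {σ : Measure (EE d)} [IsFiniteMeasure σ] (hKc : IsCompact K)
    (hσK : σ Kᶜ = 0) {m : I → ℝ} (hm : ∀ a, 0 < m a) {y : I → EE d} {c : I → ℝ}
    (hmass : ∀ a, σ (lagCell y c a) = ENNReal.ofReal (m a)) (y' : EE d) (t : ℝ) (a : I) :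
    ∫ x in lagCell y c a, (⟪x, y'⟫ - t) ∂σ = ⟪sMom σ y c a, y'⟫ - t * m a := by
  have hid : IntegrableOn (fun x : EE d => x) (lagCell y c a) σ :=
    (integrable_id_of_K hKc hσK).integrableOn
  have h1 : ∫ x in lagCell y c a, ⟪x, y'⟫ ∂σ = ⟪sMom σ y c a, y'⟫ := by
    unfold sMom
    have := integral_inner (𝕜 := ℝ) hid y'
    simp only [real_inner_comm] at this ⊢
    exact this
  have h2 : ∫ _x in lagCell y c a, t ∂σ = t * m a := by
    rw [setIntegral_const]
    simp only [Measure.real, hmass, smul_eq_mul]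
    rw [ENNReal.toReal_ofReal (hm a).le]; ring
  rw [integral_sub _ (integrable_const _), h1, h2]
  have hc : Continuous fun x : EE d => ⟪x, y'⟫ := by fun_prop
  exact (integrable_of_continuous hKc hσK hc).integrableOn

/-- Weak duality: the first moments of an admissible family of cells give a subgradient. -/
theorem weak_dual {σ : Measure (EE d)} [IsFiniteMeasure σ] (hσ : σ ≪ volume) (hKc : IsCompact K)
    (hσK : σ Kᶜ = 0) {m : I → ℝ} (hm : ∀ a, 0 < m a) {y : I → EE d}
    (hy : Function.Injective y) {c : I → ℝ}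
    (hmass : ∀ a, σ (lagCell y c a) = ENNReal.ofReal (m a)) (y' : I → EE d) (c' : I → ℝ) :
    ∑ a, ⟪sMom σ y c a, y' a⟫ ≤ Fval σ m y' c' := by
  unfold Fval
  rw [integral_eq_sum_cells hσ hy c (integrable_lagPot hKc hσK y' c'), ← sub_le_iff_le_add,
    ← Finset.sum_sub_distrib]
  refine Finset.sum_le_sum fun a _ => ?_
  have haff := setIntegral_affine hKc hσK hm hmass (y' a) (c' a) a
  have hc : Continuous fun x : EE d => ⟪x, y' a⟫ - c' a := by fun_prop
  have hle : ∫ x in lagCell y c a, (⟪x, y' a⟫ - c' a) ∂σ ≤ ∫ x in lagCell y c a, lagPot y' c' x ∂σ :=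
    setIntegral_mono (integrable_of_continuous hKc hσK hc).integrableOn
      (integrable_lagPot hKc hσK y' c').integrableOn (fun x => le_lagPot y' c' a x)
  rw [haff] at hle
  linarith [mul_comm (c' a) (m a)]

/-- At the weights themselves, equality holds. -/
theorem Fval_eq {σ : Measure (EE d)} [IsFiniteMeasure σ] (hσ : σ ≪ volume) (hKc : IsCompact K)
    (hσK : σ Kᶜ = 0) {m : I → ℝ} (hm : ∀ a, 0 < m a) {y : I → EE d}
    (hy : Function.Injective y) {c : I → ℝ}
    (hmass : ∀ a, σ (lagCell y c a) = ENNReal.ofReal (m a)) :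
    Fval σ m y c = ∑ a, ⟪sMom σ y c a, y a⟫ := by
  unfold Fval
  rw [integral_eq_sum_cells hσ hy c (integrable_lagPot hKc hσK y c), ← Finset.sum_add_distrib]
  refine Finset.sum_congr rfl fun a _ => ?_
  have haff := setIntegral_affine hKc hσK hm hmass (y a) (c a) a
  have hcongr : ∫ x in lagCell y c a, lagPot y c x ∂σ =
      ∫ x in lagCell y c a, (⟪x, y a⟫ - c a) ∂σ := by
    refine setIntegral_congr_fun (measurableSet_lagCell y c a) fun x hx => ?_
    exact (mem_lagCell_iff y c).1 hx
  rw [hcongr, haff]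
  ring

/-- A weight vector with the right masses minimises the dual functional. -/
theorem Fval_le {σ : Measure (EE d)} [IsFiniteMeasure σ] (hσ : σ ≪ volume) (hKc : IsCompact K)
    (hσK : σ Kᶜ = 0) {m : I → ℝ} (hm : ∀ a, 0 < m a) {y : I → EE d}
    (hy : Function.Injective y) {c : I → ℝ}
    (hmass : ∀ a, σ (lagCell y c a) = ENNReal.ofReal (m a)) (c' : I → ℝ) :
    Fval σ m y c ≤ Fval σ m y c' := by
  rw [Fval_eq hσ hKc hσK hm hy hmass]
  exact weak_dual hσ hKc hσK hm hy hmass y c'

/-- Norm bound of the first moment. -/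
lemma norm_sMom_le {σ : Measure (EE d)} [IsFiniteMeasure σ] (hKc : IsCompact K)
    (hσK : σ Kᶜ = 0) {m : I → ℝ} (hm : ∀ a, 0 < m a) {y : I → EE d} {c : I → ℝ}
    (hmass : ∀ a, σ (lagCell y c a) = ENNReal.ofReal (m a)) {D : ℝ} (hD : ∀ x ∈ K, ‖x‖ ≤ D) (a : I) :
    ‖sMom σ y c a‖ ≤ D * m a := by
  unfold sMom
  have hae : ∀ᵐ x ∂(σ.restrict (lagCell y c a)), ‖x‖ ≤ D := by
    have : ∀ᵐ x ∂σ, x ∈ K := by rw [ae_iff]; exact hσK
    filter_upwards [ae_restrict_of_ae this] with x hx using hD x hx
  have := norm_integral_le_of_norm_le_const (μ := σ.restrict (lagCell y c a)) hae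
  simp only [Measure.real, Measure.restrict_apply_univ, hmass] at this
  rwa [ENNReal.toReal_ofReal (hm a).le] at this

end Crest.Agent.OTS
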